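import Mathlib

/-! Finite configurations as multisets, and the Lebesgue-Poisson measure on them. -/

set_option autoImplicit false

namespace Crest.Agent.H5.Gas

open MeasureTheory Set Function
open scoped ENNReal

variable {X : Type} [MeasurableSpace X]

def cfg {n : ℕ} (x : Fin n → X) : Multiset X := (List.ofFn x : List X)

scoped instance msM : MeasurableSpace (Multiset X) :=
  ⨅ n : ℕ, MeasurableSpace.map (cfg (n := n)) inferInstance

lemma measurable_cfg (n : ℕ) : Measurable (cfg : (Fin n → X) → Multiset X) :=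
  fun _ hs => MeasurableSpace.measurableSet_iInf.1 hs n

lemma measurable_of_cfg {β : Type*} [MeasurableSpace β] {F : Multiset X → β}
    (h : ∀ n, Measurable fun x : Fin n → X => F (cfg x)) : Measurable F :=
  fun _ hs => MeasurableSpace.measurableSet_iInf.2 fun n => h n hs

omit [MeasurableSpace X] in
@[simp] lemma card_cfg {n : ℕ} (x : Fin n → X) : (cfg x).card = n := by simp [cfg]

omit [MeasurableSpace X] in
lemma cfg_eq {n : ℕ} (x : Fin n → X) : cfg x = Finset.univ.val.map x := by
  rw [cfg, ← Fin.univ_val_map]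

omit [MeasurableSpace X] in
lemma mem_cfg {n : ℕ} {x : Fin n → X} {y : X} : y ∈ cfg x ↔ ∃ i, x i = y := by
  simp [cfg, List.mem_ofFn]

omit [MeasurableSpace X] in
lemma cfg_cons {n : ℕ} (y : X) (x : Fin n → X) :
    cfg (Fin.cons y x : Fin (n + 1) → X) = y ::ₘ cfg x := by
  simp [cfg, List.ofFn_succ]

omit [MeasurableSpace X] in
lemma exists_cfg (s : Multiset X) : ∃ x : Fin s.card → X, cfg x = s := by
  induction s using Quotient.inductionOn with
  | h l => exact ⟨fun i => l.get i, by simp [cfg]⟩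

lemma measurable_finset_map {α ι : Type*} [MeasurableSpace α] (S : Finset ι) {x : α → ι → X}
    (hx : ∀ i, Measurable fun a => x a i) : Measurable fun a => S.val.map (x a) := by
  have : (fun a => S.val.map (x a)) =
      fun a => cfg fun i : Fin S.card => x a (S.equivFin.symm i) := by
    ext1 a
    rw [cfg_eq]
    have h := Multiset.map_univ_val_equiv S.equivFin.symm
    rw [show (fun i : Fin S.card => x a (S.equivFin.symm i)) =
      (fun j : S => x a j) ∘ S.equivFin.symm from rfl, ← Multiset.map_map, h]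
    exact (Multiset.attach_map_val' _ _).symm
  rw [this]
  exact (measurable_cfg _).comp (measurable_pi_lambda _ fun i => hx _)

lemma measurable_card : Measurable (Multiset.card : Multiset X → ℕ) :=
  measurable_of_cfg fun n => by simp

lemma measurable_cons_cfg {α : Type*} [MeasurableSpace α] {n : ℕ} {y : α → X} {x : α → Fin n → X}
    (hy : Measurable y) (hx : Measurable x) : Measurable fun a => y a ::ₘ cfg (x a) := by
  simp only [← cfg_cons]
  refine (measurable_cfg _).comp (measurable_pi_lambda _ fun i => ?_)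
  refine Fin.cases ?_ (fun i => ?_) i
  · simpa using hy
  · simpa [Function.comp_def] using (measurable_pi_apply i).comp hx

lemma measurable_cons (y : X) : Measurable fun s : Multiset X => y ::ₘ s :=
  measurable_of_cfg fun _ => measurable_cons_cfg measurable_const measurable_id

lemma measurable_msmap {Y : Type} [MeasurableSpace Y] {τ : X → Y} (hτ : Measurable τ) :
    Measurable (Multiset.map τ) := by
  refine measurable_of_cfg fun n => ?_
  simp only [cfg_eq, Multiset.map_map]
  exact measurable_finset_map _ fun i => hτ.comp (measurable_pi_apply i)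

open Classical in
noncomputable def fil (A : Set X) (s : Multiset X) : Multiset X := s.filter (· ∈ A)

omit [MeasurableSpace X] in
lemma mem_fil {A : Set X} {s : Multiset X} {y : X} : y ∈ fil A s ↔ y ∈ s ∧ y ∈ A := by
  classical exact Multiset.mem_filter

omit [MeasurableSpace X] in
@[simp] lemma fil_zero (A : Set X) : fil A 0 = 0 := rfl

omit [MeasurableSpace X] in
lemma fil_cons_of_mem {A : Set X} {y : X} (h : y ∈ A) (s : Multiset X) :
    fil A (y ::ₘ s) = y ::ₘ fil A s := by
  classical exact Multiset.filter_cons_of_pos _ h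

omit [MeasurableSpace X] in
lemma fil_cons_of_notMem {A : Set X} {y : X} (h : y ∉ A) (s : Multiset X) :
    fil A (y ::ₘ s) = fil A s := by
  classical exact Multiset.filter_cons_of_neg _ h

omit [MeasurableSpace X] in
lemma fil_le (A : Set X) (s : Multiset X) : fil A s ≤ s := by
  classical exact Multiset.filter_le _ _

omit [MeasurableSpace X] in
lemma fil_eq_self {A : Set X} {s : Multiset X} (h : ∀ y ∈ s, y ∈ A) : fil A s = s := by
  classical exact Multiset.filter_eq_self.2 h

omit [MeasurableSpace X] in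
lemma fil_fil (A B : Set X) (s : Multiset X) : fil A (fil B s) = fil (A ∩ B) s := by
  classical
  unfold fil
  rw [Multiset.filter_filter]
  congr

omit [MeasurableSpace X] in
lemma fil_add_compl (A : Set X) (s : Multiset X) : fil A s + fil Aᶜ s = s := by
  classical
  unfold fil
  convert Multiset.filter_add_not (· ∈ A) s

lemma measurable_fil {A : Set X} (hA : MeasurableSet A) : Measurable (fil A) := by
  classical
  refine measurable_of_cfg fun n => fun T hT => ?_
  have : (fun x : Fin n → X => fil A (cfg x)) ⁻¹' T = ⋃ S : Finset (Fin n),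
      (⋂ i, {x | x i ∈ A ↔ i ∈ S}) ∩ (fun x => S.val.map x) ⁻¹' T := by
    have key : ∀ x : Fin n → X, fil A (cfg x) =
        (Finset.univ.filter fun i => x i ∈ A).val.map x := by
      intro x
      rw [cfg_eq, fil, Multiset.filter_map, Finset.filter_val]
      congr
    ext x
    simp only [mem_preimage, mem_iUnion, mem_inter_iff, mem_iInter, mem_ofPred_eq, key]
    constructor
    · intro h; exact ⟨_, fun i => by simp, h⟩
    · rintro ⟨S, h1, h2⟩
      rwa [show (Finset.univ.filter fun i => x i ∈ A) = S by ext i; simp [h1 i]]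
  rw [this]
  refine MeasurableSet.iUnion fun S => (MeasurableSet.iInter fun i => ?_).inter
    (measurable_finset_map S (fun i => measurable_pi_apply i) hT)
  exact measurableSet_setOfPred.2
    ((measurableSet_setOfPred.1 (measurable_pi_apply i hA)).iff measurable_const)

lemma measurable_sum_map {f : X → ℝ} (hf : Measurable f) :
    Measurable fun s : Multiset X => (s.map f).sum := by
  refine measurable_of_cfg fun n => ?_
  simp only [cfg_eq, Multiset.map_map]
  exact Finset.measurable_fun_sum Finset.univ fun i _ => hf.comp (measurable_pi_apply i)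

/-- `n` independent points -/
noncomputable def mJ (μ : Measure X) (n : ℕ) : Measure (Multiset X) :=
  (Measure.pi fun _ : Fin n => μ).map cfg

instance (μ : Measure X) [IsFiniteMeasure μ] (n : ℕ) : IsFiniteMeasure (mJ μ n) := by
  unfold mJ; infer_instance

lemma mJ_univ (μ : Measure X) [SigmaFinite μ] (n : ℕ) : mJ μ n univ = μ univ ^ n := by
  rw [mJ, Measure.map_apply (measurable_cfg n) MeasurableSet.univ, preimage_univ, Measure.pi_univ]
  simp

lemma lintegral_mJ (μ : Measure X) (n : ℕ) {F : Multiset X → ℝ≥0∞} (hF : Measurable F) :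
    ∫⁻ s, F s ∂mJ μ n = ∫⁻ x, F (cfg x) ∂Measure.pi fun _ : Fin n => μ :=
  lintegral_map hF (measurable_cfg n)

lemma lintegral_mJ_zero (μ : Measure X) {F : Multiset X → ℝ≥0∞} (hF : Measurable F) :
    ∫⁻ s, F s ∂mJ μ 0 = F 0 := by
  rw [lintegral_mJ μ 0 hF, Measure.pi_of_empty, lintegral_dirac' _ Subsingleton.measurable]
  rfl

lemma measurable_lintegral_cons (μ : Measure X) [SigmaFinite μ] (n : ℕ) {F : Multiset X → ℝ≥0∞}
    (hF : Measurable F) : Measurable fun y => ∫⁻ s, F (y ::ₘ s) ∂mJ μ n := by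
  have : (fun y => ∫⁻ s, F (y ::ₘ s) ∂mJ μ n) =
      fun y => ∫⁻ x, F (y ::ₘ cfg x) ∂Measure.pi fun _ : Fin n => μ :=
    funext fun y => lintegral_mJ μ n (hF.comp (measurable_cons y))
  rw [this]
  exact Measurable.lintegral_prod_right' (f := fun p : X × (Fin n → X) => F (p.1 ::ₘ cfg p.2))
    (hF.comp (measurable_cons_cfg measurable_fst measurable_snd))

lemma lintegral_mJ_succ (μ : Measure X) [SigmaFinite μ] (n : ℕ) {F : Multiset X → ℝ≥0∞}
    (hF : Measurable F) :
    ∫⁻ s, F s ∂mJ μ (n + 1) = ∫⁻ y, ∫⁻ s, F (y ::ₘ s) ∂mJ μ n ∂μ := by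
  have hm : Measurable fun p : X × (Fin n → X) => F (p.1 ::ₘ cfg p.2) :=
    hF.comp (measurable_cons_cfg measurable_fst measurable_snd)
  have h1 := (measurePreserving_piFinSuccAbove (fun _ : Fin (n + 1) => μ) 0).lintegral_comp hm
  rw [lintegral_prod _ hm.aemeasurable] at h1
  rw [lintegral_mJ μ _ hF, lintegral_congr fun y => lintegral_mJ μ n (F := fun s => F (y ::ₘ s))
    (hF.comp (measurable_cons y))]
  refine Eq.trans (lintegral_congr fun x => ?_) h1
  rw [← cfg_cons]
  congr 2
  ext i
  refine Fin.cases ?_ (fun i => ?_) i <;> simp [Fin.tail]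

lemma measurableSet_supp {A : Set X} (hA : MeasurableSet A) :
    MeasurableSet {s : Multiset X | ∀ y ∈ s, y ∈ A} := by
  have : {s : Multiset X | ∀ y ∈ s, y ∈ A} = (fun s => (fil Aᶜ s).card) ⁻¹' {0} := by
    ext s
    simp [Multiset.eq_zero_iff_forall_notMem, mem_fil]
  rw [this]
  exact (measurable_card.comp (measurable_fil hA.compl)) (measurableSet_singleton 0)

lemma ae_mJ (μ : Measure X) [SigmaFinite μ] {A : Set X} (hA : MeasurableSet A) (n : ℕ) :
    ∀ᵐ s ∂mJ (μ.restrict A) n, s.card = n ∧ ∀ y ∈ s, y ∈ A := by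
  refine (ae_map_iff (measurable_cfg n).aemeasurable
    ((measurable_card (measurableSet_singleton n)).inter (measurableSet_supp hA))).2 ?_
  rw [← Measure.restrict_pi_pi]
  filter_upwards [ae_restrict_mem (MeasurableSet.univ_pi fun _ => hA)] with x hx
  refine ⟨card_cfg x, fun y hy => ?_⟩
  obtain ⟨i, rfl⟩ := mem_cfg.1 hy
  exact hx i trivial

lemma ae_card_mJ (μ : Measure X) (n : ℕ) : ∀ᵐ s ∂mJ μ n, s.card = n := by
  exact (ae_map_iff (measurable_cfg n).aemeasurable
    (measurable_card (measurableSet_singleton n))).2 (ae_of_all _ fun x => card_cfg x)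

lemma mJ_map {Y : Type} [MeasurableSpace Y] (μ : Measure X) {τ : X → Y} (hτ : Measurable τ)
    [SigmaFinite (μ.map τ)] (n : ℕ) : mJ (μ.map τ) n = (mJ μ n).map (Multiset.map τ) := by
  rw [mJ, mJ, ← Measure.pi_map_pi fun _ => hτ.aemeasurable,
    Measure.map_map (measurable_cfg n) (by fun_prop),
    Measure.map_map (measurable_msmap hτ) (measurable_cfg n)]
  congr 1
  ext1 x
  simp [cfg_eq, Function.comp_def]

lemma lintegral_mJ_mono {μ ν : Measure X} [SigmaFinite μ] [SigmaFinite ν] (h : μ ≤ ν) (n : ℕ)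
    {F : Multiset X → ℝ≥0∞} (hF : Measurable F) : ∫⁻ s, F s ∂mJ μ n ≤ ∫⁻ s, F s ∂mJ ν n := by
  induction n generalizing F with
  | zero => rw [lintegral_mJ_zero _ hF, lintegral_mJ_zero _ hF]
  | succ n ih =>
    rw [lintegral_mJ_succ _ _ hF, lintegral_mJ_succ _ _ hF]
    exact lintegral_mono' h fun y => ih (hF.comp (measurable_cons y))

lemma lintegral_mJ_union (μ : Measure X) [SigmaFinite μ]
    {A B : Set X} (hA : MeasurableSet A)
    (hB : MeasurableSet B) (hAB : Disjoint A B) (N : ℕ) {F G : Multiset X → ℝ≥0∞}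
    (hF : Measurable F) (hG : Measurable G) :
    ∫⁻ s, F (fil A s) * G (fil B s) ∂mJ (μ.restrict (A ∪ B)) N =
      ∑ ij ∈ Finset.HasAntidiagonal.antidiagonal N, (N.choose ij.1 : ℝ≥0∞) *
        ((∫⁻ s, F s ∂mJ (μ.restrict A) ij.1) * ∫⁻ s, G s ∂mJ (μ.restrict B) ij.2) := by
  induction N generalizing F G with
  | zero =>
    rw [lintegral_mJ_zero _ (F := fun s => F (fil A s) * G (fil B s))
      ((hF.comp (measurable_fil hA)).mul (hG.comp (measurable_fil hB)))]
    simp [lintegral_mJ_zero _ hF, lintegral_mJ_zero _ hG]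
  | succ N ih =>
    rw [lintegral_mJ_succ _ _ (F := fun s => F (fil A s) * G (fil B s))
      ((hF.comp (measurable_fil hA)).mul (hG.comp (measurable_fil hB))),
      lintegral_union hB hAB, Finset.sum_antidiagonal_choose_succ_mul
        (fun i j => (∫⁻ s, F s ∂mJ (μ.restrict A) i) * ∫⁻ s, G s ∂mJ (μ.restrict B) j), add_comm]
    congr 1
    · rw [setLIntegral_congr_fun hB (g := fun y => ∑ ij ∈ Finset.HasAntidiagonal.antidiagonal N,
        (N.choose ij.1 : ℝ≥0∞) * ((∫⁻ s, F s ∂mJ (μ.restrict A) ij.1) *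
          ∫⁻ s, G (y ::ₘ s) ∂mJ (μ.restrict B) ij.2)) fun y hy => by
          simp only [fil_cons_of_mem hy, fil_cons_of_notMem (disjoint_right.1 hAB hy)]
          exact ih (G := fun s => G (y ::ₘ s)) hF (hG.comp (measurable_cons y)),
        lintegral_finsetSum _ fun ij _ =>
          ((measurable_lintegral_cons _ _ hG).const_mul _).const_mul _]
      refine Finset.sum_congr rfl fun ij _ => ?_
      rw [lintegral_const_mul _ ((measurable_lintegral_cons _ _ hG).const_mul _),
        lintegral_const_mul _ (measurable_lintegral_cons _ _ hG), lintegral_mJ_succ _ _ hG]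
    · rw [setLIntegral_congr_fun hA (g := fun y => ∑ ij ∈ Finset.HasAntidiagonal.antidiagonal N,
        (N.choose ij.1 : ℝ≥0∞) * ((∫⁻ s, F (y ::ₘ s) ∂mJ (μ.restrict A) ij.1) *
          ∫⁻ s, G s ∂mJ (μ.restrict B) ij.2)) fun y hy => by
          simp only [fil_cons_of_mem hy, fil_cons_of_notMem (disjoint_left.1 hAB hy)]
          exact ih (F := fun s => F (y ::ₘ s)) (hF.comp (measurable_cons y)) hG,
        lintegral_finsetSum _ fun ij _ =>
          ((measurable_lintegral_cons _ _ hF).mul_const _).const_mul _]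
      refine Finset.sum_congr rfl fun ij hij => ?_
      rw [lintegral_const_mul _ ((measurable_lintegral_cons _ _ hF).mul_const _),
        lintegral_mul_const _ (measurable_lintegral_cons _ _ hF), lintegral_mJ_succ _ _ hF,
        ← Finset.HasAntidiagonal.mem_antidiagonal.1 hij, Nat.choose_symm_add]

/-- the Lebesgue-Poisson measure -/
noncomputable def LP (μ : Measure X) : Measure (Multiset X) :=
  Measure.sum fun n => ((n.factorial : ℝ≥0∞))⁻¹ • mJ μ n

lemma lintegral_LP (μ : Measure X) (F : Multiset X → ℝ≥0∞) :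
    ∫⁻ s, F s ∂LP μ = ∑' n, ((n.factorial : ℝ≥0∞))⁻¹ * ∫⁻ s, F s ∂mJ μ n := by
  rw [LP, lintegral_sum_measure]
  simp only [lintegral_smul_measure, smul_eq_mul]

lemma ae_LP (μ : Measure X) [SigmaFinite μ] {A : Set X} (hA : MeasurableSet A) :
    ∀ᵐ s ∂LP (μ.restrict A), ∀ y ∈ s, y ∈ A := by
  rw [LP, Measure.ae_sum_iff]
  exact fun n => Measure.ae_smul_measure ((ae_mJ μ hA n).mono fun s h => h.2) _

lemma lintegral_LP_union (μ : Measure X) [SigmaFinite μ] {A B : Set X} (hA : MeasurableSet A)
    (hB : MeasurableSet B) (hAB : Disjoint A B) {F G : Multiset X → ℝ≥0∞}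
    (hF : Measurable F) (hG : Measurable G) :
    ∫⁻ s, F (fil A s) * G (fil B s) ∂LP (μ.restrict (A ∪ B)) =
      (∫⁻ s, F s ∂LP (μ.restrict A)) * ∫⁻ s, G s ∂LP (μ.restrict B) := by
  simp only [lintegral_LP, lintegral_mJ_union μ hA hB hAB _ hF hG]
  rw [← ENNReal.tsum_mul_right]
  simp only [← ENNReal.tsum_mul_left]
  rw [← ENNReal.tsum_prod, ← Finset.HasAntidiagonal.sigmaAntidiagonalEquivProd.tsum_eq,
    ENNReal.tsum_sigma']
  refine tsum_congr fun N => ?_
  rw [Finset.mul_sum, ← Finset.tsum_subtype]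
  refine tsum_congr fun ij => ?_
  obtain ⟨⟨i, j⟩, hij⟩ := ij
  obtain rfl := Finset.HasAntidiagonal.mem_antidiagonal.1 hij
  have h := Nat.add_choose_mul_factorial_mul_factorial i j
  have h1 : ((i + j).factorial : ℝ≥0∞)⁻¹ * ((i + j).choose i : ℝ≥0∞) =
      (i.factorial : ℝ≥0∞)⁻¹ * (j.factorial : ℝ≥0∞)⁻¹ := by
    have hi : (i.factorial : ℝ≥0∞) ≠ 0 := by exact_mod_cast i.factorial_ne_zero
    have hj : (j.factorial : ℝ≥0∞) ≠ 0 := by exact_mod_cast j.factorial_ne_zero
    have hc : ((i + j).choose i : ℝ≥0∞) ≠ 0 := by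
      exact_mod_cast (Nat.choose_pos (Nat.le_add_right i j)).ne'
    rw [← h, ← Nat.choose_symm_add]
    push_cast
    rw [mul_assoc, ENNReal.mul_inv (Or.inl hc) (Or.inl (by simp)), mul_right_comm,
      ENNReal.inv_mul_cancel hc (by simp), one_mul, ENNReal.mul_inv (Or.inl hi) (Or.inl (by simp))]
  simp only [Finset.HasAntidiagonal.sigmaAntidiagonalEquivProd_apply]
  rw [← mul_assoc, h1]; ring

lemma lintegral_LP_zero {F : Multiset X → ℝ≥0∞} (hF : Measurable F) :
    ∫⁻ s, F s ∂LP (0 : Measure X) = F 0 := by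
  rw [lintegral_LP, tsum_eq_single 0]
  · simp [lintegral_mJ_zero _ hF]
  · intro n hn
    obtain ⟨n, rfl⟩ := Nat.exists_eq_succ_of_ne_zero hn
    rw [lintegral_mJ_succ _ _ hF]; simp

lemma lintegral_LP_prod (μ : Measure X) [SigmaFinite μ] {ι : Type*} (T : Finset ι)
    (A : ι → Set X) (hA : ∀ b, MeasurableSet (A b)) (hd : (T : Set ι).PairwiseDisjoint A)
    (F : ι → Multiset X → ℝ≥0∞) (hF : ∀ b, Measurable (F b)) :
    ∫⁻ s, ∏ b ∈ T, F b (fil (A b) s) ∂LP (μ.restrict (⋃ b ∈ T, A b)) =
      ∏ b ∈ T, ∫⁻ s, F b s ∂LP (μ.restrict (A b)) := by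
  classical
  induction T using Finset.induction_on with
  | empty => simpa using lintegral_LP_zero (X := X) (F := fun _ => 1) measurable_const
  | insert a T ha ih =>
    rw [Finset.coe_insert, pairwiseDisjoint_insert_of_notMem (by simpa using ha)] at hd
    have hdis : Disjoint (A a) (⋃ b ∈ T, A b) := disjoint_iUnion₂_right.2 fun b hb => hd.2 b hb
    rw [Finset.set_biUnion_insert, Finset.prod_insert ha, ← ih hd.1,
      ← lintegral_LP_union μ (hA a) (Finset.measurableSet_biUnion _ fun b _ => hA b) hdis (hF a)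
        (G := fun s => ∏ b ∈ T, F b (fil (A b) s))
        (Finset.measurable_fun_prod _ fun b _ => (hF b).comp (measurable_fil (hA b)))]
    refine lintegral_congr fun s => ?_
    rw [Finset.prod_insert ha]
    congr 1
    refine Finset.prod_congr rfl fun b hb => ?_
    rw [fil_fil, inter_eq_left.2 (Finset.subset_set_biUnion_of_mem hb)]

lemma lintegral_LP_mono {μ ν : Measure X} [SigmaFinite μ] [SigmaFinite ν] (h : μ ≤ ν)
    {F : Multiset X → ℝ≥0∞} (hF : Measurable F) : ∫⁻ s, F s ∂LP μ ≤ ∫⁻ s, F s ∂LP ν := by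
  simp only [lintegral_LP]
  exact ENNReal.tsum_le_tsum fun n => mul_le_mul_right (lintegral_mJ_mono h n hF) _

lemma lintegral_LP_map {Y : Type} [MeasurableSpace Y] (μ : Measure X) {τ : X → Y}
    (hτ : Measurable τ) [SigmaFinite (μ.map τ)] {F : Multiset Y → ℝ≥0∞} (hF : Measurable F) :
    ∫⁻ s, F s ∂LP (μ.map τ) = ∫⁻ s, F (s.map τ) ∂LP μ := by
  simp only [lintegral_LP, mJ_map μ hτ, lintegral_map hF (measurable_msmap hτ)]

lemma le_lintegral_LP (μ : Measure X) (N : ℕ) (F : Multiset X → ℝ≥0∞) :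
    ((N.factorial : ℝ≥0∞))⁻¹ * ∫⁻ s, F s ∂mJ μ N ≤ ∫⁻ s, F s ∂LP μ := by
  rw [lintegral_LP]; exact ENNReal.le_tsum N

lemma lintegral_LP_card (μ : Measure X) (N : ℕ) (F : Multiset X → ℝ≥0∞) :
    ∫⁻ s, (if s.card = N then F s else 0) ∂LP μ =
      ((N.factorial : ℝ≥0∞))⁻¹ * ∫⁻ s, F s ∂mJ μ N := by
  rw [lintegral_LP, tsum_eq_single N]
  · congr 1
    exact lintegral_congr_ae ((ae_card_mJ μ N).mono fun s h => if_pos h)
  · intro n hn
    rw [lintegral_congr_ae (g := fun _ => 0) ((ae_card_mJ μ n).mono fun s h =>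
      if_neg (by rw [h]; exact hn))]
    simp

end Crest.Agent.H5.Gas
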