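import Mathlib
import Crest.Agent.H5.Gas.Cfg

/-! Pair sums over finite configurations and their block decompositions. -/

set_option autoImplicit false

namespace Crest.Agent.H5.Gas

open MeasureTheory Set Function

variable {X : Type}

def dbl (f : X → X → ℝ) (σ : Multiset X) : ℝ := (σ.map fun x => (σ.map (f x)).sum).sum

lemma dbl_symm (f : X → X → ℝ) (σ : Multiset X) : dbl (fun x y => f y x) σ = dbl f σ :=
  Multiset.sum_map_sum_map _ _

lemma dbl_mono {f g : X → X → ℝ} {σ : Multiset X} (h : ∀ x ∈ σ, ∀ y ∈ σ, f x y ≤ g x y) :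
    dbl f σ ≤ dbl g σ :=
  Multiset.sum_map_le_sum_map _ _ fun x hx => Multiset.sum_map_le_sum_map _ _ fun y hy => h x hx y hy

lemma dbl_congr {f g : X → X → ℝ} {σ : Multiset X} (h : ∀ x ∈ σ, ∀ y ∈ σ, f x y = g x y) :
    dbl f σ = dbl g σ :=
  le_antisymm (dbl_mono fun x hx y hy => (h x hx y hy).le) (dbl_mono fun x hx y hy => (h x hx y hy).ge)

lemma dbl_add (f g : X → X → ℝ) (σ : Multiset X) :
    dbl (fun x y => f x y + g x y) σ = dbl f σ + dbl g σ := by
  simp only [dbl, Multiset.sum_map_add]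

lemma dbl_mul (c : ℝ) (f : X → X → ℝ) (σ : Multiset X) :
    dbl (fun x y => c * f x y) σ = c * dbl f σ := by
  simp only [dbl, Multiset.sum_map_mul_left]

lemma dbl_const (c : ℝ) (σ : Multiset X) : dbl (fun _ _ => c) σ = (σ.card : ℝ) ^ 2 * c := by
  simp [dbl]; ring

lemma dbl_nonneg {f : X → X → ℝ} {σ : Multiset X} (h : ∀ x ∈ σ, ∀ y ∈ σ, 0 ≤ f x y) :
    0 ≤ dbl f σ := by
  have := dbl_mono (f := fun _ _ => 0) h
  rwa [dbl_const, mul_zero] at this

lemma dbl_finset_sum {ι : Type*} (T : Finset ι) (f : ι → X → X → ℝ) (σ : Multiset X) :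
    dbl (fun x y => ∑ i ∈ T, f i x y) σ = ∑ i ∈ T, dbl (f i) σ := by
  classical
  induction T using Finset.induction_on with
  | empty => simpa using dbl_const 0 σ
  | insert a T ha ih => simp only [Finset.sum_insert ha, dbl_add, ih]

lemma abs_dbl_le {f : X → X → ℝ} {C : ℝ} (h : ∀ x y, |f x y| ≤ C) (σ : Multiset X) :
    |dbl f σ| ≤ (σ.card : ℝ) ^ 2 * C := by
  rw [abs_le, ← mul_neg, ← dbl_const, ← dbl_const]
  exact ⟨dbl_mono fun x _ y _ => (abs_le.1 (h x y)).1, dbl_mono fun x _ y _ => (abs_le.1 (h x y)).2⟩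

lemma measurable_dbl [MeasurableSpace X] {f : X → X → ℝ} (hf : Measurable (uncurry f)) :
    Measurable (dbl f) := by
  refine measurable_of_cfg fun n => ?_
  simp only [dbl, cfg_eq, Multiset.map_map]
  refine Finset.measurable_fun_sum Finset.univ fun i _ => ?_
  exact Finset.measurable_fun_sum Finset.univ fun j _ =>
    show Measurable fun x : Fin n → X => uncurry f (x i, x j) from
      hf.comp ((measurable_pi_apply i).prodMk (measurable_pi_apply j))

section part

variable {β : Type*}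

noncomputable def part (g : X → β) (b : β) (σ : Multiset X) : Multiset X := fil (g ⁻¹' {b}) σ

lemma mem_part {g : X → β} {b : β} {σ : Multiset X} {x : X} :
    x ∈ part g b σ ↔ x ∈ σ ∧ g x = b := mem_fil

lemma sum_part (g : X → β) {T : Finset β} {σ : Multiset X} (h : ∀ x ∈ σ, g x ∈ T) :
    ∑ b ∈ T, part g b σ = σ := by
  classical
  induction σ using Multiset.induction_on with
  | empty => simp [part]
  | cons y σ ih =>
    have hy := h y (Multiset.mem_cons_self _ _)
    have : ∀ b ∈ T, part g b (y ::ₘ σ) = (if g y = b then {y} else 0) + part g b σ := by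
      intro b _
      split_ifs with hb
      · rw [part, fil_cons_of_mem (by exact hb)]; rfl
      · rw [part, fil_cons_of_notMem (by exact hb), zero_add]; rfl
    rw [Finset.sum_congr rfl this, Finset.sum_add_distrib, Finset.sum_ite_eq, if_pos hy,
      ih fun x hx => h x (Multiset.mem_cons_of_mem hx)]
    rfl

lemma sum_map_part (g : X → β) {T : Finset β} {σ : Multiset X} (h : ∀ x ∈ σ, g x ∈ T)
    (F : X → ℝ) : (σ.map F).sum = ∑ b ∈ T, ((part g b σ).map F).sum := by
  conv_lhs => rw [← sum_part g h]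
  exact (congrArg Multiset.sum (map_sum (Multiset.mapAddMonoidHom F) _ T)).trans
    (map_sum Multiset.sumAddMonoidHom _ T)

lemma card_part (g : X → β) {T : Finset β} {σ : Multiset X} (h : ∀ x ∈ σ, g x ∈ T) :
    ∑ b ∈ T, (part g b σ).card = σ.card := by
  conv_rhs => rw [← sum_part g h]
  rw [Multiset.card_sum]

lemma sum_map_part' (g : X → β) {T : Finset β} {σ : Multiset X} (h : ∀ x ∈ σ, g x ∈ T)
    (w : β → ℝ) : (σ.map fun x => w (g x)).sum = ∑ b ∈ T, (part g b σ).card * w b := by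
  rw [sum_map_part g h]
  refine Finset.sum_congr rfl fun b _ => ?_
  rw [Multiset.map_congr rfl fun x hx => by rw [(mem_part.1 hx).2]]
  simp

lemma sum_part_le (g : X → β) (T : Finset β) (σ : Multiset X) {F : X → ℝ}
    (hF : ∀ x ∈ σ, 0 ≤ F x) : ∑ b ∈ T, ((part g b σ).map F).sum ≤ (σ.map F).sum := by
  classical
  rw [sum_map_part g (T := T ∪ (σ.map g).toFinset) fun x hx => Finset.mem_union_right _
    (Multiset.mem_toFinset.2 (Multiset.mem_map_of_mem g hx))]
  refine Finset.sum_le_sum_of_subset_of_nonneg Finset.subset_union_left fun b _ _ => ?_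
  refine Multiset.sum_nonneg fun r hr => ?_
  obtain ⟨x, hx, rfl⟩ := Multiset.mem_map.1 hr
  exact hF x (mem_part.1 hx).1

lemma part_eq_zero {g : X → β} {b : β} {σ : Multiset X} (h : ∀ x ∈ σ, g x ≠ b) :
    part g b σ = 0 :=
  Multiset.eq_zero_iff_forall_notMem.2 fun x hx => h x (mem_part.1 hx).1 (mem_part.1 hx).2

lemma dbl_same [DecidableEq β] (g : X → β) {T : Finset β} {σ : Multiset X}
    (h : ∀ x ∈ σ, g x ∈ T) (f : X → X → ℝ) :
    dbl (fun x y => if g x = g y then f x y else 0) σ = ∑ b ∈ T, dbl f (part g b σ) := by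
  rw [dbl, sum_map_part g h]
  refine Finset.sum_congr rfl fun b hb => ?_
  unfold dbl
  congr 1
  refine Multiset.map_congr rfl fun x hx => ?_
  rw [sum_map_part g h, Finset.sum_eq_single b]
  · congr 1
    exact Multiset.map_congr rfl fun y hy => if_pos ((mem_part.1 hx).2.trans (mem_part.1 hy).2.symm)
  · intro b' _ hb'
    refine Multiset.sum_eq_zero fun r hr => ?_
    obtain ⟨y, hy, rfl⟩ := Multiset.mem_map.1 hr
    exact if_neg (by rw [(mem_part.1 hx).2, (mem_part.1 hy).2]; exact hb'.symm)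
  · exact fun h => absurd hb h

lemma dbl_le_sq (g : X → β) {T : Finset β} {σ : Multiset X} (h : ∀ x ∈ σ, g x ∈ T)
    {f : X → X → ℝ} (hs : ∀ x y, f x y = f y x) (h0 : ∀ x y, 0 ≤ f x y) (ω : X → β → ℝ)
    (hω0 : ∀ x b, 0 ≤ ω x b)
    (hω : ∀ x y, f x y ≤ ω x (g y)) {c : ℝ} (hc : ∀ x, ∑ b ∈ T, ω x b ≤ c) :
    dbl f σ ≤ c * ∑ b ∈ T, ((part g b σ).card : ℝ) ^ 2 := by
  set n : X → ℝ := fun x => (part g (g x) σ).card with hn
  have hn1 : ∀ x ∈ σ, 0 < n x := fun x hx => by
    simp only [hn]; exact_mod_cast Multiset.card_pos_iff_exists_mem.2 ⟨x, (mem_part (g := g)).2 ⟨hx, rfl⟩⟩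
  have h1 : dbl f σ ≤ dbl (fun x y => n x * (f x y / n y)) σ := by
    have e1 := dbl_symm (fun x y => n x * (f x y / n y)) σ
    have e2 := dbl_add (fun x y => n x * (f x y / n y)) (fun x y => n y * (f y x / n x)) σ
    have e3 := dbl_mul 2 f σ
    have e4 : dbl (fun x y => 2 * f x y) σ ≤
        dbl (fun x y => n x * (f x y / n y) + n y * (f y x / n x)) σ := by
      refine dbl_mono fun x hx y hy => ?_
      have a := hn1 x hx
      have b := hn1 y hy
      rw [hs y x, show n x * (f x y / n y) + n y * (f x y / n x) =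
        2 * f x y + f x y * (n x - n y) ^ 2 / (n x * n y) by field_simp; ring]
      have := h0 x y
      have : 0 ≤ f x y * (n x - n y) ^ 2 / (n x * n y) := by positivity
      linarith
    linarith
  refine h1.trans ?_
  have h2 : ∑ b ∈ T, ((part g b σ).card : ℝ) ^ 2 = (σ.map n).sum := by
    rw [sum_map_part' g h fun b => ((part g b σ).card : ℝ)]
    simp only [sq]
  rw [h2, ← Multiset.sum_map_mul_left]
  refine Multiset.sum_map_le_sum_map _ _ fun x hx => ?_
  rw [Multiset.sum_map_mul_left, mul_comm c]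
  refine mul_le_mul_of_nonneg_left (le_trans ?_ (hc x)) (hn1 x hx).le
  calc _ ≤ (σ.map fun y => ω x (g y) / (part g (g y) σ).card).sum :=
        Multiset.sum_map_le_sum_map _ _ fun y hy =>
          div_le_div_of_nonneg_right (hω x y) (hn1 y hy).le
    _ = ∑ b ∈ T, (part g b σ).card * (ω x b / (part g b σ).card) :=
        sum_map_part' g h fun b => ω x b / (part g b σ).card
    _ ≤ _ := Finset.sum_le_sum fun b _ => by
        rcases eq_or_ne ((part g b σ).card : ℝ) 0 with h | h
        · rw [h, zero_mul]; exact hω0 x b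
        · rw [mul_div_cancel₀ _ h]

lemma le_dbl (g : X → β) {σ : Multiset X} {f : X → X → ℝ} (h0 : ∀ x y, 0 ≤ f x y)
    (ω : X → β → ℝ) (hω0 : ∀ x b, 0 ≤ ω x b) (hω : ∀ x y, ω x (g y) ≤ f x y) (w : X → ℝ)
    (hw : ∀ x, 0 ≤ w x) (N : X → Finset β) (hN : ∀ x ∈ σ, ∀ b ∈ N x, w x ≤ (part g b σ).card)
    {c : ℝ} (hc : ∀ x, c ≤ ∑ b ∈ N x, ω x b) : c * (σ.map w).sum ≤ dbl f σ := by
  rw [← Multiset.sum_map_mul_left]
  refine Multiset.sum_map_le_sum_map _ _ fun x hx => ?_
  refine le_trans ?_ (sum_part_le g (N x) σ fun y _ => h0 x y)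
  calc c * w x ≤ (∑ b ∈ N x, ω x b) * w x := mul_le_mul_of_nonneg_right (hc x) (hw x)
    _ = ∑ b ∈ N x, w x * ω x b := by rw [Finset.sum_mul]; simp only [mul_comm]
    _ ≤ _ := Finset.sum_le_sum fun b hb => by
        refine (mul_le_mul_of_nonneg_right (hN x hx b hb) (hω0 x b)).trans ?_
        rw [← nsmul_eq_mul, ← Multiset.card_map (f x)]
        refine Multiset.card_nsmul_le_sum fun r hr => ?_
        obtain ⟨y, hy, rfl⟩ := Multiset.mem_map.1 hr
        rw [← (mem_part.1 hy).2]; exact hω x y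

end part

variable [PseudoMetricSpace X]

/-- pair energy -/
noncomputable def en (f : ℝ → ℝ) (σ : Multiset X) : ℝ :=
  (dbl (fun x y => f (dist x y)) σ - σ.card * f 0) / 2

@[simp] lemma en_zero (f : ℝ → ℝ) : en f (0 : Multiset X) = 0 := by simp [en, dbl]

lemma en_cons (f : ℝ → ℝ) (y : X) (σ : Multiset X) :
    en f (y ::ₘ σ) = (σ.map fun x => f (dist y x)).sum + en f σ := by
  simp only [en, dbl, Multiset.map_cons, Multiset.sum_cons, Multiset.sum_map_add, dist_self,
    Multiset.card_cons, dist_comm _ y]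
  push_cast; ring

lemma en_mono {f g : ℝ → ℝ} (h : ∀ r, 0 ≤ r → f r ≤ g r) (σ : Multiset X) : en f σ ≤ en g σ := by
  induction σ using Multiset.induction_on with
  | empty => simp
  | cons y σ ih =>
    rw [en_cons, en_cons]
    exact add_le_add (Multiset.sum_map_le_sum_map _ _ fun x _ => h _ dist_nonneg) ih

lemma en_add (f g : ℝ → ℝ) (σ : Multiset X) : en (fun r => f r + g r) σ = en f σ + en g σ := by
  simp only [en, dbl_add]; ring

lemma en_mul (c : ℝ) (f : ℝ → ℝ) (σ : Multiset X) : en (fun r => c * f r) σ = c * en f σ := by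
  simp only [en, dbl_mul]; ring

lemma en_sub (f g : ℝ → ℝ) (σ : Multiset X) : en (fun r => f r - g r) σ = en f σ - en g σ := by
  have := en_add f (fun r => (-1) * g r) σ
  rw [en_mul] at this
  simp only [neg_mul, one_mul, ← sub_eq_add_neg] at this
  exact this

lemma en_nonneg {f : ℝ → ℝ} (h : ∀ r, 0 ≤ r → 0 ≤ f r) (σ : Multiset X) : 0 ≤ en f σ := by
  have := en_mono (f := fun r => 0 * f r) (g := f) (by simpa using h) σ
  rwa [en_mul, zero_mul] at this

lemma en_finset_sum {ι : Type*} (T : Finset ι) (f : ι → ℝ → ℝ) (σ : Multiset X) :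
    en (fun r => ∑ i ∈ T, f i r) σ = ∑ i ∈ T, en (f i) σ := by
  simp only [en, dbl_finset_sum T fun i x y => f i (dist x y), Finset.mul_sum, ← Finset.sum_div,
    Finset.sum_sub_distrib]

lemma en_hasSum {ι : Type*} {f : ι → ℝ → ℝ} {F : ℝ → ℝ} (h : ∀ r, HasSum (fun i => f i r) (F r))
    (σ : Multiset X) : HasSum (fun i => en (f i) σ) (en F σ) := by
  induction σ using Multiset.induction_on with
  | empty => simp
  | cons y σ ih =>
    simp only [en_cons]
    refine HasSum.add ?_ ih
    clear ih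
    induction σ using Multiset.induction_on with
    | empty => simp
    | cons z σ ih => simpa using (h _).add ih

lemma en_le_of_le {f : ℝ → ℝ} (h : ∀ r, 0 ≤ r → 0 ≤ f r) {t σ : Multiset X} (hle : t ≤ σ) :
    en f t ≤ en f σ := by
  obtain ⟨u, rfl⟩ := Multiset.le_iff_exists_add.1 hle
  induction u using Multiset.induction_on with
  | empty => simp
  | cons y u ih =>
    rw [Multiset.add_cons, en_cons]
    refine le_add_of_nonneg_of_le (Multiset.sum_nonneg fun r hr => ?_) (ih (by simp))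
    obtain ⟨x, -, rfl⟩ := Multiset.mem_map.1 hr
    exact h _ dist_nonneg

lemma en_eq_zero {f : ℝ → ℝ} {σ : Multiset X} (hn : σ.Nodup)
    (h : ∀ x ∈ σ, ∀ y ∈ σ, x ≠ y → f (dist x y) = 0) : en f σ = 0 := by
  induction σ using Multiset.induction_on with
  | empty => simp
  | cons y σ ih =>
    rw [Multiset.nodup_cons] at hn
    rw [en_cons, ih hn.2 fun a ha b hb => h a (Multiset.mem_cons_of_mem ha) b
      (Multiset.mem_cons_of_mem hb), add_zero]
    refine Multiset.sum_eq_zero fun r hr => ?_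
    obtain ⟨x, hx, rfl⟩ := Multiset.mem_map.1 hr
    exact h y (Multiset.mem_cons_self _ _) x (Multiset.mem_cons_of_mem hx)
      fun e => hn.1 (e ▸ hx)

lemma en_map {Y : Type} [PseudoMetricSpace Y] (f : ℝ → ℝ) {τ : X → Y} {σ : Multiset X}
    (h : ∀ x ∈ σ, ∀ y ∈ σ, dist (τ x) (τ y) = dist x y) : en f (σ.map τ) = en f σ := by
  unfold en
  rw [Multiset.card_map, ← dbl_congr (f := fun x y => f (dist (τ x) (τ y)))
    fun x hx y hy => by rw [h x hx y hy]]
  simp [dbl, Multiset.map_map]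

lemma abs_en_le {f : ℝ → ℝ} {C : ℝ} (h : ∀ r, |f r| ≤ C) (σ : Multiset X) :
    |en f σ| ≤ ((σ.card : ℝ) ^ 2 * C + σ.card * C) / 2 := by
  have h1 := abs_le.1 (abs_dbl_le (f := fun x y => f (dist x y)) (fun x y => h _) σ)
  have h2 := abs_le.1 (h 0)
  have h3 : (0 : ℝ) ≤ σ.card := by positivity
  unfold en
  rw [abs_le]; constructor <;> nlinarith [h1.1, h1.2, h2.1, h2.2]

lemma measurable_en [MeasurableSpace X] [OpensMeasurableSpace X] [SecondCountableTopology X]
    {f : ℝ → ℝ} (hf : Measurable f) : Measurable (en (X := X) f) := by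
  have h1 : Measurable (dbl fun x y : X => f (dist x y)) :=
    measurable_dbl (hf.comp measurable_dist)
  have h2 : Measurable fun σ : Multiset X => (σ.card : ℝ) := measurable_from_top.comp measurable_card
  unfold en
  fun_prop

variable {β : Type*} [DecidableEq β]

/-- energy between different blocks -/
noncomputable def crs (g : X → β) (f : ℝ → ℝ) (σ : Multiset X) : ℝ :=
  dbl (fun x y => if g x = g y then 0 else f (dist x y)) σ / 2

lemma en_eq_sum_part (g : X → β) {T : Finset β} {σ : Multiset X} (h : ∀ x ∈ σ, g x ∈ T)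
    (f : ℝ → ℝ) : en f σ = ∑ b ∈ T, en f (part g b σ) + crs g f σ := by
  have h1 := dbl_add (fun x y => if g x = g y then f (dist x y) else 0)
    (fun x y => if g x = g y then 0 else f (dist x y)) σ
  rw [dbl_same g h, dbl_congr (g := fun x y => f (dist x y))
    fun x _ y _ => by split_ifs <;> simp] at h1
  simp only [en, crs, h1, ← Finset.sum_div, Finset.sum_sub_distrib, ← Finset.sum_mul]
  rw [← card_part g h]
  push_cast; ring

lemma crs_nonneg (g : X → β) {f : ℝ → ℝ} (h : ∀ r, 0 ≤ r → 0 ≤ f r) (σ : Multiset X) :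
    0 ≤ crs g f σ :=
  div_nonneg (dbl_nonneg fun x _ y _ => by split_ifs; exacts [le_rfl, h _ dist_nonneg]) zero_le_two

lemma crs_nonpos (g : X → β) {f : ℝ → ℝ} {σ : Multiset X}
    (h : ∀ x ∈ σ, ∀ y ∈ σ, g x ≠ g y → f (dist x y) ≤ 0) : crs g f σ ≤ 0 := by
  have := dbl_mono (f := fun x y => if g x = g y then 0 else f (dist x y)) (g := fun _ _ => 0)
    (σ := σ) fun x hx y hy => by split_ifs with h'; exacts [le_rfl, h x hx y hy h']
  rw [dbl_const, mul_zero] at this
  unfold crs; linarith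

lemma crs_add (g : X → β) (f f' : ℝ → ℝ) (σ : Multiset X) :
    crs g (fun r => f r + f' r) σ = crs g f σ + crs g f' σ := by
  rw [crs, crs, crs, ← add_div, ← dbl_add]
  congr 1
  exact dbl_congr fun x _ y _ => by split_ifs <;> simp

lemma crs_le_en (g : X → β) {f : ℝ → ℝ} (h : ∀ r, 0 ≤ r → 0 ≤ f r) (σ : Multiset X) :
    crs g f σ ≤ en f σ := by
  rw [en_eq_sum_part g (T := (σ.map g).toFinset) fun x hx =>
    Multiset.mem_toFinset.2 (Multiset.mem_map_of_mem g hx)]
  exact le_add_of_nonneg_left (Finset.sum_nonneg fun b _ => en_nonneg h _)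

end Crest.Agent.H5.Gas
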