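import Mathlib
import Crest.Prelude.Def_PairPotential
import Crest.Agent.H5.Gas.Pair

/-! Cubic grids in three-space. -/

set_option autoImplicit false

namespace Crest.Agent.H5.Gas

open MeasureTheory Set Function
open Crest.ProbabilityR.Continuum
open scoped ENNReal

abbrev Z3 := Fin 3 → ℤ

noncomputable def blk (l s : ℝ) (x : Pt) : Z3 := fun a => ⌊(x a + s) / l⌋

lemma measurable_blk (l s : ℝ) : Measurable (blk l s) :=
  measurable_pi_lambda _ fun a => Int.measurable_floor.comp (by fun_prop)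

def cell (l s : ℝ) (b : Z3) : Set Pt := blk l s ⁻¹' {b}

lemma measurableSet_cell (l s : ℝ) (b : Z3) : MeasurableSet (cell l s b) :=
  measurable_blk l s (measurableSet_singleton b)

lemma blk_eq_iff {l : ℝ} (hl : 0 < l) (s : ℝ) (x : Pt) (b : Z3) :
    blk l s x = b ↔ ∀ a, l * b a - s ≤ x a ∧ x a < l * b a - s + l := by
  rw [funext_iff]
  refine forall_congr' fun a => ?_
  rw [blk, Int.floor_eq_iff, le_div_iff₀ hl, div_lt_iff₀ hl]
  constructor <;> rintro ⟨h1, h2⟩ <;> constructor <;> linarith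

lemma pairwiseDisjoint_cell (l s : ℝ) (T : Set Z3) : T.PairwiseDisjoint (cell l s) :=
  pairwiseDisjoint_fiber _ _

lemma volume_cell {l : ℝ} (hl : 0 < l) (s : ℝ) (b : Z3) :
    volume (cell l s b) = ENNReal.ofReal (l ^ 3) := by
  have : cell l s b = WithLp.ofLp ⁻¹' (Set.pi univ fun a => Ico (l * b a - s) (l * b a - s + l)) := by
    ext x
    simp only [cell, mem_preimage, mem_singleton_iff, blk_eq_iff hl, mem_pi, mem_univ, mem_Ico,
      true_imp_iff]
  rw [this, (PiLp.volume_preserving_ofLp (Fin 3)).measure_preimage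
    (MeasurableSet.univ_pi fun _ => measurableSet_Ico).nullMeasurableSet, Real.volume_pi_Ico]
  simp [ENNReal.ofReal_pow hl.le]

lemma measurableSet_cube (L : ℝ) : MeasurableSet (cube L) := by
  have : cube L = ⋂ a, (fun x : Pt => x a) ⁻¹' Icc 0 L := by ext x; simp [cube]
  rw [this]
  exact MeasurableSet.iInter fun a => (by fun_prop : Measurable fun x : Pt => x a) measurableSet_Icc

lemma volume_cube {L : ℝ} (hL : 0 ≤ L) : volume (cube L) = ENNReal.ofReal (L ^ 3) := by
  have : cube L = WithLp.ofLp ⁻¹' (Icc (fun _ => 0) fun _ => L) := by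
    ext x; simp [cube, Pi.le_def, forall_and]
  rw [this, (PiLp.volume_preserving_ofLp (Fin 3)).measure_preimage
    measurableSet_Icc.nullMeasurableSet, Real.volume_Icc_pi]
  simp [ENNReal.ofReal_pow hL]

lemma cube_mono {L L' : ℝ} (h : L ≤ L') : cube L ⊆ cube L' :=
  fun _ hx a => ⟨(hx a).1, (hx a).2.trans h⟩

lemma abs_sub_le_dist (x y : Pt) (a : Fin 3) : |x a - y a| ≤ dist x y := by
  have := PiLp.dist_apply_le x y a
  rwa [Real.dist_eq] at this

lemma dist_le_of_coord {x y : Pt} {d : ℝ} (h : ∀ a, |x a - y a| ≤ d) : dist x y ≤ 2 * d := by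
  have hd : 0 ≤ d := (abs_nonneg _).trans (h 0)
  rw [EuclideanSpace.dist_eq, Fin.sum_univ_three, Real.sqrt_le_iff]
  have h0 := sq_le_sq' (abs_le.1 (h 0)).1 (abs_le.1 (h 0)).2
  have h1 := sq_le_sq' (abs_le.1 (h 1)).1 (abs_le.1 (h 1)).2
  have h2 := sq_le_sq' (abs_le.1 (h 2)).1 (abs_le.1 (h 2)).2
  simp only [Real.dist_eq, sq_abs]
  exact ⟨by positivity, by nlinarith⟩

lemma dist_le_of_blk_eq {l : ℝ} (hl : 0 < l) {s : ℝ} {x y : Pt} (h : blk l s x = blk l s y) :
    dist x y ≤ 2 * l := by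
  refine dist_le_of_coord fun a => ?_
  have h1 := (blk_eq_iff hl s x _).1 h a
  have h2 := (blk_eq_iff hl s y _).1 rfl a
  rw [abs_le]; constructor <;> linarith [h1.1, h1.2, h2.1, h2.2]

def vec (v : Fin 3 → ℝ) : Pt := WithLp.toLp 2 v

@[simp] lemma vec_apply (v : Fin 3 → ℝ) (a : Fin 3) : vec v a = v a := rfl

/-- the box of block labels -/
noncomputable def bx (Q : ℕ) : Finset Z3 := Fintype.piFinset fun _ => Finset.Ico (0 : ℤ) Q

lemma card_bx (Q : ℕ) : (bx Q).card = Q ^ 3 := by simp [bx]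

lemma mem_bx {Q : ℕ} {b : Z3} : b ∈ bx Q ↔ ∀ a, 0 ≤ b a ∧ b a < Q := by simp [bx]

lemma blk_mem_bx {l s L : ℝ} (hl : 0 < l) (hs0 : 0 ≤ s) (hs : s < l) {q : ℕ} (hL : L ≤ q * l)
    {x : Pt} (hx : x ∈ cube L) : blk l s x ∈ bx (q + 1) := by
  refine mem_bx.2 fun a => ⟨Int.floor_nonneg.2 (div_nonneg (by linarith [(hx a).1]) hl.le), ?_⟩
  rw [blk, Int.floor_lt, div_lt_iff₀ hl]
  push_cast
  linarith [(hx a).2]

lemma exists_cover {d l : ℝ} (hd : 0 < d) (hl : 0 ≤ l) (o : Fin 3 → ℝ) :
    ∃ T : Finset Z3, (T.card : ℝ) ≤ (l / d + 2) ^ 3 ∧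
      ∀ x : Pt, (∀ a, o a ≤ x a ∧ x a ≤ o a + l) → blk d 0 x ∈ T := by
  refine ⟨Fintype.piFinset fun a => Finset.Icc ⌊o a / d⌋ (⌊o a / d⌋ + ⌈l / d⌉₊), ?_, ?_⟩
  · simp only [Fintype.card_piFinset, Int.card_Icc]
    have : ∀ a, (⌊o a / d⌋ + (⌈l / d⌉₊ : ℤ) + 1 - ⌊o a / d⌋).toNat = ⌈l / d⌉₊ + 1 := by
      intro a; omega
    simp only [this, Finset.prod_const, Finset.card_univ, Fintype.card_fin]
    push_cast
    have := Nat.ceil_lt_add_one (div_nonneg hl hd.le)
    exact pow_le_pow_left₀ (by positivity) (by linarith) 3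
  · intro x hx
    simp only [Fintype.mem_piFinset, Finset.mem_Icc, blk, add_zero]
    intro a
    refine ⟨Int.floor_mono (div_le_div_of_nonneg_right (hx a).1 hd.le), ?_⟩
    rw [← Int.floor_add_natCast]
    refine Int.floor_mono ?_
    have := div_le_div_of_nonneg_right (hx a).2 hd.le
    rw [add_div] at this
    linarith [Nat.le_ceil (l / d)]

lemma card_le_of_separated {d l : ℝ} (hd : 0 < d) (hl : 0 ≤ l) (o : Fin 3 → ℝ) (S : Finset Pt)
    (hS : ∀ x ∈ S, ∀ a, o a ≤ x a ∧ x a ≤ o a + l)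
    (hsep : ∀ x ∈ S, ∀ y ∈ S, x ≠ y → 2 * d < dist x y) : (S.card : ℝ) ≤ (l / d + 2) ^ 3 := by
  obtain ⟨T, hT, hT'⟩ := exists_cover hd hl o
  refine le_trans ?_ hT
  exact_mod_cast Finset.card_le_card_of_injOn (blk d 0) (fun x hx => hT' x (hS x hx))
    fun x hx y hy h => by_contra fun hne => (hsep x hx y hy hne).not_ge (dist_le_of_blk_eq hd h)

lemma blk_nest {l : ℝ} (hl : 0 < l) (r u : ℕ) (x : Pt) :
    blk (r * l) (u * l) x = fun a => (blk l 0 x a + u) / r := by
  ext a
  rw [blk, blk, add_zero, ← Int.floor_add_natCast, ← Int.floor_div_natCast]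
  congr 1
  rw [mul_comm (r : ℝ), ← div_div, add_div, mul_div_cancel_right₀ _ hl.ne']

lemma card_cut_le {R : ℝ} (hR : 0 < R) (q : ℕ) {x y : Pt} (h : dist x y ≤ R) :
    ((Finset.range q).filter fun u : ℕ => blk (q * R) (u * R) x ≠ blk (q * R) (u * R) y).card ≤ 3 := by
  have key : ∀ A B : ℤ, B = A + 1 →
      ((Finset.range q).filter fun u : ℕ => (A + u) / q ≠ (B + u) / q).card ≤ 1 := by
    intro A B hB
    refine Finset.card_le_one.2 fun u hu v hv => ?_
    simp only [Finset.mem_filter, Finset.mem_range] at hu hv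
    have hq : (0 : ℤ) < q := by omega
    have f : ∀ u : ℕ, (A + u) / q ≠ (B + u) / q → (q : ℤ) ∣ B + u := by
      intro u hu
      by_contra hnd
      apply hu
      have e1 := Int.emod_add_mul_ediv (A + u) q
      have e2 := Int.emod_nonneg (A + u) hq.ne'
      have e3 := Int.emod_lt_of_pos (A + u) hq
      have e4 : (A + u) % q + 1 ≠ q := fun h => hnd ⟨(A + u) / q + 1, by rw [hB]; linarith⟩
      symm
      refine ((Int.ediv_emod_unique (r := (A + u) % q + 1) hq).2 ⟨by rw [hB]; linarith, by omega,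
        by omega⟩).1
    have h1 := Int.dvd_sub (f u hu.2) (f v hv.2)
    have h2 := Int.eq_zero_of_abs_lt_dvd h1 (by rw [abs_lt]; constructor <;> omega)
    omega
  have h1 : ∀ a, ((Finset.range q).filter fun u : ℕ =>
      (blk R 0 x a + u) / q ≠ (blk R 0 y a + u) / q).card ≤ 1 := by
    intro a
    have h2 := abs_le.1 ((abs_sub_le_dist x y a).trans h)
    have h3 := (blk_eq_iff hR 0 x _).1 rfl a
    have h4 := (blk_eq_iff hR 0 y _).1 rfl a
    have h5 : blk R 0 x a < blk R 0 y a + 2 := by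
      have : R * (blk R 0 x a) < R * (blk R 0 y a + 2) := by linarith [h3.1, h4.2, h2.2]
      exact_mod_cast lt_of_mul_lt_mul_left this hR.le
    have h6 : blk R 0 y a < blk R 0 x a + 2 := by
      have : R * (blk R 0 y a) < R * (blk R 0 x a + 2) := by linarith [h3.2, h4.1, h2.1]
      exact_mod_cast lt_of_mul_lt_mul_left this hR.le
    rcases lt_trichotomy (blk R 0 x a) (blk R 0 y a) with hlt | heq | hlt
    · exact key _ _ (by omega)
    · simp [heq]
    · simpa only [ne_comm] using key (blk R 0 y a) (blk R 0 x a) (by omega)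
  calc _ ≤ (Finset.univ.biUnion fun a : Fin 3 => (Finset.range q).filter fun u : ℕ =>
        (blk R 0 x a + u) / q ≠ (blk R 0 y a + u) / q).card := by
        refine Finset.card_le_card fun u hu => ?_
        rw [Finset.mem_filter, blk_nest hR, blk_nest hR] at hu
        obtain ⟨a, ha⟩ := Function.ne_iff.1 hu.2
        exact Finset.mem_biUnion.2 ⟨a, Finset.mem_univ _, Finset.mem_filter.2 ⟨hu.1, ha⟩⟩
    _ ≤ ∑ _a : Fin 3, 1 := Finset.card_biUnion_le.trans (Finset.sum_le_sum fun a _ => h1 a)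
    _ = 3 := by simp

lemma sum_crs_shift_le {R : ℝ} (hR : 0 < R) (q : ℕ) {f : ℝ → ℝ} (h0 : ∀ r, 0 ≤ r → 0 ≤ f r)
    (hf : ∀ r, R < r → f r = 0) (σ : Multiset Pt) :
    ∑ u ∈ Finset.range q, crs (blk (q * R) (u * R)) f σ ≤ 3 * en f σ := by
  induction σ using Multiset.induction_on with
  | empty => simp [crs, dbl]
  | cons y σ ih =>
    have : ∀ g : Pt → Z3, crs g f (y ::ₘ σ) =
        (σ.map fun x => if g y = g x then 0 else f (dist y x)).sum + crs g f σ := by
      intro g
      simp only [crs, dbl, Multiset.map_cons, Multiset.sum_cons, Multiset.sum_map_add, if_true,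
        dist_comm _ y, eq_comm (b := g y)]
      ring
    simp only [this, Finset.sum_add_distrib, en_cons, mul_add]
    refine add_le_add ?_ ih
    rw [← Multiset.sum_map_mul_left, ← Multiset.sum_map_sum]
    refine Multiset.sum_map_le_sum_map _ _ fun x _ => ?_
    by_cases hd : dist y x ≤ R
    · rw [Finset.sum_ite, Finset.sum_const_zero, zero_add, Finset.sum_const, nsmul_eq_mul]
      refine mul_le_mul_of_nonneg_right ?_ (h0 _ dist_nonneg)
      exact_mod_cast card_cut_le hR q hd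
    · simp [hf _ (not_le.1 hd)]

lemma measurable_ptrans (l s : ℝ) (d : Z3 → Pt) : Measurable fun x : Pt => x + d (blk l s x) :=
  measurable_id.add ((measurable_of_countable d).comp (measurable_blk l s))

/-- piecewise translations do not increase the volume density -/
lemma map_ptrans_le (l s : ℝ) (T : Finset Z3) (d : Z3 → Pt) {Λ : Set Pt}
    (hinj : ∀ b ∈ T, ∀ b' ∈ T, ∀ x ∈ cell l s b, ∀ y ∈ cell l s b', x + d b = y + d b' → b = b')
    (hΛ : ∀ b ∈ T, ∀ x ∈ cell l s b, x + d b ∈ Λ) :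
    (volume.restrict (⋃ b ∈ T, cell l s b)).map (fun x : Pt => x + d (blk l s x)) ≤
      volume.restrict Λ := by
  refine Measure.le_iff.2 fun E hE => ?_
  have hm : ∀ b, MeasurableSet ((fun x : Pt => x + -d b) ⁻¹' cell l s b) := fun b =>
    measurable_add_const _ (measurableSet_cell l s b)
  rw [Measure.map_apply (measurable_ptrans l s d) hE,
    Measure.restrict_apply (measurable_ptrans l s d hE), Measure.restrict_apply hE, inter_iUnion₂]
  calc _ ≤ ∑ b ∈ T, volume ((fun x : Pt => x + d (blk l s x)) ⁻¹' E ∩ cell l s b) :=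
        measure_biUnion_finset_le _ _
    _ = ∑ b ∈ T, volume (E ∩ (fun x : Pt => x + -d b) ⁻¹' cell l s b) := by
        refine Finset.sum_congr rfl fun b _ => ?_
        rw [← measure_preimage_add_right volume (d b) (E ∩ _)]
        congr 1
        ext x
        simp only [mem_inter_iff, mem_preimage, add_neg_cancel_right]
        refine and_congr_left fun h => ?_
        rw [show blk l s x = b from h]
    _ = volume (⋃ b ∈ T, E ∩ (fun x : Pt => x + -d b) ⁻¹' cell l s b) := by
        refine (measure_biUnion_finset (fun b hb b' hb' hne => ?_) fun b _ => hE.inter (hm b)).symm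
        refine Set.disjoint_left.2 fun x h1 h2 => hne (hinj b hb b' hb' _ h1.2 _ h2.2 ?_)
        simp
    _ ≤ _ := by
        refine measure_mono (iUnion₂_subset fun b hb x hx => ⟨hx.1, ?_⟩)
        simpa using hΛ b hb _ hx.2

end Crest.Agent.H5.Gas
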