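import Mathlib
import Crest.Agent.H5.Gas.Grid

/-! Kac kernels and their comparison with block sums of squares. -/

set_option autoImplicit false

namespace Crest.Agent.H5.Gas

open MeasureTheory Set Function
open Crest.ProbabilityR.Continuum
open scoped ENNReal

noncomputable def tent (R r : ℝ) : ℝ := max 0 (1 - |r| / R)

noncomputable def IR (R : ℝ) : ℝ := ∫ z : Pt, tent R ‖z‖

/-- the normalised Kac kernel of range `R` -/
noncomputable def JR (R r : ℝ) : ℝ := tent R r / IR R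

lemma continuous_tent (R : ℝ) : Continuous (tent R) := by unfold tent; fun_prop

lemma tent_eq_zero {R r : ℝ} (hR : 0 < R) (h : R ≤ r) : tent R r = 0 := by
  refine max_eq_left (sub_nonpos.2 ?_)
  rw [le_div_iff₀ hR, one_mul]; exact h.trans (le_abs_self r)

lemma integrable_tent {R : ℝ} (hR : 0 < R) : Integrable fun z : Pt => tent R ‖z‖ := by
  refine ((continuous_tent R).comp continuous_norm).integrable_of_hasCompactSupport
    (HasCompactSupport.intro (isCompact_closedBall 0 R) fun z hz => tent_eq_zero hR ?_)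
  simpa using (not_le.1 (mt mem_closedBall_zero_iff.2 hz)).le

lemma volume_ball_ge (x : Pt) {r : ℝ} (hr : 0 ≤ r) :
    ENNReal.ofReal (4 * r ^ 3) ≤ volume (Metric.ball x r) := by
  rw [EuclideanSpace.volume_ball_fin_three, ← ENNReal.ofReal_pow hr,
    ← ENNReal.ofReal_mul (by positivity)]
  refine ENNReal.ofReal_le_ofReal ?_
  nlinarith [Real.pi_gt_three, pow_nonneg hr 3]

lemma volume_ball_le (x : Pt) {r : ℝ} (hr : 0 ≤ r) :
    volume (Metric.ball x r) ≤ ENNReal.ofReal (8 * r ^ 3) := by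
  rw [EuclideanSpace.volume_ball_fin_three, ← ENNReal.ofReal_pow hr,
    ← ENNReal.ofReal_mul (by positivity)]
  refine ENNReal.ofReal_le_ofReal ?_
  nlinarith [Real.pi_le_four, pow_nonneg hr 3]

lemma IR_ge {R : ℝ} (hR : 0 < R) : R ^ 3 / 4 ≤ IR R := by
  have h1 : ∫ z : Pt, (Metric.ball (0 : Pt) (R / 2)).indicator (fun _ => (1 / 2 : ℝ)) z ≤ IR R := by
    refine integral_mono ((integrableOn_const measure_ball_lt_top.ne).integrable_indicator
      Metric.isOpen_ball.measurableSet) (integrable_tent hR) fun z => ?_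
    by_cases hz : z ∈ Metric.ball (0 : Pt) (R / 2)
    · rw [indicator_of_mem hz]
      refine le_max_of_le_right ?_
      rw [mem_ball_zero_iff] at hz
      have : |‖z‖| / R ≤ 1 / 2 := by rw [abs_norm, div_le_iff₀ hR]; linarith
      linarith
    · rw [indicator_of_notMem hz]; exact le_max_left _ _
  rw [integral_indicator_const _ Metric.isOpen_ball.measurableSet, smul_eq_mul] at h1
  have h2 := (ENNReal.ofReal_le_iff_le_toReal measure_ball_lt_top.ne).1
    (volume_ball_ge (0 : Pt) (r := R / 2) (by positivity))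
  rw [Measure.real] at h1
  nlinarith

lemma IR_pos {R : ℝ} (hR : 0 < R) : 0 < IR R := lt_of_lt_of_le (by positivity) (IR_ge hR)

lemma continuous_JR (R : ℝ) : Continuous (JR R) := (continuous_tent R).div_const _

lemma JR_nonneg {R : ℝ} (hR : 0 < R) (r : ℝ) : 0 ≤ JR R r :=
  div_nonneg (le_max_left _ _) (IR_pos hR).le

lemma JR_eq_zero {R r : ℝ} (hR : 0 < R) (h : R ≤ r) : JR R r = 0 := by
  rw [JR, tent_eq_zero hR h, zero_div]

lemma JR_le {R : ℝ} (hR : 0 < R) (r : ℝ) : JR R r ≤ 4 / R ^ 3 := by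
  have h1 : tent R r ≤ 1 := max_le zero_le_one (sub_le_self _ (by positivity))
  rw [JR, div_le_div_iff₀ (IR_pos hR) (by positivity)]
  nlinarith [IR_ge hR, pow_pos hR 3]

lemma JR_lip {R : ℝ} (hR : 0 < R) (r r' : ℝ) : |JR R r - JR R r'| ≤ 4 / R ^ 4 * |r - r'| := by
  have h1 : |tent R r - tent R r'| ≤ |r - r'| / R := by
    unfold tent
    rw [max_comm 0, max_comm 0]
    refine (abs_max_sub_max_le_abs _ _ _).trans ?_
    rw [sub_sub_sub_cancel_left, ← sub_div, abs_div, abs_of_pos hR, abs_sub_comm r]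
    exact div_le_div_of_nonneg_right (abs_abs_sub_abs_le_abs_sub _ _) hR.le
  rw [JR, JR, ← sub_div, abs_div, abs_of_pos (IR_pos hR), div_le_iff₀ (IR_pos hR)]
  refine h1.trans ?_
  calc |r - r'| / R = 4 / R ^ 4 * |r - r'| * (R ^ 3 / 4) := by field_simp
    _ ≤ _ := mul_le_mul_of_nonneg_left (IR_ge hR) (by positivity)

lemma integrable_JR {R : ℝ} (hR : 0 < R) (x : Pt) : Integrable fun z : Pt => JR R (dist x z) := by
  simp only [dist_eq_norm]
  exact ((integrable_tent hR).comp_sub_left x).div_const _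

lemma integral_JR {R : ℝ} (hR : 0 < R) (x : Pt) : ∫ z : Pt, JR R (dist x z) = 1 := by
  simp only [dist_eq_norm, JR]
  rw [integral_div, integral_sub_left_eq_self (fun z : Pt => tent R ‖z‖)]
  exact div_self (IR_pos hR).ne'

/-- neighbourhood of a block -/
noncomputable def nb (ϱ : ℕ) (b : Z3) : Finset Z3 :=
  Fintype.piFinset fun a => Finset.Icc (b a - ϱ) (b a + ϱ)

lemma card_nb (ϱ : ℕ) (b : Z3) : (nb ϱ b).card = (2 * ϱ + 1) ^ 3 := by
  have : ∀ a, (b a + ϱ + 1 - (b a - ϱ)).toNat = 2 * ϱ + 1 := fun a => by omega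
  simp [nb, this]

lemma mem_nb {ϱ : ℕ} {b b' : Z3} : b' ∈ nb ϱ b ↔ ∀ a, b a - ϱ ≤ b' a ∧ b' a ≤ b a + ϱ := by
  simp [nb]

lemma blk_mem_nb {l : ℝ} (hl : 0 < l) (s : ℝ) {ϱ : ℕ} {x y : Pt} (h : dist x y ≤ ϱ * l) :
    blk l s y ∈ nb ϱ (blk l s x) := by
  refine mem_nb.2 fun a => ?_
  have h1 := abs_le.1 ((abs_sub_le_dist x y a).trans h)
  rw [sub_le_iff_le_add, blk, blk, ← Int.floor_add_natCast, ← Int.floor_add_natCast]
  constructor <;> refine Int.floor_mono ?_ <;> rw [div_add' _ _ _ hl.ne'] <;>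
    refine div_le_div_of_nonneg_right (by linarith [h1.1, h1.2]) hl.le

noncomputable def avg (R l s : ℝ) (x : Pt) (b : Z3) : ℝ :=
  (∫ z in cell l s b, JR R (dist x z)) / l ^ 3

lemma abs_avg_sub {R l : ℝ} (hR : 0 < R) (hl : 0 < l) (s : ℝ) (x y : Pt) :
    |avg R l s x (blk l s y) - JR R (dist x y)| ≤ 8 * l / R ^ 4 := by
  have hv : volume.real (cell l s (blk l s y)) = l ^ 3 := by
    rw [Measure.real, volume_cell hl, ENNReal.toReal_ofReal (by positivity)]
  have hv' : volume (cell l s (blk l s y)) < ⊤ := by rw [volume_cell hl]; simp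
  have h1 := norm_setIntegral_le_of_norm_le_const (μ := volume) (C := 8 * l / R ^ 4)
    (f := fun z => JR R (dist x z) - JR R (dist x y)) hv' fun z hz => by
      refine (JR_lip hR _ _).trans ?_
      have h2 := abs_dist_sub_le z y x
      rw [dist_comm z x, dist_comm y x] at h2
      calc _ ≤ 4 / R ^ 4 * (2 * l) :=
            mul_le_mul_of_nonneg_left (h2.trans (dist_le_of_blk_eq hl hz)) (by positivity)
        _ = _ := by ring
  rw [integral_sub (integrable_JR hR x).integrableOn (integrableOn_const hv'.ne),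
    setIntegral_const, hv, smul_eq_mul, Real.norm_eq_abs] at h1
  rw [avg, div_sub' (by positivity), abs_div, abs_of_pos (pow_pos hl 3), div_le_iff₀ (by positivity)]
  exact h1

lemma sum_avg {R l : ℝ} (hR : 0 < R) (hl : 0 < l) (s : ℝ) {ϱ : ℕ} (h : R ≤ ϱ * l) (x : Pt) :
    ∑ b ∈ nb ϱ (blk l s x), avg R l s x b = 1 / l ^ 3 := by
  simp only [avg, ← Finset.sum_div]
  rw [← integral_biUnion_finset _ (fun b _ => measurableSet_cell l s b)
    (pairwiseDisjoint_cell l s _) fun b _ => (integrable_JR hR x).integrableOn,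
    setIntegral_eq_integral_of_forall_compl_eq_zero, integral_JR hR]
  intro z hz
  refine JR_eq_zero hR (not_lt.1 fun hlt => hz ?_)
  exact mem_iUnion₂.2 ⟨_, blk_mem_nb hl s (hlt.le.trans h), rfl⟩

lemma nb_err {R l : ℝ} (hl : 0 < l) (h : l ≤ R) (b : Z3) :
    ((nb ⌈R / l⌉₊ b).card : ℝ) * (8 * l / R ^ 4) ≤ 1000 * l / R / l ^ 3 := by
  have hR : 0 < R := hl.trans_le h
  have h1 := Nat.ceil_lt_add_one (div_pos hR hl).le
  have h2 : 1 ≤ R / l := (one_le_div hl).2 h
  rw [card_nb]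
  push_cast
  calc _ ≤ (5 * (R / l)) ^ 3 * (8 * l / R ^ 4) :=
        mul_le_mul_of_nonneg_right (pow_le_pow_left₀ (by positivity) (by linarith) 3)
          (by positivity)
    _ = _ := by field_simp; norm_num

lemma le_ceil_mul {R l : ℝ} (hl : 0 < l) : R ≤ ⌈R / l⌉₊ * l := (div_le_iff₀ hl).1 (Nat.le_ceil _)

/-- half the sum of squared block occupation numbers over the block volume -/
noncomputable def Sq (l s : ℝ) (σ : Multiset Pt) : ℝ :=
  dbl (fun x y => if blk l s x = blk l s y then 1 else 0) σ / (2 * l ^ 3)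

lemma Sq_eq {l s : ℝ} {T : Finset Z3} {σ : Multiset Pt} (h : ∀ x ∈ σ, blk l s x ∈ T) :
    Sq l s σ = ∑ b ∈ T, ((part (blk l s) b σ).card : ℝ) ^ 2 / (2 * l ^ 3) := by
  rw [Sq, dbl_same _ h fun _ _ => 1, Finset.sum_div]
  simp only [dbl_const, mul_one]

lemma Sq_nonneg {l : ℝ} (hl : 0 < l) (s : ℝ) (σ : Multiset Pt) : 0 ≤ Sq l s σ :=
  div_nonneg (dbl_nonneg fun _ _ _ _ => by split_ifs <;> norm_num) (by positivity)

lemma measurable_Sq (l s : ℝ) : Measurable (Sq l s) := by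
  refine (measurable_dbl ?_).div_const _
  refine Measurable.ite (measurableSet_eq_fun ?_ ?_) measurable_const measurable_const
  exacts [(measurable_blk l s).comp measurable_fst, (measurable_blk l s).comp measurable_snd]

lemma Sq_le_card {l : ℝ} (hl : 0 < l) (s : ℝ) (σ : Multiset Pt) :
    Sq l s σ ≤ (σ.card : ℝ) ^ 2 / (2 * l ^ 3) := by
  refine div_le_div_of_nonneg_right ?_ (by positivity)
  have := dbl_const (X := Pt) 1 σ
  rw [mul_one] at this
  rw [← this]
  exact dbl_mono fun _ _ _ _ => by split_ifs <;> norm_num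

lemma mem_toFinset_map {β : Type*} [DecidableEq β] (g : Pt → β) (σ : Multiset Pt) :
    ∀ x ∈ σ, g x ∈ (σ.map g).toFinset :=
  fun _ hx => Multiset.mem_toFinset.2 (Multiset.mem_map_of_mem g hx)

lemma sum_Sq_part_le {β : Type*} [DecidableEq β] (g : Pt → β) {T : Finset β} {σ : Multiset Pt}
    (h : ∀ x ∈ σ, g x ∈ T) {l : ℝ} (hl : 0 < l) (s : ℝ) :
    ∑ b ∈ T, Sq l s (part g b σ) ≤ Sq l s σ := by
  simp only [Sq, ← Finset.sum_div]
  rw [← dbl_same g h]
  refine div_le_div_of_nonneg_right (dbl_mono fun _ _ _ _ => ?_) (by positivity)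
  split_ifs <;> norm_num

lemma sq_card_le {d l : ℝ} (hd : 0 < d) (hl : 0 ≤ l) (o : Fin 3 → ℝ) {σ : Multiset Pt}
    (h : ∀ x ∈ σ, ∀ a, o a ≤ x a ∧ x a ≤ o a + l) :
    (σ.card : ℝ) ^ 2 ≤ 2 * (l + 2 * d) ^ 3 * Sq d 0 σ := by
  obtain ⟨T, hT, hT'⟩ := exists_cover hd hl o
  have h1 : ∀ x ∈ σ, blk d 0 x ∈ T := fun x hx => hT' x (h x hx)
  rw [Sq_eq h1, ← card_part _ h1, ← Finset.sum_div]
  push_cast
  refine sq_sum_le_card_mul_sum_sq.trans ?_
  calc _ ≤ (l / d + 2) ^ 3 * ∑ b ∈ T, ((part (blk d 0) b σ).card : ℝ) ^ 2 :=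
        mul_le_mul_of_nonneg_right hT (by positivity)
    _ = _ := by field_simp

lemma sq_card_part_le {d l : ℝ} (hd : 0 < d) (hl : 0 < l) (s : ℝ) (b : Z3) (σ : Multiset Pt) :
    ((part (blk l s) b σ).card : ℝ) ^ 2 ≤ 2 * (l + 2 * d) ^ 3 * Sq d 0 (part (blk l s) b σ) :=
  sq_card_le hd hl.le (fun a => l * b a - s) fun _ hx a =>
    ((blk_eq_iff hl s _ b).1 (mem_part.1 hx).2 a).imp_right le_of_lt

lemma Sq_le_Sq {d l : ℝ} (hd : 0 < d) (hl : 0 < l) (s : ℝ) (σ : Multiset Pt) :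
    Sq l s σ ≤ (1 + 2 * d / l) ^ 3 * Sq d 0 σ := by
  have h := mem_toFinset_map (blk l s) σ
  rw [Sq_eq h]
  refine le_trans ?_ (mul_le_mul_of_nonneg_left (sum_Sq_part_le _ h hd 0) (by positivity))
  rw [Finset.mul_sum]
  refine Finset.sum_le_sum fun b _ => ?_
  rw [div_le_iff₀ (by positivity)]
  refine (sq_card_part_le hd hl s b σ).trans (le_of_eq ?_)
  field_simp

lemma Sq_le_27 {d l : ℝ} (hd : 0 < d) (hl : d ≤ l) (s : ℝ) (σ : Multiset Pt) :
    Sq l s σ ≤ 27 * Sq d 0 σ := by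
  have h0 := hd.trans_le hl
  refine (Sq_le_Sq hd h0 s σ).trans (mul_le_mul_of_nonneg_right ?_ (Sq_nonneg hd _ _))
  have : 2 * d / l ≤ 2 := by rw [div_le_iff₀ h0]; linarith
  calc _ ≤ (3 : ℝ) ^ 3 := pow_le_pow_left₀ (by positivity) (by linarith) 3
    _ = 27 := by norm_num

/-- J1 -/
lemma en_JR_le {R l : ℝ} (hl : 0 < l) (h : l ≤ R) (s : ℝ) (σ : Multiset Pt) :
    en (JR R) σ ≤ (1 + 1000 * l / R) * Sq l s σ := by
  classical
  have hR : 0 < R := hl.trans_le h
  have hT := mem_toFinset_map (blk l s) σ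
  have havg : ∀ x b, 0 ≤ avg R l s x b := fun x b =>
    div_nonneg (integral_nonneg fun _ => JR_nonneg hR _) (by positivity)
  have := dbl_le_sq (blk l s) hT (f := fun x y => JR R (dist x y)) (fun x y => by rw [dist_comm])
    (fun _ _ => JR_nonneg hR _)
    (fun x b => if b ∈ nb ⌈R / l⌉₊ (blk l s x) then avg R l s x b + 8 * l / R ^ 4 else 0)
    (fun x b => by
      split_ifs
      · have := havg x b; positivity
      · exact le_rfl)
    (fun x y => by
      split_ifs with h'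
      · linarith [(abs_le.1 (abs_avg_sub hR hl s x y)).1]
      · exact (JR_eq_zero hR (not_lt.1 fun hlt =>
          h' (blk_mem_nb hl s (hlt.le.trans (le_ceil_mul hl))))).le)
    (c := (1 + 1000 * l / R) / l ^ 3) (fun x => by
      rw [← Finset.sum_filter, Finset.filter_mem_eq_inter]
      refine (Finset.sum_le_sum_of_subset_of_nonneg Finset.inter_subset_right
        fun b _ _ => by have := havg x b; positivity).trans ?_
      rw [Finset.sum_add_distrib, sum_avg hR hl s (le_ceil_mul hl), Finset.sum_const,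
        nsmul_eq_mul, add_div]
      exact add_le_add le_rfl (nb_err hl h _))
  rw [Sq_eq hT, ← Finset.sum_div, en]
  have h2 : 0 ≤ (σ.card : ℝ) * JR R 0 := mul_nonneg (by positivity) (JR_nonneg hR _)
  calc _ ≤ _ / 2 := div_le_div_of_nonneg_right ((sub_le_self _ h2).trans this) zero_le_two
    _ = _ := by field_simp

/-- J2, for monotone occupation numbers -/
lemma le_en_JR {R l : ℝ} (hl : 0 < l) (h : l ≤ R) (hε : 1000 * l / R ≤ 1) {Q : ℕ}
    {σ : Multiset Pt} (hσ : ∀ x ∈ σ, blk l 0 x ∈ bx Q) {K : ℝ}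
    (hK : ∀ b ∈ bx Q, ((part (blk l 0) b σ).card : ℝ) ≤ K)
    (hmono : ∀ b ∈ bx Q, ∀ b' ∈ bx Q, b ≤ b' →
      (part (blk l 0) b σ).card ≤ (part (blk l 0) b' σ).card) :
    (1 - 1000 * l / R) * Sq l 0 σ - 6 * R * Q ^ 2 * K ^ 2 / l ^ 4 - 2 * σ.card / R ^ 3 ≤
      en (JR R) σ := by
  classical
  have hR : 0 < R := hl.trans_le h
  set ϱ := ⌈R / l⌉₊ with hϱ
  set n : Z3 → ℝ := fun b => (part (blk l 0) b σ).card with hn
  have hn0 : ∀ b, 0 ≤ n b := fun b => by simp only [hn]; positivity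
  set I : Finset Z3 := Fintype.piFinset fun _ => Finset.Ico (ϱ : ℤ) (Q - ϱ) with hI
  have hIm : ∀ b, b ∈ I ↔ ∀ a, (ϱ : ℤ) ≤ b a ∧ b a < Q - ϱ := fun b => by simp [hI]
  set w : Z3 → ℝ := fun b => if b ∈ I then n (fun a => b a - ϱ) else 0 with hw
  have hw0 : ∀ b, 0 ≤ w b := fun b => by simp only [hw]; split_ifs; exacts [hn0 _, le_rfl]
  have h1 := le_dbl (blk l 0) (σ := σ) (f := fun x y => JR R (dist x y))
    (fun _ _ => JR_nonneg hR _) (fun x b => max 0 (avg R l 0 x b - 8 * l / R ^ 4))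
    (fun _ _ => le_max_left _ _)
    (fun x y => max_le (JR_nonneg hR _) (by linarith [(abs_le.1 (abs_avg_sub hR hl 0 x y)).2]))
    (fun x => w (blk l 0 x)) (fun _ => hw0 _) (fun x => nb ϱ (blk l 0 x))
    (fun x _ b hb => by
      simp only [hw]
      split_ifs with h'
      · rw [hIm] at h'
        rw [mem_nb] at hb
        simp only [hn, Nat.cast_le]
        refine hmono _ (mem_bx.2 fun a => ?_) _ (mem_bx.2 fun a => ?_) fun a => (hb a).1 <;>
          have := h' a <;> have := hb a <;> omega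
      · positivity)
    (c := (1 - 1000 * l / R) / l ^ 3) (fun x => by
      refine le_trans ?_ (Finset.sum_le_sum fun b _ => le_max_right _ _)
      rw [Finset.sum_sub_distrib, sum_avg hR hl 0 (le_ceil_mul hl), Finset.sum_const,
        nsmul_eq_mul, sub_div]
      exact sub_le_sub_left (nb_err hl h _) _)
  rw [sum_map_part' _ hσ] at h1
  by_cases hQ : Q = 0
  · subst hQ
    have : σ = 0 := Multiset.eq_zero_iff_forall_notMem.2 fun x hx => by
      have := mem_bx.1 (hσ x hx) 0; omega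
    simp [this, Sq, dbl]
  have hK0 : 0 ≤ K := (hn0 _).trans (hK 0 (mem_bx.2 fun a => by simp; omega))
  -- the sum of `w`
  have h2 : ∑ b ∈ bx Q, n b - K * (6 * ϱ * Q ^ 2) ≤ ∑ b ∈ bx Q, w b := by
    have hsub : I ⊆ bx Q := fun b hb => mem_bx.2 fun a => by have := (hIm b).1 hb a; omega
    set I' := I.image fun (b : Z3) a => b a - ϱ with hI'
    have hinj : InjOn (fun (b : Z3) a => b a - ϱ) I := fun b _ b' _ h => by
      ext a; simpa using congrFun h a
    have hsub' : I' ⊆ bx Q := fun b hb => by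
      obtain ⟨b', hb', rfl⟩ := Finset.mem_image.1 hb
      exact mem_bx.2 fun a => by have := (hIm b').1 hb' a; omega
    simp only [hw]
    rw [← Finset.sum_filter, Finset.filter_mem_eq_inter, Finset.inter_eq_right.2 hsub,
      ← Finset.sum_image (f := n) hinj, ← hI', ← Finset.sum_sdiff hsub']
    have h3 : ∑ b ∈ bx Q \ I', n b ≤ (bx Q \ I').card • K :=
      Finset.sum_le_card_nsmul _ _ _ fun b hb => hK b (Finset.mem_sdiff.1 hb).1
    have h4 : ((bx Q \ I').card : ℝ) ≤ 6 * ϱ * Q ^ 2 := by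
      rw [Finset.card_sdiff_of_subset hsub', Finset.card_image_of_injOn hinj, card_bx, hI,
        Fintype.card_piFinset]
      simp only [Int.card_Ico, Finset.prod_const, Finset.card_univ, Fintype.card_fin]
      have : Q ^ 3 - ((Q : ℤ) - ϱ - ϱ).toNat ^ 3 ≤ 6 * ϱ * Q ^ 2 := by
        rcases le_total Q (2 * ϱ) with h5 | h5
        · refine (Nat.sub_le _ _).trans ?_
          calc Q ^ 3 = Q * Q ^ 2 := by ring
            _ ≤ _ := Nat.mul_le_mul_right _ (by omega)
        · obtain ⟨c, rfl⟩ := Nat.exists_eq_add_of_le h5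
          rw [show (((2 * ϱ + c : ℕ) : ℤ) - ϱ - ϱ).toNat = c by omega, tsub_le_iff_right]
          nlinarith [Nat.zero_le (ϱ ^ 3), Nat.zero_le (ϱ ^ 2 * c)]
      exact_mod_cast this
    rw [nsmul_eq_mul] at h3
    nlinarith
  have h5 : ∑ b ∈ bx Q, n b ^ 2 - K ^ 2 * (6 * ϱ * Q ^ 2) ≤ ∑ b ∈ bx Q, n b * w b := by
    have : ∑ b ∈ bx Q, (n b ^ 2 - n b * w b) ≤ ∑ b ∈ bx Q, K * (n b - w b) := by
      refine Finset.sum_le_sum fun b hb => ?_
      have h6 : w b ≤ n b := by
        simp only [hw]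
        split_ifs with h'
        · simp only [hn, Nat.cast_le]
          refine hmono _ (mem_bx.2 fun a => ?_) _ hb fun a => by simp
          have := (hIm b).1 h' a; omega
        · exact hn0 b
      have h7 : n b ≤ K := hK b hb
      nlinarith
    rw [← Finset.mul_sum, Finset.sum_sub_distrib, Finset.sum_sub_distrib] at this
    nlinarith
  have h6 : (ϱ : ℝ) ≤ 2 * R / l := by
    have h1 := Nat.ceil_lt_add_one (div_pos hR hl).le
    have h2 : 1 ≤ R / l := (one_le_div hl).2 h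
    rw [mul_div_assoc]; linarith
  have h7 := mul_le_mul_of_nonneg_left (JR_le hR 0) (Nat.cast_nonneg σ.card)
  have h8 := (mul_le_mul_of_nonneg_left h5
    (div_nonneg (sub_nonneg.2 hε) (pow_pos hl 3).le)).trans h1
  have h9 : (1 - 1000 * l / R) / l ^ 3 * (K ^ 2 * (6 * ϱ * Q ^ 2)) ≤
      1 / l ^ 3 * (K ^ 2 * (6 * (2 * R / l) * Q ^ 2)) := by
    have : 0 ≤ 1000 * l / R := by positivity
    gcongr; linarith
  rw [Sq_eq hσ, ← Finset.sum_div, en]
  have e1 : 1 / l ^ 3 * (K ^ 2 * (6 * (2 * R / l) * Q ^ 2)) =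
    2 * (6 * R * Q ^ 2 * K ^ 2 / l ^ 4) := by field_simp
  have e2 : (σ.card : ℝ) * (4 / R ^ 3) = 2 * (2 * σ.card / R ^ 3) := by ring
  have e3 : (1 - 1000 * l / R) / l ^ 3 * ∑ b ∈ bx Q, n b ^ 2 =
    2 * ((1 - 1000 * l / R) * ((∑ b ∈ bx Q, n b ^ 2) / (2 * l ^ 3))) := by field_simp
  rw [mul_sub] at h8
  simp only [hn] at e3 h8
  linarith

end Crest.Agent.H5.Gas
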