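import Mathlib
import Crest.Agent.H5.Gas.Kac

/-! Partition functions: elementary properties and superadditivity. -/

set_option autoImplicit false

namespace Crest.Agent.H5.Gas

open MeasureTheory Set Function
open Crest.ProbabilityR.Continuum
open scoped ENNReal

noncomputable def ex (r : ℝ) : ℝ≥0∞ := ENNReal.ofReal (Real.exp r)

lemma ex_add (a b : ℝ) : ex (a + b) = ex a * ex b := by
  rw [ex, Real.exp_add, ENNReal.ofReal_mul (Real.exp_pos _).le]; rfl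

@[simp] lemma ex_zero : ex 0 = 1 := by simp [ex]

lemma ex_le_ex {a b : ℝ} : ex a ≤ ex b ↔ a ≤ b := by
  rw [ex, ex, ENNReal.ofReal_le_ofReal_iff (Real.exp_pos _).le, Real.exp_le_exp]

lemma ex_mono {a b : ℝ} (h : a ≤ b) : ex a ≤ ex b := ex_le_ex.2 h

lemma ex_ne_zero (a : ℝ) : ex a ≠ 0 := by simp [ex, Real.exp_pos]

lemma ex_ne_top (a : ℝ) : ex a ≠ ⊤ := ENNReal.ofReal_ne_top

lemma ex_sum {ι : Type*} (T : Finset ι) (f : ι → ℝ) : ex (∑ i ∈ T, f i) = ∏ i ∈ T, ex (f i) := by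
  classical
  induction T using Finset.induction_on with
  | empty => simp
  | insert a T ha ih => rw [Finset.sum_insert ha, Finset.prod_insert ha, ex_add, ih]

lemma ex_pow (a : ℝ) (n : ℕ) : ex a ^ n = ex (n * a) := by
  rw [ex, ex, ← ENNReal.ofReal_pow (Real.exp_pos _).le, Real.exp_nat_mul]

lemma ex_log {a : ℝ} (h : 0 < a) : ex (Real.log a) = ENNReal.ofReal a := by
  rw [ex, Real.exp_log h]

@[fun_prop] lemma measurable_ex : Measurable ex := by unfold ex; fun_prop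

noncomputable def Zf (A : Set Pt) (N : ℕ) (F : Multiset Pt → ℝ≥0∞) : ℝ≥0∞ :=
  ((N.factorial : ℝ≥0∞))⁻¹ * ∫⁻ σ, F σ ∂mJ (volume.restrict A) N

lemma Zf_mono {A : Set Pt} (hA : MeasurableSet A) {N : ℕ} {F G : Multiset Pt → ℝ≥0∞}
    (h : ∀ σ : Multiset Pt, σ.card = N → (∀ x ∈ σ, x ∈ A) → F σ ≤ G σ) : Zf A N F ≤ Zf A N G :=
  mul_le_mul_right (lintegral_mono_ae ((ae_mJ _ hA N).mono fun σ hσ => h σ hσ.1 hσ.2)) _

lemma Zf_mono_set {A A' : Set Pt} (h : A ⊆ A') (N : ℕ) {F : Multiset Pt → ℝ≥0∞}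
    (hF : Measurable F) : Zf A N F ≤ Zf A' N F :=
  mul_le_mul_right (lintegral_mJ_mono (Measure.restrict_mono_set _ h) N hF) _

lemma Zf_const_mul (A : Set Pt) (N : ℕ) (c : ℝ≥0∞) {F : Multiset Pt → ℝ≥0∞}
    (hF : Measurable F) : Zf A N (fun σ => c * F σ) = c * Zf A N F := by
  rw [Zf, Zf, lintegral_const_mul _ hF, mul_left_comm]

lemma Zf_add (A : Set Pt) (N : ℕ) {F : Multiset Pt → ℝ≥0∞} (G : Multiset Pt → ℝ≥0∞)
    (hF : Measurable F) : Zf A N (fun σ => F σ + G σ) = Zf A N F + Zf A N G := by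
  rw [Zf, Zf, Zf, lintegral_add_left hF, mul_add]

lemma lintegral_LP_Zf (A : Set Pt) (F : Multiset Pt → ℝ≥0∞) :
    ∫⁻ σ, F σ ∂LP (volume.restrict A) = ∑' n, Zf A n F := lintegral_LP _ _

lemma Zf_le_LP {A A' : Set Pt} (hA : MeasurableSet A) (hA' : A ⊆ A') {N : ℕ}
    {F G : Multiset Pt → ℝ≥0∞} (hG : Measurable G)
    (h : ∀ σ : Multiset Pt, σ.card = N → (∀ x ∈ σ, x ∈ A) → F σ ≤ G σ) :
    Zf A N F ≤ ∫⁻ σ, G σ ∂LP (volume.restrict A') :=
  (Zf_mono hA h).trans ((Zf_mono_set hA' N hG).trans (le_lintegral_LP _ N G))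

lemma Zf_one {A : Set Pt} {V : ℝ} (hV : 0 ≤ V) (h : volume A = ENNReal.ofReal V) (N : ℕ) :
    Zf A N (fun _ => 1) = ENNReal.ofReal (V ^ N / N.factorial) := by
  rw [Zf, lintegral_const, mJ_univ, Measure.restrict_apply_univ, h, one_mul,
    ENNReal.ofReal_div_of_pos (by positivity), ENNReal.ofReal_pow hV, ENNReal.ofReal_natCast,
    ENNReal.div_eq_inv_mul]

lemma LP_one {A : Set Pt} {V : ℝ} (hV : 0 ≤ V) (h : volume A = ENNReal.ofReal V) :
    ∫⁻ _, 1 ∂LP (volume.restrict A) = ex V := by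
  rw [lintegral_LP_Zf]
  simp only [Zf_one hV h]
  rw [← ENNReal.ofReal_tsum_of_nonneg (fun _ => by positivity) (Real.summable_pow_div_factorial V),
    ex, Real.exp_eq_exp_ℝ, NormedSpace.exp_eq_tsum_div]

/-- translated cube -/
def box (o : Fin 3 → ℝ) (L : ℝ) : Set Pt := (fun x => x + -vec o) ⁻¹' cube L

lemma mem_box {o : Fin 3 → ℝ} {L : ℝ} {x : Pt} :
    x ∈ box o L ↔ ∀ a, o a ≤ x a ∧ x a ≤ o a + L := by
  simp only [box, cube, mem_preimage, mem_ofPred_eq, PiLp.add_apply, PiLp.neg_apply, vec_apply]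
  refine forall_congr' fun a => ?_
  constructor <;> rintro ⟨h1, h2⟩ <;> constructor <;> linarith

lemma measurableSet_box (o : Fin 3 → ℝ) (L : ℝ) : MeasurableSet (box o L) :=
  measurable_add_const _ (measurableSet_cube L)

lemma Zf_box (o : Fin 3 → ℝ) (L : ℝ) (N : ℕ) {F : Multiset Pt → ℝ≥0∞} (hF : Measurable F)
    (h : ∀ σ (v : Pt), F (Multiset.map (fun x => x + v) σ) = F σ) :
    Zf (box o L) N F = Zf (cube L) N F := by
  have h1 := ((measurePreserving_add_right (volume : Measure Pt) (-vec o)).restrict_preimage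
    (measurableSet_cube L)).map_eq
  have : SigmaFinite (Measure.map (fun x => x + -vec o)
      (volume.restrict ((fun x => x + -vec o) ⁻¹' cube L))) := by rw [h1]; infer_instance
  rw [Zf, Zf, ← h1, mJ_map _ (measurable_add_const _),
    lintegral_map hF (measurable_msmap (measurable_add_const _))]
  simp only [h]; rfl

lemma cell_subset_box {l : ℝ} (hl : 0 < l) (s : ℝ) (b : Z3) :
    cell l s b ⊆ box (fun a => l * b a - s) l := fun x hx =>
  mem_box.2 fun a => ((blk_eq_iff hl s x b).1 hx a).imp_right le_of_lt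

lemma en_map_add (f : ℝ → ℝ) (σ : Multiset Pt) (v : Pt) :
    en f (σ.map fun x => x + v) = en f σ := en_map f fun x _ y _ => dist_add_right x y v

lemma exists_part {ι : Type*} [Nonempty ι] (T : Finset ι) (A : ι → Set Pt)
    (hd : (T : Set ι).PairwiseDisjoint A) {σ : Multiset Pt} (h : ∀ x ∈ σ, x ∈ ⋃ i ∈ T, A i) :
    ∃ g : Pt → ι, (∀ x ∈ σ, g x ∈ T ∧ x ∈ A (g x)) ∧ ∀ i ∈ T, part g i σ = fil (A i) σ := by
  classical
  have : ∀ x, ∃ i, x ∈ σ → i ∈ T ∧ x ∈ A i := fun x => by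
    by_cases hx : x ∈ σ
    · obtain ⟨i, hi, hxi⟩ := mem_iUnion₂.1 (h x hx); exact ⟨i, fun _ => ⟨hi, hxi⟩⟩
    · exact ⟨Classical.arbitrary _, fun h => absurd h hx⟩
  choose g hg using this
  refine ⟨g, hg, fun i hi => ?_⟩
  unfold part fil
  refine Multiset.filter_congr fun x hx => ⟨fun h' => ?_, fun h' => ?_⟩
  · rw [← show g x = i from h']; exact (hg x hx).2
  · exact by_contra fun hne => Set.disjoint_left.1 (hd (hg x hx).1 hi hne) (hg x hx).2 h'

/-- lower bound by a product over disjoint regions -/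
lemma prod_le_Zf {ι : Type*} [Nonempty ι] (T : Finset ι) (A : ι → Set Pt)
    (hA : ∀ i, MeasurableSet (A i)) (hd : (T : Set ι).PairwiseDisjoint A) {Λ : Set Pt}
    (hΛ : ∀ i ∈ T, A i ⊆ Λ) (n : ι → ℕ) (F : ι → Multiset Pt → ℝ≥0∞) (hF : ∀ i, Measurable (F i))
    {G : Multiset Pt → ℝ≥0∞} (hG : Measurable G)
    (h : ∀ (σ : Multiset Pt) (g : Pt → ι), (∀ x ∈ σ, g x ∈ T ∧ x ∈ A (g x)) →
      (∀ i ∈ T, (part g i σ).card = n i) → ∏ i ∈ T, F i (part g i σ) ≤ G σ) :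
    ∏ i ∈ T, Zf (A i) (n i) (F i) ≤ Zf Λ (∑ i ∈ T, n i) G := by
  classical
  have hU : MeasurableSet (⋃ i ∈ T, A i) := Finset.measurableSet_biUnion _ fun i _ => hA i
  refine le_trans ?_ (Zf_mono_set (iUnion₂_subset hΛ) _ hG)
  simp only [Zf]
  simp only [← lintegral_LP_card]
  rw [← lintegral_LP_prod _ T A hA hd (fun i s => if s.card = n i then F i s else 0) fun i =>
    Measurable.ite (measurable_card (measurableSet_singleton (n i))) (hF i) measurable_const]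
  refine lintegral_mono_ae ((ae_LP _ hU).mono fun σ hσ => ?_)
  obtain ⟨g, hg, hg'⟩ := exists_part T A hd hσ
  by_cases hc : ∀ i ∈ T, (part g i σ).card = n i
  · rw [if_pos, Finset.prod_congr rfl fun i hi => by rw [← hg' i hi, if_pos (hc i hi)]]
    · exact h σ g hg hc
    · rw [← card_part g fun x hx => (hg x hx).1]; exact Finset.sum_congr rfl hc
  · push Not at hc
    obtain ⟨i, hi, hc⟩ := hc
    rw [Finset.prod_eq_zero hi (by rw [← hg' i hi, if_neg hc])]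
    exact zero_le

/-- measurable, stable, attractive at distances `≥ 2` -/
structure Pot (φ : ℝ → ℝ) (B : ℝ) : Prop where
  meas : Measurable φ
  hB : 0 ≤ B
  stab : ∀ σ : Multiset Pt, -B * σ.card ≤ en φ σ
  far : ∀ r, 2 ≤ r → φ r ≤ 0

noncomputable def Z (φ : ℝ → ℝ) (β L : ℝ) (N : ℕ) : ℝ≥0∞ :=
  Zf (cube L) N fun σ => ex (-β * en φ σ)

noncomputable def lz (φ : ℝ → ℝ) (β L : ℝ) (N : ℕ) : ℝ := Real.log (Z φ β L N).toReal

variable {φ : ℝ → ℝ} {B β : ℝ}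

lemma Pot.measurable_ex (h : Pot φ B) (β : ℝ) :
    Measurable fun σ : Multiset Pt => ex (-β * en φ σ) :=
  Gas.measurable_ex.comp ((measurable_en h.meas).const_mul _)

lemma Pot.Z_le (h : Pot φ B) (hβ : 0 ≤ β) {L : ℝ} (hL : 0 ≤ L) (N : ℕ) :
    Z φ β L N ≤ ex (L ^ 3 + β * B * N) := by
  refine (Zf_mono (measurableSet_cube L) (G := fun _ => ex (β * B * N) * 1)
    fun σ h1 _ => ?_).trans ?_
  · rw [mul_one]
    have := h.stab σ
    rw [h1] at this
    exact ex_mono (by nlinarith)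
  · rw [Zf_const_mul _ _ _ measurable_const, Zf_one (by positivity) (volume_cube hL), add_comm,
      ex_add]
    exact mul_le_mul_right (ENNReal.ofReal_le_ofReal
      (Real.pow_div_factorial_le_exp _ (by positivity) N)) _

lemma Pot.Z_ne_zero (h : Pot φ B) (β : ℝ) {L : ℝ} (hL : 0 < L) (N : ℕ) : Z φ β L N ≠ 0 := by
  refine mul_ne_zero (by simp) fun h0 => ?_
  rw [lintegral_eq_zero_iff (h.measurable_ex β)] at h0
  have h1 : ∀ᵐ _ ∂mJ (volume.restrict (cube L)) N, False := h0.mono fun σ hσ => ex_ne_zero _ hσ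
  rw [ae_iff] at h1
  simp only [not_false_eq_true, ofPred_true, mJ_univ, Measure.restrict_apply_univ,
    volume_cube hL.le] at h1
  exact (ENNReal.ofReal_pos.2 (pow_pos hL 3)).ne' (eq_zero_of_pow_eq_zero h1)

lemma Pot.ex_lz (h : Pot φ B) (hβ : 0 ≤ β) {L : ℝ} (hL : 0 < L) (N : ℕ) :
    ex (lz φ β L N) = Z φ β L N := by
  have h1 := ne_top_of_le_ne_top (ex_ne_top _) (h.Z_le hβ hL.le N)
  rw [lz, ex_log (ENNReal.toReal_pos (h.Z_ne_zero β hL N) h1), ENNReal.ofReal_toReal h1]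

lemma Pot.lz_le (h : Pot φ B) (hβ : 0 ≤ β) {L : ℝ} (hL : 0 < L) (N : ℕ) :
    lz φ β L N ≤ L ^ 3 + β * B * N := by
  rw [← ex_le_ex, h.ex_lz hβ hL]; exact h.Z_le hβ hL.le N

lemma Pot.Z_zero (h : Pot φ B) (β L : ℝ) : Z φ β L 0 = 1 := by
  rw [Z, Zf, lintegral_mJ_zero _ (h.measurable_ex β)]; simp

lemma Pot.lz_zero (h : Pot φ B) (β L : ℝ) : lz φ β L 0 = 0 := by simp [lz, h.Z_zero]

lemma Pot.Z_mono (h : Pot φ B) (β : ℝ) {L L' : ℝ} (hL : L ≤ L') (N : ℕ) :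
    Z φ β L N ≤ Z φ β L' N := Zf_mono_set (cube_mono hL) N (h.measurable_ex β)

lemma Pot.lz_mono (h : Pot φ B) (hβ : 0 ≤ β) {L L' : ℝ} (h0 : 0 < L) (hL : L ≤ L') (N : ℕ) :
    lz φ β L N ≤ lz φ β L' N := by
  rw [← ex_le_ex, h.ex_lz hβ h0, h.ex_lz hβ (h0.trans_le hL)]; exact h.Z_mono β hL N

lemma two_le_dist {L : ℝ} (hL : 0 ≤ L) {b b' : Z3} (hne : b ≠ b') {x y : Pt}
    (hx : x ∈ box (fun a => (L + 2) * b a) L) (hy : y ∈ box (fun a => (L + 2) * b' a) L) :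
    2 ≤ dist x y := by
  obtain ⟨a, ha⟩ := Function.ne_iff.1 hne
  refine le_trans ?_ (abs_sub_le_dist x y a)
  have h1 := mem_box.1 hx a
  have h2 := mem_box.1 hy a
  rcases lt_or_gt_of_ne ha with h | h
  · have : (b a : ℝ) + 1 ≤ b' a := by exact_mod_cast h
    exact le_abs.2 (Or.inr (by nlinarith))
  · have : (b' a : ℝ) + 1 ≤ b a := by exact_mod_cast h
    exact le_abs.2 (Or.inl (by nlinarith))

lemma box_subset_cube {L : ℝ} (hL : 0 ≤ L) {q : ℕ} {b : Z3} (hb : b ∈ bx q) :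
    box (fun a => (L + 2) * b a) L ⊆ cube (q * (L + 2) - 2) := fun x hx a => by
  have h1 := mem_box.1 hx a
  have h2 : (0 : ℝ) ≤ b a := by exact_mod_cast (mem_bx.1 hb a).1
  have h3 : (b a : ℝ) + 1 ≤ q := by exact_mod_cast (mem_bx.1 hb a).2
  constructor <;> nlinarith

lemma Pot.superadd (h : Pot φ B) (hβ : 0 ≤ β) {L L' : ℝ} (hL : 0 < L) {q : ℕ} (hL' : 0 < L')
    (hq : q * (L + 2) - 2 ≤ L') (n : Z3 → ℕ) :
    ∑ b ∈ bx q, lz φ β L (n b) ≤ lz φ β L' (∑ b ∈ bx q, n b) := by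
  rw [← ex_le_ex, ex_sum, h.ex_lz hβ hL']
  simp only [h.ex_lz hβ hL, Z]
  rw [← Finset.prod_congr rfl fun b _ => Zf_box (fun a => (L + 2) * b a) L (n b)
    (h.measurable_ex β) fun σ v => by rw [en_map_add]]
  refine prod_le_Zf _ _ (fun _ => measurableSet_box _ _) (fun b _ b' _ hne =>
      Set.disjoint_left.2 fun x hx hx' => by
        have := two_le_dist hL.le hne hx hx'
        rw [dist_self] at this; linarith)
    (fun b hb => (box_subset_cube hL.le hb).trans (cube_mono hq)) n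
    (fun _ σ => ex (-β * en φ σ)) (fun _ => h.measurable_ex β) (h.measurable_ex β)
    fun σ g hg _ => ?_
  rw [← ex_sum, ← Finset.mul_sum, en_eq_sum_part g fun x hx => (hg x hx).1]
  have := crs_nonpos g (f := φ) (σ := σ) fun x hx y hy hne =>
    h.far _ (two_le_dist hL.le hne (hg x hx).2 (hg y hy).2)
  exact ex_mono (by nlinarith)

end Crest.Agent.H5.Gas
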