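import Mathlib
import Crest.Agent.H5.Gas.Part

/-! The thermodynamic limit. -/

set_option autoImplicit false

namespace Crest.Agent.H5.Gas

open MeasureTheory Set Function Filter
open Crest.ProbabilityR.Continuum
open scoped ENNReal Topology

lemma exists_tangent {ι : Type*} (x y : ι → ℝ) {ρ G : ℝ} (i0 i1 : ι) (h0 : x i0 < ρ)
    (h1 : ρ < x i1) (hG : ∀ i j, x i ≤ ρ → ρ < x j →
      y i * (x j - ρ) + y j * (ρ - x i) ≤ G * (x j - x i)) :
    ∃ s, ∀ i, y i ≤ G + s * (x i - ρ) := by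
  set S := {t | ∃ j, ρ < x j ∧ t = (y j - G) / (x j - ρ)}
  have key : ∀ i, x i < ρ → ∀ t ∈ S, t ≤ (G - y i) / (ρ - x i) := by
    rintro i hi t ⟨j, hj, rfl⟩
    rw [div_le_div_iff₀ (sub_pos.2 hj) (sub_pos.2 hi)]
    nlinarith [hG i j hi.le hj]
  refine ⟨sSup S, fun i => ?_⟩
  rcases lt_trichotomy (x i) ρ with h | h | h
  · have := csSup_le (s := S) ⟨_, i1, h1, rfl⟩ (key i h)
    rw [le_div_iff₀ (sub_pos.2 h)] at this
    linarith
  · have := hG i i1 h.le h1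
    rw [h, sub_self, mul_zero, add_zero] at this
    rw [h, sub_self, mul_zero, add_zero]
    exact le_of_mul_le_mul_right this (sub_pos.2 h1)
  · have := le_csSup (s := S) ⟨_, key i0 h0⟩ ⟨i, h, rfl⟩
    rw [div_le_iff₀ (sub_pos.2 h)] at this
    linarith

/-- `(P, s)` is an affine upper bound of the log partition functions -/
def Tan (φ : ℝ → ℝ) (β P s : ℝ) : Prop :=
  ∀ L, 0 ≤ L → ∀ n : ℕ, Z φ β L n ≤ ex ((L + 3) ^ 3 * P + s * n)

variable {φ : ℝ → ℝ} {B β : ℝ}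

lemma Pot.Tan_nonneg (h : Pot φ B) {P s : ℝ} (ht : Tan φ β P s) : 0 ≤ P := by
  have := ht 0 le_rfl 0
  rw [h.Z_zero, ← ex_zero, ex_le_ex] at this
  simp at this
  nlinarith

lemma Pot.lz_le_Tan (h : Pot φ B) (hβ : 0 ≤ β) {P s : ℝ} (ht : Tan φ β P s) {L : ℝ} (hL : 0 < L)
    (n : ℕ) : lz φ β L n ≤ (L + 3) ^ 3 * P + s * n := by
  rw [← ex_le_ex, h.ex_lz hβ hL]; exact ht L hL.le n

lemma tendsto_N {ρ : ℝ} (hρ : 0 ≤ ρ) :
    Tendsto (fun L : ℝ => (⌊ρ * L ^ 3⌋₊ : ℝ) / L ^ 3) atTop (𝓝 ρ) :=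
  (tendsto_nat_floor_mul_div_atTop hρ).comp (tendsto_pow_atTop (by norm_num))

lemma tendsto_inv_cube : Tendsto (fun L : ℝ => 1 / L ^ 3) atTop (𝓝 0) :=
  tendsto_const_nhds.div_atTop (tendsto_pow_atTop (by norm_num))

lemma tendsto_add_cube (c : ℝ) : Tendsto (fun L : ℝ => (L + c) ^ 3 / L ^ 3) atTop (𝓝 1) := by
  have := ((tendsto_const_nhds (x := c)).div_atTop tendsto_id).const_add 1 |>.pow 3
  simp only [add_zero, one_pow] at this
  refine this.congr' ((eventually_gt_atTop 0).mono fun L hL => ?_)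
  simp only [id]; field_simp

lemma Pot.eventually_le_Tan (h : Pot φ B) (hβ : 0 ≤ β) {P s : ℝ} (ht : Tan φ β P s) {ρ : ℝ}
    (hρ : 0 ≤ ρ) {a : ℝ} (ha : P + s * ρ < a) :
    ∀ᶠ L : ℝ in atTop, lz φ β L ⌊ρ * L ^ 3⌋₊ / L ^ 3 < a := by
  have h1 := ((tendsto_add_cube 3).mul_const P).add ((tendsto_N hρ).const_mul s)
  rw [one_mul] at h1
  filter_upwards [h1.eventually_lt_const ha, eventually_gt_atTop 0] with L h2 hL
  refine lt_of_le_of_lt ((div_le_div_of_nonneg_right (h.lz_le_Tan hβ ht hL _)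
    (by positivity)).trans (le_of_eq ?_)) h2
  ring

lemma Pot.eventually_chord (h : Pot φ B) (hβ : 0 ≤ β) {ρ : ℝ} (hρ : 0 ≤ ρ) {L0 : ℝ}
    (hL0 : 0 < L0) {n1 n2 : ℕ} (h1 : n1 ≤ ρ * (L0 + 2) ^ 3) (h2 : ρ * (L0 + 2) ^ 3 < n2) {a : ℝ}
    (ha : a * (L0 + 2) ^ 3 * (n2 - n1) < lz φ β L0 n1 * (n2 - ρ * (L0 + 2) ^ 3) +
      lz φ β L0 n2 * (ρ * (L0 + 2) ^ 3 - n1)) :
    ∀ᶠ L : ℝ in atTop, a < lz φ β L ⌊ρ * L ^ 3⌋₊ / L ^ 3 := by
  classical
  set c := (L0 + 2) ^ 3 with hc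
  have hc0 : 0 < c := by positivity
  have h12' : (n1 : ℝ) < n2 := h1.trans_lt h2
  have h12 : n1 < n2 := by exact_mod_cast h12'
  set s := (lz φ β L0 n2 - lz φ β L0 n1) / (n2 - n1) with hs
  set A := lz φ β L0 n1 - s * n1 with hA
  have e1 : lz φ β L0 n1 = A + s * n1 := by rw [hA]; ring
  have e2 : lz φ β L0 n2 = A + s * n2 := by
    have := sub_pos.2 h12'
    rw [hA, hs]; field_simp; ring
  have ha' : a < 1 / c * A + s * ρ := by
    rw [e1, e2] at ha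
    have : a * c < A + s * ρ * c := lt_of_mul_lt_mul_right (by linarith) (sub_pos.2 h12').le
    rw [← sub_lt_iff_lt_add, one_div_mul_eq_div, lt_div_iff₀ hc0]; linarith
  obtain ⟨C, hC⟩ := ((Finset.range n2).image fun r : ℕ => lz φ β L0 r - s * r).bddBelow
  have hq : Tendsto (fun L : ℝ => (⌊1 / (L0 + 2) * L⌋₊ : ℝ) ^ 3 / L ^ 3) atTop (𝓝 (1 / c)) := by
    have := (tendsto_nat_floor_mul_div_atTop (a := 1 / (L0 + 2)) (by positivity)).pow 3
    simpa only [div_pow, one_pow] using this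
  have t1 := ((hq.mul_const A).add ((tendsto_N hρ).const_mul s)).add
    (tendsto_inv_cube.mul_const (C - A))
  have t2 := ((hq.mul_const (n2 : ℝ)).sub (tendsto_N hρ)).sub (tendsto_inv_cube.mul_const (n1 : ℝ))
  rw [zero_mul, add_zero] at t1
  rw [zero_mul, sub_zero] at t2
  filter_upwards [t1.eventually_const_lt ha', t2.eventually_const_lt (show 0 < 1 / c * n2 - ρ by
    rw [sub_pos, one_div_mul_eq_div, lt_div_iff₀ hc0]; exact h2), eventually_gt_atTop 0]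
    with L h3 h4 hL
  set q := ⌊1 / (L0 + 2) * L⌋₊
  set N := ⌊ρ * L ^ 3⌋₊
  have hqL : q * (L0 + 2) ≤ L := by
    rw [← le_div_iff₀ (by positivity), ← one_div_mul_eq_div]; exact Nat.floor_le (by positivity)
  have h5 : N + n1 < q ^ 3 * n2 := by
    have : 0 < ((q : ℝ) ^ 3 * n2 - N - n1) / L ^ 3 := h4.trans_eq (by ring)
    have := (div_pos_iff_of_pos_right (pow_pos hL 3)).1 this
    exact_mod_cast (by linarith : (N : ℝ) + n1 < q ^ 3 * n2)
  have h6 : q ^ 3 * n1 ≤ N := by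
    refine Nat.le_floor ?_
    push_cast
    calc _ ≤ (q : ℝ) ^ 3 * (ρ * c) := mul_le_mul_of_nonneg_left h1 (by positivity)
      _ = ρ * (q * (L0 + 2)) ^ 3 := by rw [hc]; ring
      _ ≤ _ := mul_le_mul_of_nonneg_left (pow_le_pow_left₀ (by positivity) hqL 3) hρ
  obtain ⟨k, hk⟩ : ∃ k, q ^ 3 = k + 1 := Nat.exists_eq_succ_of_ne_zero fun h0 => by
    rw [h0] at h5; omega
  obtain ⟨d, rfl⟩ := Nat.exists_eq_add_of_lt h12
  obtain ⟨M, hM⟩ : ∃ M, N = k * n1 + M := Nat.exists_eq_add_of_le (le_trans (by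
    rw [hk]; exact Nat.mul_le_mul_right _ (Nat.le_succ k)) h6)
  have h7 : M / (d + 1) ≤ k := by
    rw [← Nat.lt_succ_iff, Nat.div_lt_iff_lt_mul (Nat.succ_pos d)]
    rw [hk, hM] at h5; nlinarith
  obtain ⟨b0, hb0⟩ : (bx q).Nonempty := Finset.card_pos.1 (by rw [card_bx]; omega)
  obtain ⟨T2, hT2, hT2c⟩ := Finset.exists_subset_card_eq (s := (bx q).erase b0) (n := M / (d + 1))
    (by rw [Finset.card_erase_of_mem hb0, card_bx]; omega)
  set n : Z3 → ℕ := fun b => if b = b0 then M % (d + 1) else if b ∈ T2 then n1 + d + 1 else n1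
    with hn
  have hck : ((bx q).erase b0).card = k := by rw [Finset.card_erase_of_mem hb0, card_bx]; omega
  have h8 : ∑ b ∈ (bx q).erase b0, n b = k * n1 + M / (d + 1) * (d + 1) := by
    rw [Finset.sum_congr rfl (g := fun b => n1 + if b ∈ T2 then d + 1 else 0) fun b hb => by
      simp only [hn, if_neg (Finset.ne_of_mem_erase hb)]; split_ifs <;> omega,
      Finset.sum_add_distrib, ← Finset.sum_filter, Finset.filter_mem_eq_inter,
      Finset.inter_eq_right.2 hT2]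
    simp [hck, hT2c]
  have h9 : ∑ b ∈ bx q, n b = N := by
    rw [← Finset.add_sum_erase _ _ hb0, h8, hM]
    simp only [hn, if_true]
    have := Nat.mod_add_div' M (d + 1); omega
  have h10 := h.superadd hβ hL0 hL (q := q) (by linarith) n
  rw [h9, ← Finset.add_sum_erase _ _ hb0, Finset.sum_congr rfl (g := fun b => A + s * n b)
    fun b hb => by
      simp only [hn, if_neg (Finset.ne_of_mem_erase hb)]; split_ifs; exacts [e2, e1],
    Finset.sum_add_distrib, ← Finset.mul_sum, ← Nat.cast_sum, Finset.sum_const, hck,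
    nsmul_eq_mul] at h10
  have h11 := hC (Finset.mem_coe.2 (Finset.mem_image_of_mem _ (Finset.mem_range.2
    (show n b0 < n1 + d + 1 by
      simp only [hn, if_true]; have := Nat.mod_lt M (show 0 < d + 1 by omega); omega))))
  have h12 : (n b0 : ℝ) + ((∑ b ∈ (bx q).erase b0, n b : ℕ) : ℝ) = N := by
    rw [← h9, ← Finset.add_sum_erase _ _ hb0]; push_cast; rfl
  have hk' : (q : ℝ) ^ 3 = k + 1 := by exact_mod_cast hk
  refine h3.trans_le (le_of_eq_of_le (b := (k * A + s * N + C) / L ^ 3) ?_ ?_)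
  · rw [hk']; ring
  · refine div_le_div_of_nonneg_right ?_ (by positivity)
    rw [← h12]; linarith

/-- the limiting log partition function per volume -/
noncomputable def gl (φ : ℝ → ℝ) (β ρ : ℝ) : ℝ :=
  limUnder atTop fun L : ℝ => lz φ β L ⌊ρ * L ^ 3⌋₊ / L ^ 3

theorem Pot.thermo (h : Pot φ B) (hβ : 0 ≤ β) {ρ : ℝ} (hρ : 0 < ρ) :
    Tendsto (fun L : ℝ => lz φ β L ⌊ρ * L ^ 3⌋₊ / L ^ 3) atTop (𝓝 (gl φ β ρ)) ∧
      ∃ s, Tan φ β (gl φ β ρ - s * ρ) s := by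
  set x : ℕ × ℕ → ℝ := fun i => i.2 / (i.1 + 3) ^ 3 with hx
  set y : ℕ × ℕ → ℝ := fun i => lz φ β (i.1 + 1) i.2 / (i.1 + 3) ^ 3 with hy
  have hy1 : ∀ i, y i ≤ 1 + β * B * x i := fun i => by
    simp only [hx, hy]
    rw [div_le_iff₀ (by positivity), add_mul, mul_assoc, div_mul_cancel₀ _ (by positivity), one_mul]
    refine (h.lz_le hβ (by positivity) _).trans (add_le_add_left ?_ _)
    exact pow_le_pow_left₀ (by positivity) (by linarith) 3
  set S := {t | ∃ i j, x i ≤ ρ ∧ ρ < x j ∧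
    t = (y i * (x j - ρ) + y j * (ρ - x i)) / (x j - x i)}
  have hbdd : BddAbove S := ⟨1 + β * B * ρ, by
    rintro t ⟨i, j, hi, hj, rfl⟩
    rw [div_le_iff₀ (by linarith)]
    nlinarith [mul_le_mul_of_nonneg_right (hy1 i) (sub_pos.2 hj).le,
      mul_le_mul_of_nonneg_right (hy1 j) (sub_nonneg.2 hi)]⟩
  have h0 : x (0, 0) < ρ := by simpa [hx] using hρ
  have h1 : ρ < x (0, ⌈27 * ρ⌉₊ + 1) := by
    simp only [hx]
    rw [lt_div_iff₀ (by positivity)]
    push_cast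
    linarith [Nat.le_ceil (27 * ρ)]
  obtain ⟨s, hs⟩ := exists_tangent x y (G := sSup S) _ _ h0 h1 fun i j hi hj =>
    (div_le_iff₀ (by linarith)).1 (le_csSup hbdd ⟨i, j, hi, hj, rfl⟩)
  have hP : 0 ≤ sSup S - s * ρ := by
    have := hs (0, 0)
    simp only [hx, hy, h.lz_zero] at this
    simp at this
    linarith
  have ht : Tan φ β (sSup S - s * ρ) s := fun L hL n => by
    refine (h.Z_mono β (Nat.lt_floor_add_one L).le n).trans ?_
    rw [← h.ex_lz hβ (by positivity), ex_le_ex]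
    have := hs (⌊L⌋₊, n)
    simp only [hx, hy] at this
    rw [div_le_iff₀ (by positivity)] at this
    have h2 : ((⌊L⌋₊ : ℝ) + 3) ^ 3 ≤ (L + 3) ^ 3 :=
      pow_le_pow_left₀ (by positivity) (by linarith [Nat.floor_le hL]) 3
    refine this.trans (le_of_eq_of_le (b := (⌊L⌋₊ + 3) ^ 3 * (sSup S - s * ρ) + s * n) ?_ ?_)
    · field_simp; ring
    · exact add_le_add_left (mul_le_mul_of_nonneg_right h2 hP) _
  have hlim : Tendsto (fun L : ℝ => lz φ β L ⌊ρ * L ^ 3⌋₊ / L ^ 3) atTop (𝓝 (sSup S)) := by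
    refine tendsto_order.2 ⟨fun a ha => ?_, fun a ha =>
      h.eventually_le_Tan hβ ht hρ.le (by linarith)⟩
    obtain ⟨_, ⟨⟨l1, n1⟩, ⟨l2, n2⟩, hi, hj, rfl⟩, hlt⟩ :=
      exists_lt_of_lt_csSup (s := S) ⟨_, _, _, h0.le, h1, rfl⟩ ha
    rw [lt_div_iff₀ (by linarith)] at hlt
    simp only [hx, hy] at hi hj hlt
    have hL0 : (0 : ℝ) < (l1 + 3) * (l2 + 3) - 2 := by
      nlinarith [Nat.cast_nonneg (α := ℝ) l1, Nat.cast_nonneg (α := ℝ) l2]
    have s1 := h.superadd hβ (L := l1 + 1) (by positivity) (q := l2 + 3) hL0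
      (by push_cast; nlinarith) fun _ => n1
    have s2 := h.superadd hβ (L := l2 + 1) (by positivity) (q := l1 + 3) hL0
      (by push_cast; nlinarith) fun _ => n2
    simp only [Finset.sum_const, card_bx, nsmul_eq_mul] at s1 s2
    push_cast at s1 s2
    set c1 := ((l1 : ℝ) + 3) ^ 3 with hc1
    set c2 := ((l2 : ℝ) + 3) ^ 3 with hc2
    have p1 : 0 < c1 := by positivity
    have p2 : 0 < c2 := by positivity
    have e : ((l1 : ℝ) + 3) * (l2 + 3) - 2 + 2 = (l1 + 3) * (l2 + 3) := by ring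
    rw [div_le_iff₀ p1] at hi
    rw [lt_div_iff₀ p2] at hj
    have hi' : c2 * n1 ≤ ρ * (c1 * c2) := by linarith [mul_le_mul_of_nonneg_left hi p2.le]
    have hj' : ρ * (c1 * c2) < c1 * n2 := by linarith [mul_lt_mul_of_pos_left hj p1]
    refine h.eventually_chord hβ hρ.le hL0 (n1 := (l2 + 3) ^ 3 * n1) (n2 := (l1 + 3) ^ 3 * n2)
      ?_ ?_ ?_ <;> rw [e, mul_pow] <;> push_cast <;> rw [← hc1, ← hc2]
    · exact hi'
    · exact hj'
    · have := mul_lt_mul_of_pos_right hlt (mul_pos (mul_pos p1 p2) (mul_pos p1 p2))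
      refine lt_of_eq_of_lt ?_ (this.trans_le (le_of_eq_of_le
        (b := c2 * lz φ β (l1 + 1) n1 * (c1 * n2 - ρ * (c1 * c2)) +
          c1 * lz φ β (l2 + 1) n2 * (ρ * (c1 * c2) - c2 * n1)) ?_ ?_))
      · field_simp
      · field_simp
      · exact add_le_add (mul_le_mul_of_nonneg_right s1 (by linarith))
          (mul_le_mul_of_nonneg_right s2 (by linarith))
  rw [gl, hlim.limUnder_eq]
  exact ⟨hlim, s, ht⟩

lemma Pot.gl_le_Tan (h : Pot φ B) (hβ : 0 ≤ β) {P s : ℝ} (ht : Tan φ β P s) {ρ : ℝ}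
    (hρ : 0 < ρ) : gl φ β ρ ≤ P + s * ρ :=
  le_of_forall_gt_imp_ge_of_dense fun _ ha => le_of_tendsto (h.thermo hβ hρ).1
    ((h.eventually_le_Tan hβ ht hρ.le ha).mono fun _ => le_of_lt)

end Crest.Agent.H5.Gas
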