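import Mathlib
import Crest.Prelude.Def_UnitPacking
import Crest.Agent.H5.Gas.Thermo

/-! Packing density and cluster size. -/

set_option autoImplicit false

namespace Crest.Agent.H5.Gas

open MeasureTheory Set Function Filter
open Crest.ProbabilityR.Continuum
open scoped ENNReal Topology

lemma le_of_mem_packingSet {L : ℝ} (hL : 0 ≤ L) {n : ℕ} (h : n ∈ packingSet L) :
    (n : ℝ) ≤ 64 * (L + 1) ^ 3 := by
  obtain ⟨S, rfl, h1, h2⟩ := h
  refine (card_le_of_separated (d := 1 / 4) (by norm_num) hL (fun _ => 0) S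
    (fun x hx a => by simpa using h1 x hx a) fun x hx y hy hne => by
      linarith [h2 x hx y hy hne]).trans ?_
  calc _ ≤ (4 * (L + 1)) ^ 3 := pow_le_pow_left₀ (by positivity) (by linarith) 3
    _ = _ := by ring

lemma bddAbove_packingSet {L : ℝ} (hL : 0 ≤ L) : BddAbove (packingSet L) :=
  ⟨⌊64 * (L + 1) ^ 3⌋₊, fun _ h => Nat.le_floor (le_of_mem_packingSet hL h)⟩

lemma packingNumber_mem {L : ℝ} (hL : 0 ≤ L) : packingNumber L ∈ packingSet L :=
  Nat.sSup_mem ⟨0, ∅, by simp⟩ (bddAbove_packingSet hL)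

lemma card_le_packingNumber {L : ℝ} (hL : 0 ≤ L) (o : Fin 3 → ℝ) (S : Finset Pt)
    (h1 : ∀ x ∈ S, x ∈ box o L) (h2 : ∀ x ∈ S, ∀ y ∈ S, x ≠ y → 1 ≤ dist x y) :
    S.card ≤ packingNumber L := by
  classical
  refine le_csSup (bddAbove_packingSet hL) ⟨S.image fun x => x + -vec o,
    Finset.card_image_of_injective _ (add_left_injective _), ?_, ?_⟩
  · simp only [Finset.forall_mem_image]; exact h1
  · simp only [Finset.forall_mem_image, dist_add_right]
    exact fun x hx y hy hne => h2 x hx y hy fun e => hne (by rw [e])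

lemma packingNumber_superadd {L L' : ℝ} (hL : 0 ≤ L) (hL' : 0 ≤ L') {q : ℕ}
    (hq : q * (L + 1) ≤ L') : q ^ 3 * packingNumber L ≤ packingNumber L' := by
  classical
  obtain ⟨S, hS, h1, h2⟩ := packingNumber_mem hL
  set f : Z3 × Pt → Pt := fun p => p.2 + vec fun a => (L + 1) * p.1 a with hf
  have key : ∀ p ∈ bx q ×ˢ S, ∀ p' ∈ bx q ×ˢ S, p ≠ p' → 1 ≤ dist (f p) (f p') := by
    rintro ⟨b, x⟩ hp ⟨b', y⟩ hp' hne
    rw [Finset.mem_product] at hp hp'
    by_cases hb : b = b'
    · subst hb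
      simp only [hf, dist_add_right]
      exact h2 x hp.2 y hp'.2 fun e => hne (by rw [e])
    · obtain ⟨a, ha⟩ := Function.ne_iff.1 hb
      refine le_trans ?_ (abs_sub_le_dist _ _ a)
      have h3 := h1 x hp.2 a
      have h4 := h1 y hp'.2 a
      simp only [hf, PiLp.add_apply, vec_apply]
      rcases lt_or_gt_of_ne ha with h | h
      · have : (b a : ℝ) + 1 ≤ b' a := by exact_mod_cast h
        exact le_abs.2 (Or.inr (by nlinarith))
      · have : (b' a : ℝ) + 1 ≤ b a := by exact_mod_cast h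
        exact le_abs.2 (Or.inl (by nlinarith))
  refine le_csSup (bddAbove_packingSet hL') ⟨(bx q ×ˢ S).image f, ?_, ?_, ?_⟩
  · rw [Finset.card_image_of_injOn, Finset.card_product, card_bx, hS]
    exact fun p hp p' hp' e => by_contra fun hne => by
      have := key p hp p' hp' hne
      rw [e, dist_self] at this; linarith
  · simp only [Finset.forall_mem_image]
    rintro ⟨b, x⟩ hp a
    rw [Finset.mem_product] at hp
    have h3 := h1 x hp.2 a
    have h4 : (0 : ℝ) ≤ b a := by exact_mod_cast (mem_bx.1 hp.1 a).1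
    have h5 : (b a : ℝ) + 1 ≤ q := by exact_mod_cast (mem_bx.1 hp.1 a).2
    simp only [hf, PiLp.add_apply, vec_apply]
    constructor <;> nlinarith
  · simp only [Finset.forall_mem_image]
    exact fun p hp p' hp' hne => key p hp p' hp' fun e => hne (by rw [e])

theorem exists_packing_density : ∃ p : ℝ, 1 ≤ p ∧
    Tendsto (fun L : ℝ => (packingNumber L : ℝ) / L ^ 3) atTop (𝓝 p) := by
  set S := {t | ∃ L : ℝ, 0 ≤ L ∧ t = packingNumber L / (L + 1) ^ 3}
  have hb : BddAbove S := ⟨64, by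
    rintro t ⟨L, hL, rfl⟩
    exact (div_le_iff₀ (by positivity)).2 (le_of_mem_packingSet hL (packingNumber_mem hL))⟩
  refine ⟨sSup S, le_trans ?_ (le_csSup hb ⟨0, le_rfl, rfl⟩), tendsto_order.2 ⟨fun a ha => ?_,
    fun a ha => ?_⟩⟩
  · have := card_le_packingNumber le_rfl (fun _ => 0) {0} (by simp [mem_box]) (by simp)
    simpa using this
  · obtain ⟨_, ⟨L0, hL0, rfl⟩, hlt⟩ := exists_lt_of_lt_csSup (s := S) ⟨_, 0, le_rfl, rfl⟩ ha
    have hq := ((tendsto_nat_floor_mul_div_atTop (a := 1 / (L0 + 1)) (by positivity)).pow 3).mul_const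
      (packingNumber L0 : ℝ)
    filter_upwards [hq.eventually_const_lt (hlt.trans_eq (by field_simp)), eventually_gt_atTop 0]
      with L h1 hL
    have := packingNumber_superadd hL0 hL.le (q := ⌊1 / (L0 + 1) * L⌋₊) (by
      rw [← le_div_iff₀ (by positivity), ← one_div_mul_eq_div (L0 + 1) L]
      exact Nat.floor_le (mul_nonneg (by positivity) hL.le))
    refine h1.trans_le ?_
    rw [div_pow, div_mul_eq_mul_div]
    exact div_le_div_of_nonneg_right (by exact_mod_cast this) (by positivity)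
  · have := (tendsto_add_cube 1).mul_const (sSup S)
    rw [one_mul] at this
    filter_upwards [this.eventually_lt_const ha, eventually_gt_atTop 0] with L h1 hL
    refine lt_of_le_of_lt ?_ h1
    rw [div_mul_eq_mul_div]
    exact div_le_div_of_nonneg_right
      ((div_le_iff₀' (by positivity)).1 (le_csSup hb ⟨L, hL.le, rfl⟩)) (by positivity)

/-- a template for a cluster of `k + 1` particles -/
def Tmpl (k : ℕ) (τ : ℝ) : Prop := ∃ u : Fin (k + 1) → Pt, u 0 = 0 ∧
  ∀ i j, i ≠ j → 1 / 2 + 2 * τ ≤ dist (u i) (u j) ∧ dist (u i) (u j) ≤ 1 - 2 * τ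

lemma tmpl_zero (τ : ℝ) : Tmpl 0 τ :=
  ⟨fun _ => 0, rfl, fun i j h => absurd (Subsingleton.elim (α := Fin 1) i j) h⟩

theorem exists_cluster : ∃ k : ℕ, 1 ≤ k ∧ (∃ τ, 0 < τ ∧ τ ≤ 1 / 8 ∧ Tmpl k τ) ∧
    ∀ δ : ℝ, 0 < δ → ∀ S : Finset Pt,
      (∀ x ∈ S, ∀ y ∈ S, x ≠ y → δ / 2 < dist x y ∧ dist x y < δ) → S.card ≤ k + 1 := by
  classical
  set A := {n | ∃ S : Finset Pt, S.card = n ∧
    ∀ x ∈ S, ∀ y ∈ S, x ≠ y → 1 / 2 < dist x y ∧ dist x y < 1}
  have hb : BddAbove A := ⟨1000, by
    rintro n ⟨S, rfl, h⟩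
    rcases S.eq_empty_or_nonempty with rfl | ⟨z, hz⟩
    · simp
    have := card_le_of_separated (d := 1 / 4) (l := 2) (by norm_num) (by norm_num)
      (fun a => z a - 1) S (fun x hx a => by
        have : |x a - z a| ≤ 1 := (abs_sub_le_dist x z a).trans (by
          by_cases e : x = z
          · simp [e]
          · exact (h x hx z hz e).2.le)
        constructor <;> linarith [(abs_le.1 this).1, (abs_le.1 this).2])
      fun x hx y hy hne => by linarith [(h x hx y hy hne).1]
    norm_num at this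
    exact_mod_cast this⟩
  have h2 : 2 ≤ sSup A := by
    have hd : dist (0 : Pt) (EuclideanSpace.single 0 (3 / 4)) = 3 / 4 := by simp
    have hne : (0 : Pt) ≠ EuclideanSpace.single 0 (3 / 4) := fun e => by
      rw [← e] at hd; norm_num at hd
    refine le_csSup hb ⟨{0, EuclideanSpace.single 0 (3 / 4)}, Finset.card_pair hne, ?_⟩
    simp only [Finset.mem_insert, Finset.mem_singleton]
    rintro x (rfl | rfl) y (rfl | rfl) h
    · exact absurd rfl h
    · rw [hd]; norm_num
    · rw [dist_comm, hd]; norm_num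
    · exact absurd rfl h
  obtain ⟨k, hk⟩ : ∃ k, sSup A = k + 1 := ⟨sSup A - 1, by omega⟩
  refine ⟨k, by omega, ?_, fun δ hδ S hS => ?_⟩
  · obtain ⟨S, hS, h⟩ := Nat.sSup_mem (s := A) ⟨0, ∅, by simp⟩ hb
    set y : Fin (k + 1) → Pt := fun i => (S.equivFinOfCardEq (hS.trans hk)).symm i with hy
    have hy' : ∀ i j, i ≠ j → 1 / 2 < dist (y i) (y j) ∧ dist (y i) (y j) < 1 := fun i j hne =>
      h _ (Subtype.mem _) _ (Subtype.mem _) fun e => hne (Equiv.injective _ (Subtype.ext e))
    obtain ⟨p, hp⟩ := Finite.exists_min fun p : Fin (k + 1) × Fin (k + 1) => if p.1 = p.2 then 1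
      else min (dist (y p.1) (y p.2) - 1 / 2) (1 - dist (y p.1) (y p.2))
    set c := if p.1 = p.2 then 1
      else min (dist (y p.1) (y p.2) - 1 / 2) (1 - dist (y p.1) (y p.2)) with hc
    have hc0 : 0 < c := by
      rw [hc]; split_ifs with h'
      exacts [one_pos, lt_min (by linarith [(hy' _ _ h').1]) (by linarith [(hy' _ _ h').2])]
    refine ⟨min (c / 2) (1 / 8), by positivity, min_le_right _ _, fun i => y i - y 0, by simp,
      fun i j hne => ?_⟩
    have := hp (i, j)
    simp only [if_neg hne, le_min_iff] at this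
    rw [dist_sub_right]
    constructor <;> linarith [min_le_left (c / 2) (1 / 8), this.1, this.2]
  · rw [← hk]
    refine le_csSup hb ⟨S.image fun x => δ⁻¹ • x,
      Finset.card_image_of_injective _ (smul_right_injective _ (inv_ne_zero hδ.ne')), ?_⟩
    simp only [Finset.forall_mem_image, dist_smul₀, Real.norm_eq_abs, abs_of_pos (inv_pos.2 hδ)]
    intro x hx y hy hne
    have := hS x hx y hy fun e => hne (by rw [e])
    rw [lt_inv_mul_iff₀ hδ, inv_mul_lt_iff₀ hδ]
    constructor <;> linarith [this.1, this.2]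

end Crest.Agent.H5.Gas
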