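import Mathlib
import Crest.Agent.H5.Gas.Pack

/-! The entropy bound in one block for the short range repulsion. -/

set_option autoImplicit false

namespace Crest.Agent.H5.Gas

open MeasureTheory Set Function Filter
open Crest.ProbabilityR.Continuum
open scoped ENNReal Topology

open Classical in
noncomputable def ind (A : Set ℝ) (r : ℝ) : ℝ := if r ∈ A then 1 else 0

lemma ind_nonneg (A : Set ℝ) (r : ℝ) : 0 ≤ ind A r := by unfold ind; split_ifs <;> norm_num

lemma ind_of_mem {A : Set ℝ} {r : ℝ} (h : r ∈ A) : ind A r = 1 := if_pos h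

lemma ind_of_notMem {A : Set ℝ} {r : ℝ} (h : r ∉ A) : ind A r = 0 := if_neg h

lemma en_ind_nonneg (A : Set ℝ) (σ : Multiset Pt) : 0 ≤ en (ind A) σ :=
  en_nonneg (fun r _ => ind_nonneg A r) σ

lemma en_cons_of_notMem {A : Set ℝ} {y : Pt} {t : Multiset Pt} (h : ∀ x ∈ t, dist y x ∉ A) :
    en (ind A) (y ::ₘ t) = en (ind A) t := by
  rw [en_cons, Multiset.sum_eq_zero, zero_add]
  intro r hr
  obtain ⟨x, hx, rfl⟩ := Multiset.mem_map.1 hr
  exact ind_of_notMem (h x hx)

lemma removal (A : Set ℝ) (σ : Multiset Pt) :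
    ∃ t ≤ σ, en (ind A) t = 0 ∧ (σ.card : ℝ) ≤ t.card + en (ind A) σ := by
  induction σ using Multiset.induction_on with
  | empty => exact ⟨0, le_rfl, by simp, by simp⟩
  | cons y σ ih =>
    obtain ⟨t, h1, h2, h3⟩ := ih
    have h0 : ∀ r ∈ σ.map fun x => ind A (dist y x), 0 ≤ r := fun r hr => by
      obtain ⟨x, -, rfl⟩ := Multiset.mem_map.1 hr
      exact ind_nonneg _ _
    by_cases h : ∀ x ∈ t, dist y x ∉ A
    · refine ⟨y ::ₘ t, Multiset.cons_le_cons y h1, by rw [en_cons_of_notMem h, h2], ?_⟩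
      rw [en_cons, Multiset.card_cons, Multiset.card_cons]
      push_cast
      linarith [Multiset.sum_nonneg h0]
    · push Not at h
      obtain ⟨x, hx, hA⟩ := h
      refine ⟨t, h1.trans (Multiset.le_cons_self _ _), h2, ?_⟩
      have := Multiset.single_le_sum h0 _ (Multiset.mem_map_of_mem _ (Multiset.mem_of_le h1 hx))
      rw [ind_of_mem hA] at this
      rw [en_cons, Multiset.card_cons]
      push_cast
      linarith

lemma exists_finset_of_en_eq_zero {A : Set ℝ} (hA : (0 : ℝ) ∈ A) {t : Multiset Pt}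
    (h : en (ind A) t = 0) : ∃ S : Finset Pt, S.val = t ∧
      ∀ x ∈ S, ∀ y ∈ S, x ≠ y → dist x y ∉ A := by
  have key : ∀ x y : Pt, x ::ₘ y ::ₘ 0 ≤ t → dist x y ∉ A := fun x y hle hm => by
    have := en_le_of_le (fun r _ => ind_nonneg A r) hle
    simp [en_cons, ind_of_mem hm, h] at this
    linarith [en_ind_nonneg A {y}]
  refine ⟨⟨t, Multiset.nodup_iff_le.2 fun x hx => key x x hx (by simpa)⟩, rfl,
    fun x hx y hy hne => key x y ((Multiset.le_iff_subset (by simpa)).2 ?_)⟩
  intro z hz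
  simp only [Multiset.mem_cons, Multiset.notMem_zero, or_false] at hz
  rcases hz with rfl | rfl; exacts [hx, hy]

/-- forbidden distances -/
def bad (δ : ℝ) : Set ℝ := Iic (δ / 2) ∪ Ico δ 1

lemma card_le_of_sep {δ l : ℝ} (hl : 0 ≤ l) (o : Fin 3 → ℝ) {u : Multiset Pt}
    (h1 : ∀ x ∈ u, x ∈ box o l) (h2 : en (ind (Iio δ)) u = 0) :
    (u.card : ℝ) ≤ packingNumber l + en (ind (bad δ)) u := by
  obtain ⟨t, h3, h4, h5⟩ := removal (Iio 1) u
  obtain ⟨S, rfl, hS⟩ := exists_finset_of_en_eq_zero (by simp) h4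
  have h6 := card_le_packingNumber hl o S (fun x hx => h1 x (Multiset.mem_of_le h3 hx))
    fun x hx y hy hne => not_lt.1 (hS x hx y hy hne)
  have h7 := en_mono (f := ind (Iio 1)) (g := fun r => ind (Iio δ) r + ind (bad δ) r)
    (fun r _ => by
      by_cases h : r ∈ Iio (1 : ℝ)
      · rw [ind_of_mem h]
        by_cases h' : r ∈ Iio δ
        · rw [ind_of_mem h']; linarith [ind_nonneg (bad δ) r]
        · rw [ind_of_notMem h', ind_of_mem (Or.inr ⟨not_lt.1 h', h⟩), zero_add]
      · rw [ind_of_notMem h]; exact add_nonneg (ind_nonneg _ _) (ind_nonneg _ _)) u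
  rw [en_add, h2] at h7
  have : ((S.val.card : ℕ) : ℝ) ≤ packingNumber l := by exact_mod_cast h6
  linarith

lemma card_le_clusters {δ l : ℝ} (hδ : 0 < δ) (hδ1 : δ ≤ 1 / 2) (hl : 0 ≤ l) {m : ℕ}
    (hm : ∀ S : Finset Pt, (∀ x ∈ S, ∀ y ∈ S, x ≠ y → δ / 2 < dist x y ∧ dist x y < δ) → S.card ≤ m)
    (o : Fin 3 → ℝ) {σ : Multiset Pt} (h1 : ∀ x ∈ σ, x ∈ box o l) :
    (σ.card : ℝ) ≤ m * packingNumber l + en (ind (bad δ)) σ := by
  classical
  obtain ⟨t, h3, h4, h5⟩ := removal (bad δ) σ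
  obtain ⟨S, rfl, hS⟩ := exists_finset_of_en_eq_zero (Or.inl (half_pos hδ).le) h4
  have hS' : ∀ x ∈ S, ∀ y ∈ S, x ≠ y → dist x y < 1 → δ / 2 < dist x y ∧ dist x y < δ :=
    fun x hx y hy hne h => ⟨not_le.1 fun h' => hS x hx y hy hne (Or.inl h'),
      not_le.1 fun h' => hS x hx y hy hne (Or.inr ⟨h', h⟩)⟩
  obtain ⟨U, hU, hmax⟩ := (S.powerset.filter fun U => ∀ x ∈ U, ∀ y ∈ U, x ≠ y →
    1 ≤ dist x y).exists_max_image Finset.card ⟨∅, by simp⟩
  rw [Finset.mem_filter, Finset.mem_powerset] at hU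
  have h6 := card_le_packingNumber hl o U (fun x hx => h1 x (Multiset.mem_of_le h3 (hU.1 hx))) hU.2
  have h7 : S ⊆ U.biUnion fun z => S.filter fun x => dist x z < δ := fun x hx => by
    by_contra hc
    simp only [Finset.mem_biUnion, Finset.mem_filter, not_exists, not_and, not_lt] at hc
    have h8 : ∀ z ∈ U, 1 ≤ dist x z := fun z hz => not_lt.1 fun h => by
      have := hc z hz hx
      by_cases e : x = z
      · rw [e, dist_self] at this; linarith
      · linarith [(hS' x hx z (hU.1 hz) e h).2]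
    have h9 : x ∉ U := fun h => by have := h8 x h; rw [dist_self] at this; linarith
    have := hmax (insert x U) (by
      rw [Finset.mem_filter, Finset.mem_powerset]
      refine ⟨Finset.insert_subset hx hU.1, ?_⟩
      simp only [Finset.mem_insert]
      rintro a (rfl | ha) b (rfl | hb) hne
      exacts [absurd rfl hne, h8 b hb, by rw [dist_comm]; exact h8 a ha, hU.2 a ha b hb hne])
    rw [Finset.card_insert_of_notMem h9] at this
    omega
  have h8 : S.card ≤ m * packingNumber l := by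
    refine (Finset.card_le_card h7).trans ((Finset.card_biUnion_le_card_mul _ _ m
      fun z _ => hm _ fun x hx y hy hne => ?_).trans (by rw [mul_comm]; gcongr))
    rw [Finset.mem_filter] at hx hy
    refine hS' x hx.1 y hy.1 hne ?_
    linarith [dist_triangle_right x y z, hx.2, hy.2]
  have : ((S.val.card : ℕ) : ℝ) ≤ m * packingNumber l := by exact_mod_cast h8
  linarith

lemma le_en_bad {δ : ℝ} (hδ : 0 < δ) (σ : Multiset Pt) :
    (δ / 4) ^ 3 * Sq (δ / 4) 0 σ - σ.card / 2 ≤ en (ind (bad δ)) σ := by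
  have := dbl_mono (σ := σ) (f := fun x y => if blk (δ / 4) 0 x = blk (δ / 4) 0 y then 1 else 0)
    (g := fun x y => ind (bad δ) (dist x y)) fun x _ y _ => by
      split_ifs with h
      · have := dist_le_of_blk_eq (by positivity) h
        rw [ind_of_mem (Or.inl (show dist x y ≤ δ / 2 by linarith))]
      · exact ind_nonneg _ _
  rw [en, ind_of_mem (Or.inl (half_pos hδ).le), Sq, mul_div_assoc', mul_comm 2,
    mul_div_mul_left _ _ (by positivity)]
  linarith

lemma entropy_bound {δ T V : ℝ} (hδ : 0 < δ) (hT : 8 * δ ^ 3 * Real.exp T ≤ 1) {Δ : Set Pt}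
    (hΔ : MeasurableSet Δ) (hV0 : 0 ≤ V) (hV : volume Δ = ENNReal.ofReal V) (n : ℕ)
    (t : Multiset Pt) (ht : en (ind (Iio δ)) t = 0) (F : Multiset Pt → ℝ≥0∞) (hF : Measurable F)
    (C : ℝ) (h : ∀ σ : Multiset Pt, σ.card = n → (∀ x ∈ σ, x ∈ Δ) → ∀ u ≤ σ,
      en (ind (Iio δ)) (t + u) = 0 → F σ ≤ ex (C + T * (n - u.card))) :
    ∫⁻ σ, F σ ∂mJ (volume.restrict Δ) n ≤ ex C * ENNReal.ofReal ((V + t.card + n) ^ n) := by
  classical
  induction n generalizing t F C with
  | zero =>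
    rw [lintegral_mJ_zero _ hF]
    simpa using h 0 rfl (by simp) 0 le_rfl (by simpa)
  | succ n ih =>
    set W := ex C * ENNReal.ofReal ((V + t.card + (n + 1 : ℕ)) ^ n) with hW
    set E := ⋃ x ∈ t.toFinset, Metric.ball x δ with hE
    have hEm : MeasurableSet E :=
      Finset.measurableSet_biUnion _ fun _ _ => Metric.isOpen_ball.measurableSet
    rw [lintegral_mJ_succ _ _ hF]
    calc _ ≤ ∫⁻ y in Δ, (W + E.indicator (fun _ => ex T * W) y) := by
          refine setLIntegral_mono' hΔ fun y hy => ?_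
          have hs : ∀ σ : Multiset Pt, (∀ x ∈ σ, x ∈ Δ) → ∀ x ∈ y ::ₘ σ, x ∈ Δ :=
            fun σ h2 => Multiset.forall_mem_cons.2 ⟨hy, h2⟩
          by_cases hyE : y ∈ E
          · rw [indicator_of_mem hyE]
            refine le_add_left ((ih t ht (fun s => F (y ::ₘ s)) (hF.comp (measurable_cons y))
              (T + C) fun σ h1 h2 u h3 h4 => ?_).trans ?_)
            · refine (h _ (by simp [h1]) (hs σ h2) u (h3.trans (Multiset.le_cons_self _ _))
                h4).trans (le_of_eq ?_)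
              push_cast; congr 1; ring
            · rw [ex_add, mul_assoc, hW]
              gcongr
              exact Nat.le_succ n
          · rw [indicator_of_notMem hyE, add_zero]
            have h5 : ∀ x ∈ t, dist y x ∉ Iio δ := fun x hx h =>
              hyE (mem_iUnion₂.2 ⟨x, Multiset.mem_toFinset.2 hx, h⟩)
            refine (ih (y ::ₘ t) (by rw [en_cons_of_notMem h5, ht]) (fun s => F (y ::ₘ s))
              (hF.comp (measurable_cons y)) C fun σ h1 h2 u h3 h4 => ?_).trans (le_of_eq ?_)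
            · refine (h _ (by simp [h1]) (hs σ h2) (y ::ₘ u) (Multiset.cons_le_cons _ h3)
                (by rwa [Multiset.add_cons, ← Multiset.cons_add])).trans (le_of_eq ?_)
              rw [Multiset.card_cons]; push_cast; congr 1; ring
            · rw [hW, Multiset.card_cons]; push_cast; congr 3; ring
      _ ≤ W * ENNReal.ofReal V + ex T * W * (t.card * ENNReal.ofReal (8 * δ ^ 3)) := by
          rw [lintegral_add_left measurable_const, lintegral_indicator_const hEm,
            setLIntegral_const, hV]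
          refine add_le_add le_rfl (mul_le_mul_right ((Measure.restrict_le_self _).trans
            ((measure_biUnion_finset_le _ _).trans ?_)) _)
          refine (Finset.sum_le_card_nsmul _ _ _ fun x _ => volume_ball_le x hδ.le).trans ?_
          rw [nsmul_eq_mul]
          gcongr
          exact Multiset.toFinset_card_le t
      _ = W * (ENNReal.ofReal V + t.card * ENNReal.ofReal (8 * δ ^ 3 * Real.exp T)) := by
          rw [ENNReal.ofReal_mul (p := 8 * δ ^ 3) (by positivity), ex]; ring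
      _ ≤ W * ENNReal.ofReal (V + t.card + (n + 1 : ℕ)) := by
          refine mul_le_mul_right ?_ _
          rw [← ENNReal.ofReal_natCast, ← ENNReal.ofReal_mul (by positivity),
            ← ENNReal.ofReal_add hV0 (by positivity)]
          refine ENNReal.ofReal_le_ofReal ?_
          have := mul_le_mul_of_nonneg_left hT (Nat.cast_nonneg t.card)
          have : (0 : ℝ) ≤ (n + 1 : ℕ) := by positivity
          linarith
      _ = _ := by rw [hW, mul_assoc, ← ENNReal.ofReal_mul (by positivity), pow_succ]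

/-- the entropic cost of `n` particles in a volume `V` -/
noncomputable def Cf (a p m V : ℝ) (n : ℕ) : ℝ :=
  a * p * m / 2 * max 0 (n - p * V) + a * max 0 ((n : ℝ) ^ 2 / V - m ^ 2 * p ^ 2 * V)

lemma Cf_le {a p m V ε ρ n' α Bd : ℝ} {n : ℕ} (ha : 0 ≤ a) (hp : 0 ≤ p) (hm : 0 ≤ m) (hV : 0 < V)
    (hε : 0 ≤ ε) (hε1 : ε ≤ 1) (hρ : 0 < ρ) (hα : α ≤ (p + ε) * V) (hB : 0 ≤ Bd) (h0 : n' ≤ n)
    (h1 : n' ≤ α + Bd) (h2 : n ≤ m * α + Bd) (h3 : (n : ℝ) ^ 2 / V ≤ ρ * (Bd + n / 2)) :
    Cf a p m V n ≤ a * p * m / 2 * (n - n') - 2 * n +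
      (a * p * m / 2 + a * (2 * ρ + 2 * m) + 2) * Bd +
      (a * p * m / 2 * ε + 2 * a * m ^ 2 * ε * (p + 1) + 2 * m * (p + 1)) * V := by
  have e1 : max 0 (n - p * V) ≤ n - n' + Bd + ε * V :=
    max_le (by have := mul_nonneg hε hV.le; linarith) (by linarith)
  have h4 : m * α ≤ m * ((p + ε) * V) := mul_le_mul_of_nonneg_left hα hm
  have h5 : m * ((p + ε) * V) ≤ m * ((p + 1) * V) := by gcongr
  have hn : (0 : ℝ) ≤ n := by positivity
  have e2 : max 0 ((n : ℝ) ^ 2 / V - m ^ 2 * p ^ 2 * V) ≤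
      (2 * ρ + 2 * m) * Bd + 2 * m ^ 2 * ε * (p + 1) * V := by
    refine max_le (by positivity) ?_
    have h6 : 0 ≤ m * Bd := by positivity
    have h7 : 0 ≤ m ^ 2 * ε * (p + 1) * V := by positivity
    rcases le_total (n : ℝ) (ρ * V) with h | h
    · rcases le_total (n : ℝ) (m * p * V) with h' | h'
      · have : (n : ℝ) ^ 2 / V ≤ m ^ 2 * p ^ 2 * V := by
          rw [div_le_iff₀ hV]; nlinarith
        have : 0 ≤ ρ * Bd := by positivity
        linarith
      · have e3 : (n : ℝ) ^ 2 / V - m ^ 2 * p ^ 2 * V =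
            (n - m * p * V) * (n + m * p * V) / V := by field_simp; ring
        have e4 : (n - m * p * V) * (n + m * p * V) ≤ (Bd + m * ε * V) * (2 * n) :=
          mul_le_mul (by linarith) (by linarith) (by positivity) (by positivity)
        have e5 : Bd * n ≤ Bd * (ρ * V) := mul_le_mul_of_nonneg_left h hB
        have e6 : m * ε * V * n ≤ m * ε * V * (m * ((p + 1) * V) + Bd) :=
          mul_le_mul_of_nonneg_left (by linarith) (by positivity)
        have e7 : m * V * Bd * ε ≤ m * V * Bd * 1 := mul_le_mul_of_nonneg_left hε1 (by positivity)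
        rw [e3, div_le_iff₀ hV]
        linarith
    · have e3 : ρ * n ≤ (n : ℝ) ^ 2 / V := by rw [le_div_iff₀ hV]; nlinarith
      have : 0 ≤ m ^ 2 * p ^ 2 * V := by positivity
      linarith
  have f1 := mul_le_mul_of_nonneg_left e1 (show 0 ≤ a * p * m / 2 by positivity)
  have f2 := mul_le_mul_of_nonneg_left e2 ha
  unfold Cf
  linarith

lemma measurable_of_card {β : Type*} [MeasurableSpace β] (f : ℕ → β) :
    Measurable fun σ : Multiset Pt => f σ.card := measurable_from_top.comp measurable_card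

theorem block_entropy {δ l a p ε M β : ℝ} {m : ℕ} {φ0 : ℝ → ℝ} (hδ : 0 < δ) (hδ1 : δ ≤ 1 / 2)
    (hm : ∀ S : Finset Pt, (∀ x ∈ S, ∀ y ∈ S, x ≠ y → δ / 2 < dist x y ∧ dist x y < δ) → S.card ≤ m)
    (hφ : Measurable φ0) (hφM : ∀ r, 0 ≤ r → M * ind (bad δ) r ≤ φ0 r) (hl : 1 ≤ l)
    (ha : 0 ≤ a) (hp : 0 ≤ p) (hε : 0 ≤ ε) (hε1 : ε ≤ 1) (hβ : 0 ≤ β)
    (hT : 8 * δ ^ 3 * Real.exp (a * p * m / 2) ≤ 1) (hα : packingNumber l ≤ (p + ε) * l ^ 3)
    (hM : a * p * m / 2 + a * (2 * (3456 / δ ^ 3) + 2 * m) + 2 ≤ β * M) (s : ℝ) (b : Z3) :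
    ∫⁻ σ, ex (Cf a p m (l ^ 3) σ.card - β * en φ0 σ) ∂LP (volume.restrict (cell l s b)) ≤
      ex ((a * p * m / 2 * ε + 2 * a * m ^ 2 * ε * (p + 1) + 2 * m * (p + 1) + 2) * l ^ 3) := by
  set η := a * p * m / 2 * ε + 2 * a * m ^ 2 * ε * (p + 1) + 2 * m * (p + 1) with hη
  have hl0 : 0 < l := by linarith
  have hV : 1 ≤ l ^ 3 := one_le_pow₀ hl
  rw [lintegral_LP]
  have key : ∀ n : ℕ, (n.factorial : ℝ≥0∞)⁻¹ * ∫⁻ σ, ex (Cf a p m (l ^ 3) σ.card - β * en φ0 σ)
      ∂mJ (volume.restrict (cell l s b)) n ≤ ex ((η + 1) * l ^ 3) * 2⁻¹ ^ n := fun n => by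
    have h1 := entropy_bound hδ hT (measurableSet_cell l s b) (by positivity) (volume_cell hl0 s b)
      n 0 (by simp) (fun σ => ex (Cf a p m (l ^ 3) σ.card - β * en φ0 σ))
      (measurable_ex.comp ((measurable_of_card (Cf a p m (l ^ 3))).sub
        ((measurable_en hφ).const_mul _))) (η * l ^ 3 - 2 * n) fun σ h1 h2 u h3 h4 => by
      have h5 := fun x hx => cell_subset_box hl0 s b (h2 x hx)
      rw [zero_add] at h4
      have h6 := (card_le_of_sep hl0.le _ (fun x hx => h5 x (Multiset.mem_of_le h3 hx)) h4).trans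
        (add_le_add le_rfl (en_le_of_le (fun r _ => ind_nonneg _ r) h3))
      have h7 := Cf_le ha hp (Nat.cast_nonneg m) (pow_pos hl0 3) hε hε1
        (show 0 < 3456 / δ ^ 3 by positivity) hα (en_ind_nonneg _ σ)
        (Nat.cast_le.2 (Multiset.card_le_card h3)) h6 (card_le_clusters hδ hδ1 hl0.le hm _ h5) (by
          have h7 := sq_card_le (d := δ / 4) (by positivity) hl0.le _ fun x hx => mem_box.1 (h5 x hx)
          have h8 := le_en_bad hδ σ
          have h9 : (l + 2 * (δ / 4)) ^ 3 ≤ (3 * l) ^ 3 :=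
            pow_le_pow_left₀ (by positivity) (by linarith) 3
          have h10 := mul_le_mul_of_nonneg_right h9 (Sq_nonneg (l := δ / 4) (by positivity) 0 σ)
          rw [div_le_iff₀ (by positivity)]
          calc _ ≤ 3456 / δ ^ 3 * ((δ / 4) ^ 3 * Sq (δ / 4) 0 σ) * l ^ 3 := by
                rw [show 3456 / δ ^ 3 * ((δ / 4) ^ 3 * Sq (δ / 4) 0 σ) * l ^ 3 =
                  2 * ((3 * l) ^ 3 * Sq (δ / 4) 0 σ) by field_simp; ring]
                linarith
            _ ≤ _ := by gcongr; linarith)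
      have h8 := en_mono hφM σ
      rw [en_mul] at h8
      have h9 := mul_le_mul_of_nonneg_left h8 hβ
      have h10 := mul_le_mul_of_nonneg_right hM (en_ind_nonneg (bad δ) σ)
      rw [h1] at h7 ⊢
      rw [← hη] at h7
      exact ex_mono (by linarith)
    refine (mul_le_mul_right h1 _).trans ?_
    rw [mul_left_comm, ← ENNReal.ofReal_natCast, ← ENNReal.ofReal_inv_of_pos (by positivity),
      ← ENNReal.ofReal_mul (by positivity), inv_mul_eq_div]
    refine (mul_le_mul_right (ENNReal.ofReal_le_ofReal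
      (Real.pow_div_factorial_le_exp _ (by positivity) n)) _).trans ?_
    rw [← ex, ← ex_add, show η * l ^ 3 - 2 * n + (l ^ 3 + ((0 : Multiset Pt).card : ℝ) + n) =
      (η + 1) * l ^ 3 + n * (-1) by simp; ring, ex_add, ← ex_pow]
    gcongr
    rw [ex, ← ENNReal.ofReal_ofNat, ← ENNReal.ofReal_inv_of_pos two_pos, Real.exp_neg]
    exact ENNReal.ofReal_le_ofReal (inv_anti₀ two_pos (by linarith [Real.add_one_le_exp 1]))
  refine (ENNReal.tsum_le_tsum key).trans ?_
  rw [ENNReal.tsum_mul_left, ENNReal.tsum_geometric, ENNReal.one_sub_inv_two, inv_inv,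
    show (η + 2) * l ^ 3 = (η + 1) * l ^ 3 + l ^ 3 by ring, ex_add]
  gcongr
  rw [ex, ← ENNReal.ofReal_ofNat]
  exact ENNReal.ofReal_le_ofReal (by linarith [Real.add_one_le_exp (l ^ 3)])

end Crest.Agent.H5.Gas
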