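import Mathlib
import Crest.Agent.H5.Gas.Thermo

/-! Canonical Gibbs measures and the variational inequality. -/

set_option autoImplicit false

namespace Crest.Agent.H5.Gas

open MeasureTheory Set Function Filter
open Crest.ProbabilityR.Continuum
open scoped ENNReal Topology

/-- a state of `N` particles in the cube whose free energy functional is at least `γ` -/
structure St (φ : ℝ → ℝ) (β L : ℝ) (N : ℕ) (γ : ℝ) (P : Measure (Multiset Pt)) : Prop where
  prob : IsProbabilityMeasure P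
  supp : ∀ᵐ σ ∂P, σ.card = N ∧ ∀ x ∈ σ, x ∈ cube L
  vi : ∀ X : Multiset Pt → ℝ, Measurable X → Integrable X P → ∀ A,
    Zf (cube L) N (fun σ => ex (X σ - β * en φ σ)) ≤ ex A → ∫ σ, X σ ∂P ≤ A - γ

noncomputable def gibbs (φ : ℝ → ℝ) (β L : ℝ) (N : ℕ) : Measure (Multiset Pt) :=
  (mJ (volume.restrict (cube L)) N).tilted fun σ => -β * en φ σ

instance (L : ℝ) : IsFiniteMeasure (volume.restrict (cube L)) :=
  isFiniteMeasure_restrict.2 (ne_top_of_le_ne_top (by rw [volume_cube (le_max_right L 0)]; simp)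
    (measure_mono (cube_mono (le_max_left L 0))))

variable {φ : ℝ → ℝ} {B β L γ : ℝ} {N : ℕ} {P : Measure (Multiset Pt)}

lemma St.mono (h : St φ β L N γ P) {γ' : ℝ} (hγ : γ' ≤ γ) : St φ β L N γ' P :=
  ⟨h.prob, h.supp, fun X h1 h2 A h3 => (h.vi X h1 h2 A h3).trans (by linarith)⟩

lemma St.integrable (h : St φ β L N γ P) {X : Multiset Pt → ℝ} (hX : Measurable X) (C : ℝ)
    (hC : ∀ σ : Multiset Pt, σ.card = N → |X σ| ≤ C) : Integrable X P := by
  have := h.prob
  exact Integrable.of_bound hX.aestronglyMeasurable C (h.supp.mono fun σ hσ => hC σ hσ.1)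

lemma St.integral_const (h : St φ β L N γ P) (c : ℝ) : ∫ _, c ∂P = c := by
  have := h.prob; simp

lemma St.integrable_const (h : St φ β L N γ P) (c : ℝ) : Integrable (fun _ => c) P := by
  have := h.prob; exact MeasureTheory.integrable_const c

lemma St.integral_mono (h : St φ β L N γ P) {X Y : Multiset Pt → ℝ} (hX : Integrable X P)
    (hY : Integrable Y P)
    (hle : ∀ σ : Multiset Pt, σ.card = N → (∀ x ∈ σ, x ∈ cube L) → X σ ≤ Y σ) :
    ∫ σ, X σ ∂P ≤ ∫ σ, Y σ ∂P :=
  integral_mono_ae hX hY (h.supp.mono fun σ hσ => hle σ hσ.1 hσ.2)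

lemma Pot.exp_le (h : Pot φ B) {β β' : ℝ} (hβ : 0 ≤ β) (hβ' : β ≤ β') (L : ℝ) (N : ℕ) :
    ∀ᵐ σ ∂mJ (volume.restrict (cube L)) N, Real.exp (-β * en φ σ) ≤ Real.exp (β' * B * N) :=
  (ae_card_mJ _ N).mono fun σ hσ => by
    have := h.stab σ
    rw [hσ] at this
    have h2 : 0 ≤ B * N := mul_nonneg h.hB (by positivity)
    exact Real.exp_le_exp.2 (by nlinarith)

lemma Pot.meas_exp (h : Pot φ B) (β : ℝ) :
    Measurable fun σ : Multiset Pt => Real.exp (-β * en φ σ) :=
  Real.measurable_exp.comp ((measurable_en h.meas).const_mul _)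

lemma Pot.integrable_exp (h : Pot φ B) (hβ : 0 ≤ β) (L : ℝ) (N : ℕ) :
    Integrable (fun σ => Real.exp (-β * en φ σ)) (mJ (volume.restrict (cube L)) N) :=
  Integrable.of_bound (h.meas_exp β).aestronglyMeasurable _
    ((h.exp_le hβ le_rfl L N).mono fun σ hσ => by rwa [Real.norm_eq_abs, Real.abs_exp])

lemma Pot.Z_eq (h : Pot φ B) (hβ : 0 ≤ β) (L : ℝ) (N : ℕ) : Z φ β L N = (N.factorial : ℝ≥0∞)⁻¹ *
    ENNReal.ofReal (∫ σ, Real.exp (-β * en φ σ) ∂mJ (volume.restrict (cube L)) N) := by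
  rw [ofReal_integral_eq_lintegral_ofReal (h.integrable_exp hβ L N)
    (ae_of_all _ fun _ => (Real.exp_pos _).le)]
  rfl

lemma neZero_mJ (hL : 0 < L) (N : ℕ) : NeZero (mJ (volume.restrict (cube L)) N) := by
  refine ⟨fun h0 => ?_⟩
  have h1 := mJ_univ (volume.restrict (cube L)) N
  rw [h0, Measure.restrict_apply_univ, volume_cube hL.le] at h1
  exact (ENNReal.ofReal_pos.2 (pow_pos hL 3)).ne' (eq_zero_of_pow_eq_zero h1.symm)

lemma Pot.gibbs_St (h : Pot φ B) (hβ : 0 ≤ β) (hL : 0 < L) (N : ℕ) :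
    St φ β L N (lz φ β L N) (gibbs φ β L N) := by
  have := neZero_mJ hL N
  have hp : IsProbabilityMeasure (gibbs φ β L N) :=
    isProbabilityMeasure_tilted (h.integrable_exp hβ L N)
  refine ⟨hp, tilted_absolutelyContinuous _ _ (ae_mJ _ (measurableSet_cube L) N),
    fun X hX hXi A hA => ?_⟩
  set c := A - lz φ β L N with hc
  have hI := integral_exp_pos (h.integrable_exp hβ L N)
  have hZ := h.Z_eq hβ L N
  have hm : Measurable fun σ => ex (X σ - β * en φ σ) :=
    Gas.measurable_ex.comp (hX.sub ((measurable_en h.meas).const_mul _))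
  set I := ∫ σ, Real.exp (-β * en φ σ) ∂mJ (volume.restrict (cube L)) N
  have h1 : ∫⁻ σ, ex (X σ - c) ∂gibbs φ β L N ≤ 1 := by
    rw [gibbs, lintegral_tilted, lintegral_congr (g := fun σ =>
      ((ENNReal.ofReal I)⁻¹ * ex (-c)) * ex (X σ - β * en φ σ)) fun σ => by
        rw [ENNReal.ofReal_div_of_pos hI, ENNReal.div_eq_inv_mul, mul_assoc, mul_assoc, ← ex_add,
          ← ex, ← ex_add]
        congr 2; ring, lintegral_const_mul _ hm]
    have hN0 : (N.factorial : ℝ≥0∞) ≠ 0 := by exact_mod_cast N.factorial_ne_zero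
    have h2 := mul_le_mul_right hA (N.factorial : ℝ≥0∞)
    rw [Zf, ← mul_assoc, ENNReal.mul_inv_cancel hN0 (by simp), one_mul] at h2
    refine (mul_le_mul_right h2 _).trans (le_of_eq ?_)
    have h3 : ENNReal.ofReal I = N.factorial * ex (lz φ β L N) := by
      rw [h.ex_lz hβ hL, hZ, ← mul_assoc, ENNReal.mul_inv_cancel hN0 (by simp), one_mul]
    rw [mul_assoc, mul_left_comm (ex _), ← ex_add, show -c + A = lz φ β L N by rw [hc]; ring, ← h3]
    exact ENNReal.inv_mul_cancel (ENNReal.ofReal_pos.2 hI).ne' ENNReal.ofReal_ne_top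
  have hm2 : Measurable fun σ => Real.exp (X σ - c) := by fun_prop
  have h2 : Integrable (fun σ => Real.exp (X σ - c)) (gibbs φ β L N) :=
    ⟨hm2.aestronglyMeasurable, (hasFiniteIntegral_iff_ofReal
      (ae_of_all _ fun _ => (Real.exp_pos _).le)).2 (h1.trans_lt ENNReal.one_lt_top)⟩
  have h3 : ∫ σ, Real.exp (X σ - c) ∂gibbs φ β L N ≤ 1 := by
    rw [integral_eq_lintegral_of_nonneg_ae (ae_of_all _ fun _ => (Real.exp_pos _).le)
      hm2.aestronglyMeasurable]
    exact ENNReal.toReal_le_of_le_ofReal zero_le_one (by rw [ENNReal.ofReal_one]; exact h1)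
  have h4 := integral_mono hXi (h2.add (integrable_const (c - 1))) fun σ => by
    have := Real.add_one_le_exp (X σ - c)
    simp only [Pi.add_apply]; linarith
  simp only [Pi.add_apply] at h4
  rw [integral_add h2 (integrable_const _)] at h4
  simp at h4
  linarith

lemma Pot.integrable_en (h : Pot φ B) (hβ : 0 < β) (L : ℝ) (N : ℕ) :
    Integrable (en φ) (gibbs φ β L N) := by
  rw [gibbs, integrable_tilted_iff (h.integrable_exp hβ.le L N)]
  refine Integrable.of_bound ((h.meas_exp β).smul (measurable_en h.meas)).aestronglyMeasurable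
    (1 / β + Real.exp (β * B * N) * (B * N)) ?_
  filter_upwards [h.exp_le hβ.le le_rfl L N, ae_card_mJ _ N] with σ h1 h2
  have h3 := h.stab σ
  rw [h2] at h3
  have h4 : 0 ≤ B * N := mul_nonneg h.hB (by positivity)
  have h5 := Real.exp_pos (-β * en φ σ)
  rw [smul_eq_mul, Real.norm_eq_abs, abs_mul, Real.abs_exp]
  rcases le_total 0 (en φ σ) with h6 | h6
  · rw [abs_of_nonneg h6]
    refine le_add_of_le_of_nonneg ?_ (by positivity)
    have h7 := Real.add_one_le_exp (β * en φ σ)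
    rw [le_div_iff₀ hβ, neg_mul, Real.exp_neg, mul_assoc, inv_mul_le_iff₀ (Real.exp_pos _)]
    linarith
  · rw [abs_of_nonpos h6]
    exact le_add_of_nonneg_of_le (by positivity)
      (mul_le_mul h1 (by linarith) (by linarith) (by positivity))

lemma Pot.mean_le (h : Pot φ B) (hβ : 0 < β) {β' : ℝ} (hβ' : 0 ≤ β') (hL : 0 < L) (N : ℕ) :
    (β - β') * ∫ σ, en φ σ ∂gibbs φ β L N ≤ lz φ β' L N - lz φ β L N := by
  rw [← integral_const_mul]
  refine (h.gibbs_St hβ.le hL N).vi _ ((measurable_en h.meas).const_mul _)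
    ((h.integrable_en hβ L N).const_mul _) _ (le_of_eq ?_)
  rw [h.ex_lz hβ' hL, Z]
  congr 1; ext σ; congr 1; ring

lemma Pot.convexOn_lz (h : Pot φ B) (hL : 0 < L) (N : ℕ) :
    ConvexOn ℝ (Ioi 0) fun β => lz φ β L N := by
  refine ⟨convex_Ioi 0, fun x hx y hy a b ha hb hab => ?_⟩
  have h0 : 0 < a • x + b • y := convex_Ioi 0 hx hy ha hb hab
  have h1 := mul_le_mul_of_nonneg_left (h.mean_le h0 (le_of_lt hx) hL N) ha
  have h2 := mul_le_mul_of_nonneg_left (h.mean_le h0 (le_of_lt hy) hL N) hb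
  simp only [smul_eq_mul] at *
  obtain rfl : b = 1 - a := by linarith
  linarith

lemma Pot.convexOn_gl (h : Pot φ B) {ρ : ℝ} (hρ : 0 < ρ) :
    ConvexOn ℝ (Ioi 0) fun β => gl φ β ρ := by
  refine ⟨convex_Ioi 0, fun x hx y hy a b ha hb hab => ?_⟩
  have h0 : 0 < a • x + b • y := convex_Ioi 0 hx hy ha hb hab
  refine le_of_tendsto_of_tendsto (h.thermo h0.le hρ).1
    (((h.thermo (le_of_lt hx) hρ).1.const_mul a).add ((h.thermo (le_of_lt hy) hρ).1.const_mul b))
    ((eventually_gt_atTop 0).mono fun L hL => ?_)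
  have := div_le_div_of_nonneg_right ((h.convexOn_lz hL ⌊ρ * L ^ 3⌋₊).2 hx hy ha hb hab)
    (pow_pos hL 3).le
  exact this.trans (le_of_eq (by simp only [smul_eq_mul]; ring))

lemma Pot.continuousOn_mean (h : Pot φ B) (hL : 0 < L) (N : ℕ) {X : Multiset Pt → ℝ}
    (hX : Measurable X) (C : ℝ) (hC : ∀ σ : Multiset Pt, σ.card = N → |X σ| ≤ C) :
    ContinuousOn (fun β => ∫ σ, X σ ∂gibbs φ β L N) (Icc 0 2) := by
  have := neZero_mJ hL N
  have key : ∀ X : Multiset Pt → ℝ, Measurable X → ∀ C : ℝ,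
      (∀ σ : Multiset Pt, σ.card = N → |X σ| ≤ C) → ContinuousOn (fun β =>
        ∫ σ, Real.exp (-β * en φ σ) * X σ ∂mJ (volume.restrict (cube L)) N) (Icc 0 2) := by
    intro X hX C hC
    refine continuousOn_of_dominated (bound := fun _ => Real.exp (2 * B * N) * C)
      (fun β _ => ((h.meas_exp β).mul hX).aestronglyMeasurable) (fun β hβ => ?_)
      (integrable_const _) (ae_of_all _ fun σ => by fun_prop)
    filter_upwards [h.exp_le hβ.1 hβ.2 L N, ae_card_mJ _ N] with σ h1 h2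
    rw [Real.norm_eq_abs, abs_mul, Real.abs_exp]
    exact mul_le_mul h1 (hC σ h2) (abs_nonneg _) (by positivity)
  have h1 := key (fun _ => 1) measurable_const 1 (by simp)
  simp only [mul_one] at h1
  refine ((key X hX C hC).div h1 fun β hβ =>
    (integral_exp_pos (h.integrable_exp hβ.1 L N)).ne').congr fun β _ => ?_
  simp only [gibbs, integral_tilted, smul_eq_mul, Pi.div_apply]
  rw [← integral_div]
  exact integral_congr_ae (ae_of_all _ fun σ => by ring)

lemma Pot.abs_mean_le (h : Pot φ B) (h1 : 1 / 2 ≤ β) (h2 : β ≤ 2) (hL : 0 < L) (N : ℕ) :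
    |∫ σ, en φ σ ∂gibbs φ β L N| ≤ 4 * (L ^ 3 + 3 * B * N - lz φ 2 L N) := by
  have hβ : 0 < β := by linarith
  have hS := h.gibbs_St hβ.le hL N
  have lo : ∀ {β}, 0 < β → -B * N ≤ ∫ σ, en φ σ ∂gibbs φ β L N := fun {β} hβ => by
    have hS := h.gibbs_St hβ.le hL N
    rw [← hS.integral_const (-B * N)]
    exact hS.integral_mono (hS.integrable_const _) (h.integrable_en hβ L N) fun σ hσ _ => by
      rw [← hσ]; exact h.stab σ
  have h3 := h.mean_le hβ (β' := β - 1 / 4) (by linarith) hL N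
  have h4 := h.mean_le two_pos hβ.le hL N
  have h5 := h.lz_le (β := β - 1 / 4) (by linarith) hL N
  have h6 := h.lz_le zero_le_two hL N
  have h7 : 0 ≤ B * N := mul_nonneg h.hB (by positivity)
  have h8 := mul_le_mul_of_nonneg_left (lo two_pos) (sub_nonneg.2 h2)
  have h9 := lo hβ
  rw [abs_le]; constructor <;> nlinarith

lemma Pot.gibbs_St' (h : Pot φ B) (h1 : 1 / 2 ≤ β) (h2 : β ≤ 2) {β' : ℝ} (h1' : 1 / 2 ≤ β')
    (h2' : β' ≤ 2) (hL : 0 < L) (N : ℕ) :
    St φ β' L N (lz φ β' L N - 8 * |β - β'| * (L ^ 3 + 3 * B * N - lz φ 2 L N))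
      (gibbs φ β L N) := by
  have hβ : 0 < β := by linarith
  have hS := h.gibbs_St hβ.le hL N
  refine ⟨hS.prob, hS.supp, fun X hX hXi A hA => ?_⟩
  have hU := (h.integrable_en hβ L N).const_mul (β - β')
  have h3 := hS.vi (fun σ => X σ + (β - β') * en φ σ)
    (hX.add ((measurable_en h.meas).const_mul _)) (hXi.add hU) A (by
      refine le_of_eq_of_le ?_ hA
      congr 1; ext σ; congr 1; ring)
  rw [integral_add hXi hU, integral_const_mul] at h3
  have h4 := h.mean_le (β := β') (by linarith) hβ.le hL N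
  have h5 := mul_le_mul_of_nonneg_left (h.abs_mean_le h1 h2 hL N) (abs_nonneg (β - β'))
  have h6 := mul_le_mul_of_nonneg_left (h.abs_mean_le h1' h2' hL N) (abs_nonneg (β - β'))
  rw [← abs_mul] at h5 h6
  linarith [(abs_le.1 h5).1, (abs_le.1 h6).2]

end Crest.Agent.H5.Gas
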