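import Mathlib
import Crest.Agent.H5.Gas.Gibbs

/-! A critical temperature with prescribed mean of an observable; the kink criterion. -/

set_option autoImplicit false

namespace Crest.Agent.H5.Gas

open MeasureTheory Set Function Filter
open Crest.ProbabilityR.Continuum
open scoped ENNReal Topology

variable {φ : ℝ → ℝ} {B : ℝ}

lemma Pot.exists_crit (h : Pot φ B) {ρ : ℝ} (hρ : 0 < ρ) {X : Multiset Pt → ℝ} (hX : Measurable X)
    (C : ℕ → ℝ) (hC : ∀ σ : Multiset Pt, |X σ| ≤ C σ.card) {c : ℝ}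
    (h1 : ∀ᶠ L : ℝ in atTop, ∫ σ, X σ ∂gibbs φ (7 / 8) L ⌊ρ * L ^ 3⌋₊ ≤ c * L ^ 3)
    (h2 : ∀ᶠ L : ℝ in atTop, c * L ^ 3 ≤ ∫ σ, X σ ∂gibbs φ (9 / 8) L ⌊ρ * L ^ 3⌋₊) :
    ∃ β ∈ Icc (7 / 8 : ℝ) (9 / 8), ∀ s e : ℝ, 0 < e → ∃ᶠ L : ℝ in atTop, ∃ P,
      St φ β L ⌊ρ * L ^ 3⌋₊ ((gl φ β ρ - s * ρ) * L ^ 3 + s * ⌊ρ * L ^ 3⌋₊ - e * L ^ 3) P ∧
        ∫ σ, X σ ∂P = c * L ^ 3 := by
  have : ∀ L : ℝ, ∃ β ∈ Icc (7 / 8 : ℝ) (9 / 8), 0 < L →
      ∫ σ, X σ ∂gibbs φ (7 / 8) L ⌊ρ * L ^ 3⌋₊ ≤ c * L ^ 3 →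
      c * L ^ 3 ≤ ∫ σ, X σ ∂gibbs φ (9 / 8) L ⌊ρ * L ^ 3⌋₊ →
      ∫ σ, X σ ∂gibbs φ β L ⌊ρ * L ^ 3⌋₊ = c * L ^ 3 := fun L => by
    by_cases hL : 0 < L ∧ ∫ σ, X σ ∂gibbs φ (7 / 8) L ⌊ρ * L ^ 3⌋₊ ≤ c * L ^ 3 ∧
      c * L ^ 3 ≤ ∫ σ, X σ ∂gibbs φ (9 / 8) L ⌊ρ * L ^ 3⌋₊
    · obtain ⟨β, hβ, e⟩ := intermediate_value_Icc (by norm_num : (7 / 8 : ℝ) ≤ 9 / 8)
        ((h.continuousOn_mean hL.1 ⌊ρ * L ^ 3⌋₊ hX _ fun σ hσ => hσ ▸ hC σ).mono
          (Icc_subset_Icc (by norm_num) (by norm_num))) hL.2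
      exact ⟨β, hβ, fun _ _ _ => e⟩
    · exact ⟨1, by norm_num, fun a b c => absurd ⟨a, b, c⟩ hL⟩
  choose b hb hb' using this
  obtain ⟨β, hβ, hcl⟩ := isCompact_Icc.exists_mapClusterPt (f := atTop) (u := b)
    (le_principal_iff.2 (mem_map.2 (Eventually.of_forall hb)))
  refine ⟨β, hβ, fun s e he => ?_⟩
  set D := 1 + 3 * B * ρ - gl φ 2 ρ
  set δ := e / (16 * (|D| + 1)) with hδ
  have hδ0 : 0 < δ := by positivity
  have t1 := ((tendsto_N hρ.le).const_mul (3 * B)).const_add 1 |>.sub (h.thermo zero_le_two hρ).1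
  have t2 := (h.thermo (β := β) (by linarith [hβ.1]) hρ).1.sub ((tendsto_N hρ.le).const_mul s)
  refine ((hcl.frequently (Metric.ball_mem_nhds β hδ0)).and_eventually (h1.and (h2.and
    ((eventually_gt_atTop 0).and ((t1.eventually_lt_const (show D < |D| + 1 by
      linarith [le_abs_self D])).and (t2.eventually_const_lt
        (show gl φ β ρ - s * ρ - e / 2 < _ by linarith))))))).mono ?_
  rintro L ⟨h3, h4, h5, hL, h6, h7⟩
  refine ⟨_, (h.gibbs_St' (by linarith [(hb L).1]) (by linarith [(hb L).2]) (by linarith [hβ.1])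
    (by linarith [hβ.2]) hL _).mono ?_, hb' L hL h4 h5⟩
  set N := ⌊ρ * L ^ 3⌋₊
  have hV := pow_pos hL 3
  have h8 : L ^ 3 + 3 * B * N - lz φ 2 L N ≤ (|D| + 1) * L ^ 3 := by
    rw [← div_le_iff₀ hV]; refine le_of_eq_of_le ?_ h6.le; field_simp
  have h9 : (gl φ β ρ - s * ρ - e / 2) * L ^ 3 ≤ lz φ β L N - s * N := by
    rw [← le_div_iff₀ hV]; refine h7.le.trans (le_of_eq ?_); field_simp
  have h10 : |b L - β| * ((|D| + 1) * L ^ 3) ≤ δ * ((|D| + 1) * L ^ 3) :=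
    mul_le_mul_of_nonneg_right (le_of_lt h3) (by positivity)
  have h11 : δ * ((|D| + 1) * L ^ 3) = e / 16 * L ^ 3 := by rw [hδ]; field_simp
  have h12 := mul_le_mul_of_nonneg_left h8 (abs_nonneg (b L - β))
  linarith

/-- kink criterion -/
lemma Pot.kink (h : Pot φ B) {ρ β A A' : ℝ} (hρ : 0 < ρ) (hβ : 0 < β) (hA : A < A')
    (hl : ∀ β', 0 < β' → β' < β → gl φ β ρ - A * (β - β') ≤ gl φ β' ρ)
    (hr : ∀ β', β < β' → gl φ β ρ + A' * (β' - β) ≤ gl φ β' ρ) :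
    ∃ Dl Dr : ℝ, HasDerivWithinAt (fun β => -(1 / β) * gl φ β ρ) Dl (Set.Iio β) β ∧
      HasDerivWithinAt (fun β => -(1 / β) * gl φ β ρ) Dr (Set.Ioi β) β ∧ Dr < Dl := by
  have hc := h.convexOn_gl hρ
  have hi : β ∈ interior (Ioi (0 : ℝ)) := by rwa [interior_Ioi]
  have h1 := hc.hasDerivWithinAt_leftDeriv_of_mem_interior hi
  have h2 := hc.hasDerivWithinAt_rightDeriv_of_mem_interior hi
  have h3 : HasDerivAt (fun β : ℝ => -(1 / β)) (1 / β ^ 2) β := by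
    simpa [neg_div] using (hasDerivAt_inv hβ.ne').fun_neg
  refine ⟨_, _, h3.hasDerivWithinAt.mul h1, h3.hasDerivWithinAt.mul h2, ?_⟩
  have h4 : derivWithin (fun β => gl φ β ρ) (Iio β) β ≤ A := by
    refine le_of_tendsto ((hasDerivWithinAt_iff_tendsto_slope' (by simp)).1 h1) ?_
    filter_upwards [Ioo_mem_nhdsLT hβ] with β' hβ'
    rw [slope_def_field, div_le_iff_of_neg (sub_neg.2 hβ'.2)]
    linarith [hl β' hβ'.1 hβ'.2]
  have h5 : A' ≤ derivWithin (fun β => gl φ β ρ) (Ioi β) β := by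
    refine ge_of_tendsto ((hasDerivWithinAt_iff_tendsto_slope' (by simp)).1 h2) ?_
    filter_upwards [self_mem_nhdsWithin] with β' hβ'
    rw [slope_def_field, le_div_iff₀ (sub_pos.2 hβ')]
    linarith [hr β' hβ']
  have h6 : 0 < 1 / β := by positivity
  nlinarith

lemma energy_eq (φ : ℝ → ℝ) {N : ℕ} (x : Fin N → Pt) : energy φ x = en φ (cfg x) := by
  classical
  have h1 : dbl (fun x y : Pt => φ (dist x y)) (cfg x) = ∑ p : Fin N × Fin N,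
      φ (dist (x p.1) (x p.2)) := by
    simp only [dbl, cfg_eq, Multiset.map_map, Fintype.sum_prod_type]; rfl
  have h2 : energy φ x = ∑ p : Fin N × Fin N, if p.1 < p.2 then φ (dist (x p.1) (x p.2)) else 0 := by
    rw [energy, ← Finset.sum_filter]
    exact (Finset.sum_subtype _ (by simp) fun p : Fin N × Fin N => φ (dist (x p.1) (x p.2))).symm
  have h3 : energy φ x = ∑ p : Fin N × Fin N, if p.2 < p.1 then φ (dist (x p.1) (x p.2)) else 0 := by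
    rw [h2, ← (Equiv.prodComm _ _).sum_comp]
    simp only [Equiv.prodComm_apply, Prod.fst_swap, Prod.snd_swap, dist_comm]
  have h4 : (N : ℝ) * φ 0 = ∑ p : Fin N × Fin N,
      if p.1 = p.2 then φ (dist (x p.1) (x p.2)) else 0 := by
    simp [Fintype.sum_prod_type]
  rw [en, h1, card_cfg, eq_div_iff two_ne_zero, mul_two, eq_sub_iff_add_eq, h4]
  nth_rewrite 1 [h2]
  rw [h3, ← Finset.sum_add_distrib, ← Finset.sum_add_distrib]
  refine Finset.sum_congr rfl fun p _ => ?_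
  rcases lt_trichotomy p.1 p.2 with h | h | h
  · simp [h, h.not_gt, h.ne]
  · simp [h]
  · simp [h, h.not_gt, h.ne']

lemma Pot.log_partitionFn (h : Pot φ B) (β L : ℝ) (N : ℕ) :
    Real.log (partitionFn φ L N β) = lz φ β L N := by
  rw [lz, Z, Zf, lintegral_mJ _ _ (h.measurable_ex β), partitionFn, ← Measure.restrict_pi_pi,
    ENNReal.toReal_mul, integral_eq_lintegral_of_nonneg_ae (ae_of_all _ fun _ => (Real.exp_pos _).le)]
  · simp [energy_eq, ex, volume_pi]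
  · simp only [energy_eq]
    exact ((h.meas_exp β).comp (measurable_cfg N)).aestronglyMeasurable

lemma Pot.tendsto_free (h : Pot φ B) {β ρ : ℝ} (hβ : 0 < β) (hρ : 0 < ρ) :
    Tendsto (fun L : ℝ => -(1 / (β * L ^ 3)) * Real.log (partitionFn φ L ⌊ρ * L ^ 3⌋₊ β))
      atTop (𝓝 (-(1 / β) * gl φ β ρ)) := by
  refine ((h.thermo hβ.le hρ).1.const_mul _).congr fun L => ?_
  rw [h.log_partitionFn]; ring

end Crest.Agent.H5.Gas
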