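import Mathlib
import Crest.Agent.H5.Gas.Kac

/-! The multi-scale attractive potential. -/

set_option autoImplicit false

namespace Crest.Agent.H5.Gas

open MeasureTheory Set Function Filter
open Crest.ProbabilityR.Continuum
open scoped ENNReal Topology

def vv (v j : ℕ) : ℕ := v ^ 2 ^ j

@[simp] lemma vv_zero (v : ℕ) : vv v 0 = v := by simp [vv]

lemma vv_succ (v j : ℕ) : (vv v (j + 1) : ℝ) = (vv v j : ℝ) ^ 2 := by
  simp [vv, pow_succ 2 j, pow_mul]

noncomputable def tk (a : ℝ) (v j : ℕ) : ℝ := if j = 0 then a else 1 / vv v j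

noncomputable def tm (a : ℝ) (v j : ℕ) (r : ℝ) : ℝ := tk a v j * JR ((vv v j : ℝ) ^ 16) r

/-- the scales from `k` on -/
noncomputable def psi (a : ℝ) (v k : ℕ) (r : ℝ) : ℝ := ∑' j, tm a v (j + k) r

/-- the scales below `k` -/
noncomputable def psiL (a : ℝ) (v k : ℕ) (r : ℝ) : ℝ := ∑ j ∈ Finset.range k, tm a v j r

variable {a : ℝ} {v : ℕ}

lemma vv_ge (hv : 2 ≤ v) (j k : ℕ) : (2 : ℝ) ^ j * vv v k ≤ vv v (j + k) ∧ (2 : ℝ) ≤ vv v k := by
  have h2 : ∀ k, (2 : ℝ) ≤ vv v k := fun k => by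
    induction k with
    | zero => simpa using hv
    | succ k ih => rw [vv_succ]; nlinarith
  refine ⟨?_, h2 k⟩
  induction j with
  | zero => simp
  | succ j ih =>
    rw [add_right_comm, vv_succ, pow_succ]
    have := h2 (j + k)
    nlinarith

lemma two_le_vv (hv : 2 ≤ v) (k : ℕ) : (2 : ℝ) ≤ vv v k := (vv_ge hv 0 k).2

lemma vv_pos (hv : 2 ≤ v) (k : ℕ) : (0 : ℝ) < vv v k := by linarith [two_le_vv hv k]

lemma vv_mono (hv : 2 ≤ v) {j k : ℕ} (h : j ≤ k) : (vv v j : ℝ) ≤ vv v k := by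
  exact_mod_cast Nat.pow_le_pow_right (by omega) (Nat.pow_le_pow_right two_pos h)

lemma le_vv (hv : 2 ≤ v) (k : ℕ) : (v : ℝ) ≤ vv v k := by simpa using vv_mono hv (Nat.zero_le k)

lemma tendsto_vv (hv : 2 ≤ v) : Tendsto (fun k => (vv v k : ℝ)) atTop atTop :=
  tendsto_atTop_mono (fun k => by
    have := (vv_ge hv k 0).1
    have h2 := two_le_vv hv 0
    rw [add_zero] at this
    nlinarith [pow_pos (two_pos : (0 : ℝ) < 2) k]) (tendsto_pow_atTop_atTop_of_one_lt one_lt_two)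

lemma tk_succ (a : ℝ) (v j : ℕ) : tk a v (j + 1) = 1 / vv v (j + 1) := if_neg (Nat.succ_ne_zero j)

lemma tk_nonneg (ha : 0 ≤ a) (v j : ℕ) : 0 ≤ tk a v j := by
  unfold tk; split_ifs <;> positivity

lemma tk_le (ha : 1 ≤ a) (hv : 2 ≤ v) (j : ℕ) : tk a v j ≤ a := by
  unfold tk; split_ifs
  · exact le_rfl
  · exact ((div_le_one (vv_pos hv j)).2 (by linarith [two_le_vv hv j])).trans ha

lemma inv_vv_le (hv : 2 ≤ v) (j k : ℕ) : 1 / (vv v (j + k) : ℝ) ≤ 1 / vv v k * (1 / 2) ^ j := by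
  rw [one_div_pow, one_div_mul_one_div, mul_comm]
  exact one_div_le_one_div_of_le (by have := vv_pos hv k; positivity) (vv_ge hv j k).1

lemma summable_inv_vv (hv : 2 ≤ v) (k : ℕ) : Summable fun j => 1 / (vv v (j + k) : ℝ) :=
  Summable.of_nonneg_of_le (fun _ => by positivity) (inv_vv_le hv · k)
    (summable_geometric_two.mul_left _)

lemma tsum_inv_vv (hv : 2 ≤ v) (k : ℕ) : ∑' j, 1 / (vv v (j + k) : ℝ) ≤ 2 / vv v k := by
  refine ((summable_inv_vv hv k).tsum_le_tsum (inv_vv_le hv · k)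
    (summable_geometric_two.mul_left _)).trans (le_of_eq ?_)
  rw [tsum_mul_left, tsum_geometric_two]; ring

lemma summable_tk (a : ℝ) (hv : 2 ≤ v) (k : ℕ) : Summable fun j => tk a v (j + k) :=
  (summable_nat_add_iff k).2 ((summable_nat_add_iff 1).1 (by
    simpa only [tk_succ] using summable_inv_vv hv 1))

lemma tm_nonneg (ha : 0 ≤ a) (hv : 2 ≤ v) (j : ℕ) (r : ℝ) : 0 ≤ tm a v j r :=
  mul_nonneg (tk_nonneg ha v j) (JR_nonneg (pow_pos (vv_pos hv j) _) r)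

lemma tm_le (ha : 0 ≤ a) (hv : 2 ≤ v) (j : ℕ) (r : ℝ) : tm a v j r ≤ tk a v j * 4 := by
  refine mul_le_mul_of_nonneg_left ((JR_le (pow_pos (vv_pos hv j) _) r).trans
    (div_le_self (by norm_num) (one_le_pow₀ (one_le_pow₀ ?_)))) (tk_nonneg ha v j)
  linarith [two_le_vv hv j]

lemma summable_tm (ha : 0 ≤ a) (hv : 2 ≤ v) (k : ℕ) (r : ℝ) : Summable fun j => tm a v (j + k) r :=
  Summable.of_nonneg_of_le (fun _ => tm_nonneg ha hv _ _) (fun _ => tm_le ha hv _ _)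
    ((summable_tk a hv k).mul_right 4)

lemma continuous_tm (a : ℝ) (v j : ℕ) : Continuous (tm a v j) := (continuous_JR _).const_mul _

lemma continuous_psi (ha : 0 ≤ a) (hv : 2 ≤ v) (k : ℕ) : Continuous (psi a v k) :=
  continuous_tsum (fun _ => continuous_tm _ _ _) ((summable_tk a hv k).mul_right 4) fun j r => by
    rw [Real.norm_of_nonneg (tm_nonneg ha hv _ _)]; exact tm_le ha hv _ _

lemma continuous_psiL (a : ℝ) (v k : ℕ) : Continuous (psiL a v k) :=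
  continuous_finsetSum _ fun _ _ => continuous_tm _ _ _

lemma psi_nonneg (ha : 0 ≤ a) (hv : 2 ≤ v) (k : ℕ) (r : ℝ) : 0 ≤ psi a v k r :=
  tsum_nonneg fun _ => tm_nonneg ha hv _ _

lemma psiL_nonneg (ha : 0 ≤ a) (hv : 2 ≤ v) (k : ℕ) (r : ℝ) : 0 ≤ psiL a v k r :=
  Finset.sum_nonneg fun _ _ => tm_nonneg ha hv _ _

lemma psi_le (ha : 0 ≤ a) (hv : 2 ≤ v) (k : ℕ) (r : ℝ) :
    psi a v k r ≤ ∑' j, tk a v (j + k) * 4 :=
  (summable_tm ha hv k r).tsum_le_tsum (fun _ => tm_le ha hv _ _) ((summable_tk a hv k).mul_right 4)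

lemma psiL_add (ha : 0 ≤ a) (hv : 2 ≤ v) (k : ℕ) (r : ℝ) :
    psiL a v k r + psi a v k r = psi a v 0 r :=
  (summable_tm ha hv 0 r).sum_add_tsum_nat_add k

lemma psi_succ (ha : 0 ≤ a) (hv : 2 ≤ v) (k : ℕ) (r : ℝ) :
    psi a v k r = tm a v k r + psi a v (k + 1) r := by
  have h1 := psiL_add ha hv k r
  have h2 := psiL_add ha hv (k + 1) r
  rw [psiL, Finset.sum_range_succ, ← psiL] at h2
  linarith

lemma psiL_le (ha : 0 ≤ a) (hv : 2 ≤ v) (k : ℕ) (r : ℝ) : psiL a v k r ≤ psi a v 0 r := by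
  linarith [psiL_add ha hv k r, psi_nonneg ha hv k r]

lemma psiL_eq_zero (hv : 2 ≤ v) (k : ℕ) {r : ℝ} (h : (vv v (k + 1) : ℝ) ^ 8 < r) :
    psiL a v (k + 1) r = 0 := by
  refine Finset.sum_eq_zero fun j hj => ?_
  rw [tm, JR_eq_zero (pow_pos (vv_pos hv j) _), mul_zero]
  refine le_trans ?_ h.le
  rw [vv_succ, ← pow_mul]
  exact pow_le_pow_left₀ (vv_pos hv j).le (vv_mono hv (Nat.lt_succ_iff.1 (Finset.mem_range.1 hj))) _

lemma en_psi_le (ha : 0 ≤ a) (hv : 2 ≤ v) (k : ℕ) (σ : Multiset Pt) :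
    en (psi a v k) σ ≤ (∑' j, tk a v (j + k)) * ((1 + 1000 / v ^ 4) * Sq (v ^ 12) 0 σ) := by
  have hv' : (2 : ℝ) ≤ v := by exact_mod_cast hv
  refine hasSum_le (fun j => ?_) (en_hasSum (fun r => (summable_tm ha hv k r).hasSum) σ)
    ((summable_tk a hv k).hasSum.mul_right _)
  unfold tm
  rw [en_mul]
  have h1 : (v : ℝ) ^ 16 ≤ (vv v (j + k) : ℝ) ^ 16 := pow_le_pow_left₀ (by positivity) (le_vv hv _) _
  refine mul_le_mul_of_nonneg_left ((en_JR_le (l := v ^ 12) (by positivity)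
    ((pow_le_pow_right₀ (by linarith) (by norm_num)).trans h1) 0 σ).trans
    (mul_le_mul_of_nonneg_right (add_le_add le_rfl ?_) (Sq_nonneg (by positivity) _ _)))
    (tk_nonneg ha _ _)
  calc _ ≤ 1000 * (v : ℝ) ^ 12 / v ^ 16 := by gcongr
    _ = _ := by field_simp

lemma en_psi_succ_le (ha : 0 ≤ a) (hv : 10 ≤ v) (k : ℕ) (σ : Multiset Pt) :
    en (psi a v (k + 1)) σ ≤ 4 / vv v (k + 1) * Sq (v ^ 12) 0 σ := by
  have hv' : (10 : ℝ) ≤ v := by exact_mod_cast hv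
  refine (en_psi_le ha (by omega) _ σ).trans ?_
  have h1 := tsum_inv_vv (v := v) (by omega) (k + 1)
  have h2 : 1000 / (v : ℝ) ^ 4 ≤ 1 := by
    rw [div_le_one (by positivity)]
    linarith [pow_le_pow_left₀ (by norm_num) hv' 4]
  have h3 := Sq_nonneg (l := (v : ℝ) ^ 12) (by positivity) 0 σ
  simp only [← add_assoc, tk_succ] at h1 ⊢
  calc _ ≤ 2 / (vv v (k + 1) : ℝ) * (2 * Sq (v ^ 12) 0 σ) := by gcongr; linarith
    _ = _ := by ring

lemma en_psi_zero_le {ε : ℝ} (ha : 1 ≤ a) (hε : ε ≤ 1) (hv : 10 ≤ v) (hv2 : 10 ≤ ε * v)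
    (σ : Multiset Pt) : en (psi a v 0) σ ≤ a * (1 + ε) * Sq (v ^ 12) 0 σ := by
  have hv' : (10 : ℝ) ≤ v := by exact_mod_cast hv
  refine (en_psi_le (by linarith) (by omega) _ σ).trans ?_
  have h1 := tsum_inv_vv (v := v) (by omega) 1
  rw [(summable_tk a (by omega) 0).tsum_eq_zero_add, ← mul_assoc]
  refine mul_le_mul_of_nonneg_right ?_ (Sq_nonneg (by positivity) _ _)
  simp only [add_zero, tk_succ]
  have h2 : 1000 / (v : ℝ) ^ 4 ≤ ε / 3 := by
    rw [div_le_iff₀ (by positivity)]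
    have := mul_le_mul hv2 (pow_le_pow_left₀ (by norm_num) hv' 3) (by norm_num) (by linarith)
    nlinarith
  have h3 : 2 / (vv v 1 : ℝ) ≤ ε / 3 := by
    rw [div_le_iff₀ (vv_pos (by omega) 1)]
    have h4 := le_vv (v := v) (by omega) 1
    have : 0 < ε := by nlinarith
    nlinarith
  have h5 : tk a v 0 = a := if_pos rfl
  have : 0 < ε := by nlinarith
  calc _ ≤ (a + a * (ε / 3)) * (1 + ε / 3) := by
        rw [h5]; gcongr; nlinarith
    _ ≤ _ := by nlinarith [mul_nonneg (show 0 ≤ a * ε by positivity) (sub_nonneg.2 hε)]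

lemma psi_decay (ha : 0 ≤ a) (hv : 2 ≤ v) : ∃ C, ∀ r : ℝ, 0 < r →
    psi a v 0 r ≤ C * r ^ (-(3 + 1 / 32 : ℝ)) := by
  have hs : Summable fun j => tk a v j * 4 * √(vv v j) := by
    refine (summable_nat_add_iff 1).1 (((summable_inv_vv hv 0).mul_left 4).congr fun j => ?_)
    have := vv_pos hv j
    rw [tk_succ, vv_succ, Real.sqrt_sq this.le, add_zero]; field_simp
  refine ⟨∑' j, tk a v j * 4 * √(vv v j), fun r hr => ?_⟩
  rw [← tsum_mul_right]
  refine (summable_tm ha hv 0 r).tsum_le_tsum (fun j => ?_) (hs.mul_right _)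
  have h0 := vv_pos hv j
  rw [add_zero, tm, mul_assoc, mul_assoc]
  refine mul_le_mul_of_nonneg_left ?_ (tk_nonneg ha _ _)
  rcases le_total ((vv v j : ℝ) ^ 16) r with h | h
  · rw [JR_eq_zero (by positivity) h]; positivity
  · refine (JR_le (by positivity) r).trans ?_
    have h1 := Real.rpow_le_rpow_of_nonpos hr h (show -(3 + 1 / 32 : ℝ) ≤ 0 by norm_num)
    rw [div_eq_mul_inv]
    refine mul_le_mul_of_nonneg_left (le_trans (le_of_eq ?_)
      (mul_le_mul_of_nonneg_left h1 (Real.sqrt_nonneg _))) (by norm_num)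
    rw [Real.sqrt_eq_rpow, ← pow_mul, ← Real.rpow_natCast, ← Real.rpow_natCast,
      ← Real.rpow_mul h0.le, ← Real.rpow_add h0, ← Real.rpow_neg h0.le]
    norm_num

end Crest.Agent.H5.Gas
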