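import Mathlib
import Crest.Agent.H5.Gas.Thermo

/-! Rearrangement of blocks according to their occupation numbers. -/

set_option autoImplicit false

namespace Crest.Agent.H5.Gas

open MeasureTheory Set Function Filter
open Crest.ProbabilityR.Continuum
open scoped ENNReal Topology

/-- union of cells -/
def reg (l s : ℝ) (T : Finset Z3) : Set Pt := ⋃ b ∈ T, cell l s b

lemma mem_reg {l s : ℝ} {T : Finset Z3} {x : Pt} : x ∈ reg l s T ↔ blk l s x ∈ T := by
  simp [reg, cell]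

lemma measurableSet_reg (l s : ℝ) (T : Finset Z3) : MeasurableSet (reg l s T) :=
  Finset.measurableSet_biUnion _ fun b _ => measurableSet_cell l s b

lemma volume_reg {l : ℝ} (hl : 0 < l) (s : ℝ) (T : Finset Z3) :
    volume (reg l s T) = ENNReal.ofReal (T.card * l ^ 3) := by
  rw [reg, measure_biUnion_finset (pairwiseDisjoint_cell l s _) fun b _ => measurableSet_cell l s b]
  simp [volume_cell hl, ENNReal.ofReal_mul]

/-- upper bound by a product over cells -/
lemma Zf_le_prod {l s L A : ℝ} {T : Finset Z3} (hT : ∀ x ∈ cube L, blk l s x ∈ T) {N : ℕ}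
    {F : Multiset Pt → ℝ≥0∞} (hF : Measurable F)
    (hA : ∀ b ∈ T, ∫⁻ σ, F σ ∂LP (volume.restrict (cell l s b)) ≤ ex A)
    {G : Multiset Pt → ℝ≥0∞} {c : ℝ} (h : ∀ σ : Multiset Pt, σ.card = N → (∀ x ∈ σ, x ∈ cube L) →
      G σ ≤ ex c * ∏ b ∈ T, F (part (blk l s) b σ)) :
    Zf (cube L) N G ≤ ex (c + T.card * A) := by
  have hm : Measurable fun σ => ∏ b ∈ T, F (fil (cell l s b) σ) :=
    Finset.measurable_fun_prod _ fun b _ => hF.comp (measurable_fil (measurableSet_cell l s b))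
  refine (Zf_le_LP (A' := reg l s T) (measurableSet_cube L) (fun x hx => mem_reg.2 (hT x hx))
    (hm.const_mul _) h).trans ?_
  rw [lintegral_const_mul _ hm, reg, lintegral_LP_prod _ T _ (measurableSet_cell l s)
    (pairwiseDisjoint_cell l s _) (fun _ => F) fun _ => hF, ex_add, ← ex_pow, ← Finset.prod_const]
  exact mul_le_mul_right (Finset.prod_le_prod' hA) _

lemma exists_sort_perm (T : Finset Z3) (c : Z3 → ℕ) : ∃ π : Equiv.Perm Z3,
    (∀ b, π b ∈ T ↔ b ∈ T) ∧ ∀ b ∈ T, ∀ b' ∈ T, π b ≤ π b' → c b ≤ c b' := by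
  classical
  let T' : Finset (LinearExtension Z3) := T
  let e := T'.orderIsoOfFin rfl
  let f : Fin T'.card → ℕ := fun i => c (e i).1
  let ρ : Equiv.Perm {b : Z3 // b ∈ T} :=
    (e.toEquiv.symm.trans (Tuple.sort f).symm).trans e.toEquiv
  refine ⟨Equiv.Perm.ofSubtype ρ, fun b => ρ.ofSubtype_apply_mem_iff_mem b,
    fun b hb b' hb' h => ?_⟩
  rw [ρ.ofSubtype_apply_of_mem hb, ρ.ofSubtype_apply_of_mem hb'] at h
  have h1 : e ((Tuple.sort f).symm (e.symm ⟨b, hb⟩)) ≤ e ((Tuple.sort f).symm (e.symm ⟨b', hb'⟩)) :=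
    toLinearExtension.monotone h
  simpa [f] using Tuple.monotone_sort f (e.le_iff_le.1 h1)

lemma exists_labels (T : Finset Z3) (K : ℕ) : ∃ S : Finset (Z3 → ℕ), S.card ≤ K ^ T.card ∧
    ∀ ν : Z3 → ℕ, (∀ b ∈ T, ν b < K) → (∀ b ∉ T, ν b = 0) → ν ∈ S := by
  classical
  refine ⟨(Fintype.piFinset fun _ : T => Finset.range K).image
    fun f b => if h : b ∈ T then f ⟨b, h⟩ else 0, Finset.card_image_le.trans (by simp),
    fun ν h1 h2 => Finset.mem_image.2 ⟨fun b => ν b, by simpa using h1, ?_⟩⟩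
  ext b
  split_ifs with h
  exacts [rfl, (h2 b h).symm]

noncomputable def mv (l s : ℝ) (π : Z3 → Z3) (b : Z3) : Pt :=
  vec fun a => (l + 2) * π b a - (l * b a - s)

/-- the rearranged configuration -/
noncomputable def rr (l s : ℝ) (π : Z3 → Z3) (T : Finset Z3) (σ : Multiset Pt) : Multiset Pt :=
  (fil (reg l s T) σ).map fun x => x + mv l s π (blk l s x)

lemma mv_mem_box {l : ℝ} (hl : 0 < l) (s : ℝ) (π : Z3 → Z3) {b : Z3} {x : Pt}
    (hx : x ∈ cell l s b) : x + mv l s π b ∈ box (fun a => (l + 2) * π b a) l :=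
  mem_box.2 fun a => by
    have := (blk_eq_iff hl s x b).1 hx a
    simp only [mv, PiLp.add_apply, vec_apply]
    constructor <;> linarith [this.1, this.2]

lemma blk_of_mem_box {l : ℝ} (hl : 0 < l) {b : Z3} {x : Pt}
    (hx : x ∈ box (fun a => (l + 2) * b a) l) : blk (l + 2) 0 x = b :=
  (blk_eq_iff (by linarith) 0 x b).2 fun a => by
    have := mem_box.1 hx a
    constructor <;> linarith [this.1, this.2]

lemma mem_rr {l : ℝ} (hl : 0 < l) {s : ℝ} {π : Z3 → Z3} {T : Finset Z3} {σ : Multiset Pt} {x : Pt}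
    (hx : x ∈ rr l s π T σ) : ∃ b ∈ T, x ∈ box (fun a => (l + 2) * π b a) l := by
  obtain ⟨y, hy, rfl⟩ := Multiset.mem_map.1 hx
  exact ⟨_, mem_reg.1 (mem_fil.1 hy).2, mv_mem_box hl s π rfl⟩

lemma part_rr {l : ℝ} (hl : 0 < l) (s : ℝ) (π : Equiv.Perm Z3) (T : Finset Z3) (σ : Multiset Pt)
    (b : Z3) : part (blk (l + 2) 0) (π b) (rr l s π T σ) =
      if b ∈ T then (part (blk l s) b σ).map fun x => x + mv l s π b else 0 := by
  classical
  have h1 : part (blk (l + 2) 0) (π b) (rr l s π T σ) =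
      (part (blk l s) b (fil (reg l s T) σ)).map fun x => x + mv l s π b := by
    unfold part rr
    rw [fil, Multiset.filter_map]
    refine Multiset.map_congr (Multiset.filter_congr fun x _ => ?_) fun x hx => ?_
    · simp [blk_of_mem_box hl (mv_mem_box hl s π (x := x) rfl)]
    · rw [show blk l s x = b from (Multiset.mem_filter.1 hx).2]
  rw [h1]
  split_ifs with h
  · rw [part, fil_fil, inter_eq_left.2 fun x hx => mem_reg.2 (by rwa [show blk l s x = b from hx])]
    rfl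
  · rw [part_eq_zero (g := blk l s) (b := b) fun x hx e => h (e ▸ mem_reg.1 (mem_fil.1 hx).2), Multiset.map_zero]

lemma card_fil_reg (l s : ℝ) (T : Finset Z3) (σ : Multiset Pt) :
    (fil (reg l s T) σ).card = ∑ b ∈ T, (part (blk l s) b σ).card := by
  rw [← card_part (blk l s) (T := T) fun x hx => mem_reg.1 (mem_fil.1 hx).2]
  refine Finset.sum_congr rfl fun b h => ?_
  rw [part, fil_fil, inter_eq_left.2 fun x hx => mem_reg.2 (by rwa [show blk l s x = b from hx])]
  rfl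

variable {φ : ℝ → ℝ} {B β P s : ℝ}

lemma Pot.LP_rr_le (h : Pot φ B) (ht : Tan φ β P s) {l : ℝ} (hl : 0 < l) (s0 : ℝ) {Q : ℕ}
    (π : Equiv.Perm Z3) (hπ : ∀ b, π b ∈ bx Q ↔ b ∈ bx Q) {T : Finset Z3} (hT : T ⊆ bx Q) (n : ℕ) :
    ∫⁻ σ, (if (fil (reg l s0 T) σ).card = n then ex (-β * en φ (rr l s0 π T σ)) else 0)
      ∂LP (volume.restrict (reg l s0 (bx Q))) ≤
      ex ((Q * (l + 2) + 3) ^ 3 * P + s * n + (bx Q \ T).card * l ^ 3) := by
  have hm : Measurable fun σ : Multiset Pt => if σ.card = n then ex (-β * en φ σ) else 0 :=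
    Measurable.ite (measurable_card (measurableSet_singleton n)) (h.measurable_ex β)
      measurable_const
  have hτ := measurable_ptrans l s0 (mv l s0 π)
  have h1 := lintegral_LP_union volume (measurableSet_reg l s0 T)
    (measurableSet_reg l s0 (bx Q \ T)) (Set.disjoint_left.2 fun x h1 h2 =>
      (Finset.mem_sdiff.1 (mem_reg.1 h2)).2 (mem_reg.1 h1)) (hm.comp (measurable_msmap hτ))
    (G := fun _ => 1) measurable_const
  have h2 : reg l s0 T ∪ reg l s0 (bx Q \ T) = reg l s0 (bx Q) := by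
    ext x
    simp only [mem_union, mem_reg, Finset.mem_sdiff]
    have := @hT (blk l s0 x); tauto
  have : IsFiniteMeasure (volume.restrict (reg l s0 T)) :=
    isFiniteMeasure_restrict.2 (by rw [volume_reg hl]; exact ENNReal.ofReal_ne_top)
  simp only [comp, Multiset.card_map, mul_one, h2] at h1
  refine h1.le.trans ?_
  rw [LP_one (by positivity) (volume_reg hl _ _), ex_add]
  refine mul_le_mul_left ?_ _
  have h3 := lintegral_LP_map (volume.restrict (reg l s0 T)) hτ hm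
  simp only [Multiset.card_map] at h3
  rw [← h3]
  refine (lintegral_LP_mono (μ := (volume.restrict (reg l s0 T)).map _) (map_ptrans_le l s0 T (mv l s0 π) (Λ := cube (Q * (l + 2)))
    (fun b _ b' _ x hx y hy e => ?_) fun b hb x hx => ?_) hm).trans ?_
  · have e1 := blk_of_mem_box hl (mv_mem_box hl s0 π hx)
    rw [e, blk_of_mem_box hl (mv_mem_box hl s0 π hy)] at e1
    exact (π.injective e1).symm
  · exact cube_mono (by linarith) (box_subset_cube hl.le ((hπ b).2 (hT hb)) (mv_mem_box hl s0 π hx))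
  · rw [lintegral_LP_card]
    exact ht _ (by positivity) n

theorem Pot.Zf_le_rr (h : Pot φ B) (ht : Tan φ β P s) {l : ℝ} (hl : 0 < l) (s0 : ℝ) {Q : ℕ}
    (K : ℕ) {L : ℝ} (hQ : ∀ x ∈ cube L, blk l s0 x ∈ bx Q) {N : ℕ} {Y : Multiset Pt → ℝ}
    (hY : ∀ σ : Multiset Pt, σ.card = N → (∀ x ∈ σ, x ∈ cube L) → ∀ (π : Equiv.Perm Z3)
      (T : Finset Z3), (∀ b, π b ∈ bx Q ↔ b ∈ bx Q) → T ⊆ bx Q →
      (∀ b ∈ bx Q, b ∈ T ↔ (part (blk l s0) b σ).card ≤ K) →
      (∀ b ∈ bx Q, ∀ b' ∈ bx Q, π b ≤ π b' → (if b ∈ T then (part (blk l s0) b σ).card else 0) ≤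
        if b' ∈ T then (part (blk l s0) b' σ).card else 0) →
      Y σ ≤ -β * en φ (rr l s0 π T σ) +
        ∑ b ∈ bx Q \ T, (s * (part (blk l s0) b σ).card - l ^ 3)) :
    Zf (cube L) N (fun σ => ex (Y σ)) ≤
      ex (s * N + (Q * (l + 2) + 3) ^ 3 * P + Q ^ 3 * Real.log (K + 2)) := by
  classical
  obtain ⟨S, hS, hS'⟩ := exists_labels (bx Q) (K + 2)
  set T : (Z3 → ℕ) → Finset Z3 := fun ν => (bx Q).filter fun b => ν b ≤ K with hT
  choose π hπ hπ' using fun ν : Z3 → ℕ => exists_sort_perm (bx Q) fun b =>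
    if b ∈ T ν then ν b else 0
  set n : (Z3 → ℕ) → ℕ := fun ν => ∑ b ∈ T ν, ν b with hn
  set F : (Z3 → ℕ) → Multiset Pt → ℝ≥0∞ := fun ν σ =>
    if (fil (reg l s0 (T ν)) σ).card = n ν then ex (-β * en φ (rr l s0 (π ν) (T ν) σ)) else 0
    with hF
  have hFm : ∀ ν, Measurable (F ν) := fun ν => Measurable.ite
    ((measurable_card.comp (measurable_fil (measurableSet_reg _ _ _))) (measurableSet_singleton _))
    ((h.measurable_ex β).comp ((measurable_msmap (measurable_ptrans _ _ _)).comp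
      (measurable_fil (measurableSet_reg _ _ _)))) measurable_const
  refine (Zf_le_LP (A' := reg l s0 (bx Q)) (measurableSet_cube L) (fun x hx => mem_reg.2 (hQ x hx))
    (G := fun σ => ∑ ν ∈ S, ex (s * N - s * n ν - (bx Q \ T ν).card * l ^ 3) * F ν σ)
    (Finset.measurable_fun_sum _ fun ν _ => (hFm ν).const_mul _) fun σ h1 h2 => ?_).trans ?_
  · set ν : Z3 → ℕ := fun b => if b ∈ bx Q then min (part (blk l s0) b σ).card (K + 1) else 0
      with hν
    have h3 : ∀ b ∈ bx Q, b ∈ T ν ↔ (part (blk l s0) b σ).card ≤ K := fun b hb => by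
      simp only [hT, hν, Finset.mem_filter, hb, if_true, true_and]; omega
    have h4 : T ν ⊆ bx Q := Finset.filter_subset _ _
    have h5 : ∀ b ∈ T ν, ν b = (part (blk l s0) b σ).card := fun b hb => by
      have := (h3 b (h4 hb)).1 hb
      simp only [hν, h4 hb, if_true]; omega
    have h6 : ∀ b, (if b ∈ T ν then ν b else 0) =
        if b ∈ T ν then (part (blk l s0) b σ).card else 0 := fun b => by
      split_ifs with hb; exacts [h5 b hb, rfl]
    refine le_trans ?_ (Finset.single_le_sum (f := fun ν =>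
      ex (s * N - s * n ν - (bx Q \ T ν).card * l ^ 3) * F ν σ) (fun _ _ => zero_le)
      (hS' ν (fun b hb => by simp only [hν, hb, if_true]; omega) fun b hb => if_neg hb))
    have h7 : (fil (reg l s0 (T ν)) σ).card = n ν := by
      rw [card_fil_reg]; exact (Finset.sum_congr rfl h5).symm
    simp only [hF, if_pos h7, ← ex_add]
    refine ex_mono ((hY σ h1 h2 (π ν) (T ν) (hπ ν) h4 h3 fun b hb b' hb' hle => by
      simpa only [h6] using hπ' ν b hb b' hb' hle).trans (le_of_eq ?_))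
    have h8 := card_part (blk l s0) fun x hx => hQ x (h2 x hx)
    rw [← Finset.sum_sdiff h4, ← card_fil_reg l s0 (T ν), h7, h1] at h8
    rw [Finset.sum_sub_distrib, ← Finset.mul_sum, Finset.sum_const, nsmul_eq_mul, ← h8]
    push_cast; ring
  · rw [lintegral_finsetSum _ fun ν _ => (hFm ν).const_mul _]
    refine (Finset.sum_le_card_nsmul _ _ (ex (s * N + (Q * (l + 2) + 3) ^ 3 * P))
      fun ν _ => ?_).trans ?_
    · rw [lintegral_const_mul _ (hFm ν)]
      refine (mul_le_mul_right (h.LP_rr_le ht hl s0 (π ν) (hπ ν) (Finset.filter_subset _ _)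
        (n ν)) _).trans (le_of_eq ?_)
      rw [← ex_add]; congr 1; ring
    · rw [nsmul_eq_mul, mul_comm, ex_add _ (_ * Real.log _), ← Nat.cast_pow, ← ex_pow,
        ex_log (by positivity), show ((K : ℝ) + 2) = (K + 2 : ℕ) by push_cast; rfl,
        ENNReal.ofReal_natCast, ← card_bx]
      exact mul_le_mul_right (by exact_mod_cast hS) _

section energy

variable {l s0 : ℝ} {Q : ℕ} {π : Equiv.Perm Z3} {T : Finset Z3} {σ : Multiset Pt}

lemma blk_rr_mem (hl : 0 < l) (hπ : ∀ b, π b ∈ bx Q ↔ b ∈ bx Q) (hT : T ⊆ bx Q) :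
    ∀ x ∈ rr l s0 π T σ, blk (l + 2) 0 x ∈ bx Q := fun x hx => by
  obtain ⟨b, hb, hx⟩ := mem_rr hl hx
  rw [blk_of_mem_box hl hx]; exact (hπ b).2 (hT hb)

lemma sum_part_rr (hl : 0 < l) (hπ : ∀ b, π b ∈ bx Q ↔ b ∈ bx Q) (hT : T ⊆ bx Q)
    (F : Multiset Pt → ℝ) (h0 : F 0 = 0) (hF : ∀ σ (v : Pt), F (σ.map fun x => x + v) = F σ) :
    ∑ b ∈ bx Q, F (part (blk (l + 2) 0) b (rr l s0 π T σ)) = ∑ b ∈ T, F (part (blk l s0) b σ) := by
  classical
  rw [← Finset.sum_equiv π (fun b => (hπ b).symm) fun _ _ => rfl]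
  simp only [part_rr hl, apply_ite F, h0, hF]
  rw [← Finset.sum_filter, Finset.filter_mem_eq_inter, Finset.inter_eq_right.2 hT]

lemma en_rr_le (hl : 0 < l) (hπ : ∀ b, π b ∈ bx Q ↔ b ∈ bx Q) (hT : T ⊆ bx Q) {f : ℝ → ℝ}
    (hf : ∀ r, 2 ≤ r → f r ≤ 0) :
    en f (rr l s0 π T σ) ≤ ∑ b ∈ T, en f (part (blk l s0) b σ) := by
  rw [en_eq_sum_part _ (blk_rr_mem hl hπ hT), sum_part_rr hl hπ hT _ (en_zero f) (en_map_add f)]
  refine add_le_of_nonpos_right (crs_nonpos _ fun x hx y hy hne => hf _ ?_)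
  obtain ⟨b, -, hx⟩ := mem_rr hl hx
  obtain ⟨b', -, hy⟩ := mem_rr hl hy
  rw [blk_of_mem_box hl hx, blk_of_mem_box hl hy] at hne
  exact two_le_dist hl.le hne hx hy

lemma le_en_rr (hl : 1 ≤ l) (hπ : ∀ b, π b ∈ bx Q ↔ b ∈ bx Q) (hT : T ⊆ bx Q) {K : ℕ}
    (hK : ∀ b ∈ T, (part (blk l s0) b σ).card ≤ K)
    (hmono : ∀ b ∈ bx Q, ∀ b' ∈ bx Q, π b ≤ π b' →
      (if b ∈ T then (part (blk l s0) b σ).card else 0) ≤
        if b' ∈ T then (part (blk l s0) b' σ).card else 0) {R : ℝ} (hR : 3000 * l ≤ R) :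
    (1 - (3000 * l / R + 6 / l)) * (∑ b ∈ T, ((part (blk l s0) b σ).card : ℝ) ^ 2 / (2 * l ^ 3)) -
      6 * R * Q ^ 2 * K ^ 2 - 2 * σ.card / R ^ 3 ≤ en (JR R) (rr l s0 π T σ) := by
  have hl0 : 0 < l := by linarith
  have hR0 : 0 < R := by linarith
  have hc : ∀ b, (part (blk (l + 2) 0) (π b) (rr l s0 π T σ)).card =
      if b ∈ T then (part (blk l s0) b σ).card else 0 := fun b => by
    rw [part_rr hl0]; split_ifs <;> simp
  have h1 : 1000 * (l + 2) / R ≤ 3000 * l / R := by gcongr ?_ / R; linarith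
  have h2 : 3000 * l / R ≤ 1 := (div_le_one hR0).2 hR
  refine le_trans ?_ (le_en_JR (l := l + 2) (by linarith) (by linarith) (h1.trans h2)
    (blk_rr_mem hl0 hπ hT) (K := K) (fun q _ => ?_) fun q hq q' hq' hle => ?_)
  · rw [Sq_eq (blk_rr_mem hl0 hπ hT), sum_part_rr hl0 hπ hT
      (fun σ => (σ.card : ℝ) ^ 2 / (2 * (l + 2) ^ 3)) (by simp) (by simp), ← Finset.sum_div,
      ← Finset.sum_div]
    refine sub_le_sub (sub_le_sub ?_ (div_le_self (by positivity)
      (one_le_pow₀ (by linarith)))) ?_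
    · rw [← mul_div_assoc, ← mul_div_assoc, mul_div_right_comm _ _ (2 * l ^ 3),
        mul_div_right_comm _ _ (2 * (l + 2) ^ 3)]
      refine mul_le_mul_of_nonneg_right ?_ (Finset.sum_nonneg fun _ _ => sq_nonneg _)
      rw [div_le_div_iff₀ (by positivity) (by positivity)]
      have h3 : (1 - 6 / l) * (l + 2) ^ 3 ≤ l ^ 3 := by
        rw [one_sub_div hl0.ne', div_mul_eq_mul_div, div_le_iff₀ hl0]; nlinarith
      have h4 := mul_le_mul_of_nonneg_right h1 (pow_pos hl0 3).le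
      have h5 : 3000 * l / R * l ^ 3 ≤ 3000 * l / R * (l + 2) ^ 3 := by gcongr; linarith
      linarith
    · have : (rr l s0 π T σ).card ≤ σ.card := by
        rw [rr, Multiset.card_map]; exact Multiset.card_le_card (fil_le _ _)
      gcongr
  · obtain ⟨b, rfl⟩ := π.surjective q
    rw [hc]; split_ifs with hb
    · exact_mod_cast hK b hb
    · simp
  · obtain ⟨b, rfl⟩ := π.surjective q
    obtain ⟨b', rfl⟩ := π.surjective q'
    rw [hc, hc]
    exact hmono b ((hπ b).1 hq) b' ((hπ b').1 hq') hle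

end energy

end Crest.Agent.H5.Gas
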