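import Mathlib
import Crest.Agent.H5.Gas.Rearr
import Crest.Agent.H5.Gas.Psi
import Crest.Agent.H5.Gas.BE
import Crest.Agent.H5.Gas.Crit

/-! The model and its mean field upper bounds. -/

set_option autoImplicit false

namespace Crest.Agent.H5.Gas

open MeasureTheory Set Function Filter
open Crest.ProbabilityR.Continuum
open scoped ENNReal Topology

/-- the mean field free energy above its common tangent -/
noncomputable def Hh (m x y : ℝ) : ℝ :=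
  m * y / 2 * max 0 (x - y) + max 0 (x ^ 2 - m ^ 2 * y ^ 2) - x ^ 2 / 2 + x * y / 2

lemma Cf_eq (a p m : ℝ) {V : ℝ} (hV : 0 < V) (n : ℕ) :
    Cf a p m V n = a / V * Hh m n (p * V) + a * (n ^ 2 / (2 * V)) - a * p / 2 * n := by
  have : max 0 ((n : ℝ) ^ 2 / V - m ^ 2 * p ^ 2 * V) = max 0 ((n : ℝ) ^ 2 - m ^ 2 * (p * V) ^ 2) / V := by
    rw [← max_div_div_right hV.le, zero_div]; congr 1; field_simp
  rw [Cf, Hh, this]; field_simp; ring

lemma Hh_cases {m x y : ℝ} (hm : 2 ≤ m) (hx : 0 ≤ x) (hy : 0 ≤ y) :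
    (x ≤ y ∧ Hh m x y = x * (y - x) / 2) ∨
    (y ≤ x ∧ x ≤ m * y ∧ Hh m x y = (x - y) * (m * y - x) / 2) ∨
    (m * y ≤ x ∧ Hh m x y = (x - m * y) * (x + y + 2 * m * y) / 2) := by
  have h0 : y ≤ m * y := by nlinarith
  unfold Hh
  rcases le_total x y with h | h
  · refine Or.inl ⟨h, ?_⟩
    rw [max_eq_left (by linarith), max_eq_left (by nlinarith)]; ring
  rcases le_total x (m * y) with h' | h'
  · refine Or.inr (Or.inl ⟨h, h', ?_⟩)
    rw [max_eq_right (by linarith), max_eq_left (by nlinarith)]; ring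
  · refine Or.inr (Or.inr ⟨h', ?_⟩)
    rw [max_eq_right (by linarith), max_eq_right (by nlinarith)]; ring

lemma Hh_nonneg {m x y : ℝ} (hm : 2 ≤ m) (hx : 0 ≤ x) (hy : 0 ≤ y) : 0 ≤ Hh m x y := by
  have : 0 ≤ m * y := by positivity
  rcases Hh_cases hm hx hy with ⟨h, e⟩ | ⟨h, h', e⟩ | ⟨h, e⟩ <;> rw [e] <;>
    exact div_nonneg (mul_nonneg (by linarith) (by linarith)) zero_le_two

lemma le_Hh {m x y : ℝ} (hm : 2 ≤ m) (hx : 0 ≤ x) (hy : 0 ≤ y) :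
    x ^ 2 / 2 + x * y / 2 - m * x * y ≤ Hh m x y := by
  have h1 : 0 ≤ m * y / 2 * max 0 (x - y) := mul_nonneg (by positivity) (le_max_left _ _)
  have h2 := le_max_left 0 (x ^ 2 - m ^ 2 * y ^ 2)
  have h3 := le_max_right 0 (x ^ 2 - m ^ 2 * y ^ 2)
  unfold Hh
  rcases le_total x (m * y) with h | h
  · nlinarith
  · nlinarith [mul_le_mul_of_nonneg_left h (show 0 ≤ m * y by positivity)]

/-- number of blocks per side -/
noncomputable def Qn (l L : ℝ) : ℕ := ⌈L / l⌉₊ + 1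

lemma blk_mem_Qn {l s L : ℝ} (hl : 0 < l) (hs0 : 0 ≤ s) (hs : s < l) :
    ∀ x ∈ cube L, blk l s x ∈ bx (Qn l L) := fun _ hx =>
  blk_mem_bx hl hs0 hs (le_ceil_mul hl) hx

lemma Qn_le {l L : ℝ} (hl : 0 < l) (hL : 0 ≤ L) : Qn l L * l ≤ L + 2 * l := by
  have := Nat.ceil_lt_add_one (div_nonneg hL hl.le)
  rw [← le_div_iff₀ hl, add_div, mul_div_cancel_right₀ _ hl.ne', Qn]
  push_cast; linarith

lemma card_Qn_le {l L : ℝ} (hl : 0 < l) (hL : 0 ≤ L) :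
    (bx (Qn l L)).card * l ^ 3 ≤ (L + 2 * l) ^ 3 := by
  rw [card_bx]; push_cast; rw [← mul_pow]
  exact pow_le_pow_left₀ (by positivity) (Qn_le hl hL) 3

lemma le_card_Qn {l L : ℝ} (hl : 0 < l) (hL : 0 ≤ L) :
    L ^ 3 ≤ (bx (Qn l L)).card * l ^ 3 := by
  rw [card_bx]; push_cast; rw [← mul_pow, Qn]
  refine pow_le_pow_left₀ hL ((le_ceil_mul hl).trans ?_) 3
  push_cast; nlinarith

lemma measurable_part (l s : ℝ) (b : Z3) : Measurable (part (blk l s) b) :=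
  measurable_fil (measurableSet_cell l s b)

lemma measurable_crs (l s : ℝ) {f : ℝ → ℝ} (hf : Measurable f) : Measurable (crs (blk l s) f) := by
  refine (measurable_dbl ?_).div_const _
  refine Measurable.ite (measurableSet_eq_fun ?_ ?_) measurable_const (hf.comp measurable_dist)
  exacts [(measurable_blk l s).comp measurable_fst, (measurable_blk l s).comp measurable_snd]

section
variable {φ : ℝ → ℝ} {β L γ : ℝ} {N : ℕ} {P : Measure (Multiset Pt)}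

lemma St.integrable_cnt (h : St φ β L N γ P) (f : ℕ → ℝ) (l s : ℝ) (b : Z3) :
    Integrable (fun σ => f (part (blk l s) b σ).card) P :=
  h.integrable ((measurable_of_card f).comp (measurable_part l s b))
    (∑ n ∈ Finset.range (N + 1), |f n|) fun _ hσ =>
      Finset.single_le_sum (f := fun n => |f n|) (fun _ _ => abs_nonneg _)
        (Finset.mem_range.2 (Nat.lt_succ_of_le (hσ ▸ Multiset.card_le_card (fil_le _ _))))

lemma St.integrable_Sq (h : St φ β L N γ P) {l : ℝ} (hl : 0 < l) (s : ℝ) :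
    Integrable (Sq l s) P :=
  h.integrable (measurable_Sq l s) (N ^ 2 / (2 * l ^ 3)) fun σ hσ => by
    rw [abs_of_nonneg (Sq_nonneg hl s σ), ← hσ]; exact Sq_le_card hl s σ

lemma St.integrable_crs (h : St φ β L N γ P) (l s : ℝ) {f : ℝ → ℝ} (hf : Measurable f) {C : ℝ}
    (h0 : ∀ r, 0 ≤ f r) (hC : ∀ r, f r ≤ C) : Integrable (crs (blk l s) f) P :=
  h.integrable (measurable_crs l s hf) ((N ^ 2 * C + N * C) / 2) fun σ hσ => by
    rw [abs_of_nonneg (crs_nonneg _ (fun r _ => h0 r) σ), ← hσ]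
    exact (crs_le_en _ (fun r _ => h0 r) σ).trans ((le_abs_self _).trans
      (abs_en_le (fun r => (abs_of_nonneg (h0 r)).trans_le (hC r)) σ))

end

structure Sys where
  p : ℝ
  m : ℝ
  a : ℝ
  ε : ℝ
  ρm : ℝ
  B : ℝ
  v : ℕ
  φ0 : ℝ → ℝ
  hp : 1 ≤ p
  hm : 2 ≤ m
  ha : 1 ≤ a
  hε : 0 < ε
  hε1 : 10 ^ 9 * m ^ 7 * ε ≤ 1
  hρ1 : 1 ≤ ρm
  hρ : ρm ≤ v
  hv : 10 ^ 6 * m * a ≤ ε * v
  meas : Measurable φ0
  nonneg : ∀ r, 0 ≤ φ0 r
  far : ∀ r, 2 ≤ r → φ0 r = 0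
  hB : 0 ≤ B
  stab : ∀ σ : Multiset Pt, 2 * a * Sq (v ^ 12) 0 σ - B * σ.card ≤ en φ0 σ
  dense : ∀ l : ℝ, v ^ 12 ≤ l → ∀ o (σ : Multiset Pt), (∀ x ∈ σ, x ∈ box o l) →
    ρm * l ^ 3 ≤ σ.card → 56 * a * Sq (v ^ 12) 0 σ + 64 * m * a * p * σ.card ≤ en φ0 σ
  be : ∀ β : ℝ, 1 / 4 ≤ β → ∀ l : ℝ, v ^ 12 ≤ l → ∀ s b,
    ∫⁻ σ, ex (Cf a p m (l ^ 3) σ.card - β * en φ0 σ) ∂LP (volume.restrict (cell l s b)) ≤
      ex (ε * a * p ^ 2 * l ^ 3)

namespace Sys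

variable (S : Sys)

noncomputable def φ (r : ℝ) : ℝ := S.φ0 r - psi S.a S.v 0 r

noncomputable def l0 : ℝ := S.v ^ 12

noncomputable def S0 : Multiset Pt → ℝ := Sq S.l0 0

noncomputable def Ct (l s : ℝ) (T : Finset Z3) (σ : Multiset Pt) : ℝ :=
  ∑ b ∈ T, Cf S.a S.p S.m (l ^ 3) (part (blk l s) b σ).card

lemma a0 : 0 ≤ S.a := by linarith [S.ha]

lemma ε_le : S.ε ≤ 1 / 1000 := by
  have := one_le_pow₀ (n := 7) (show 1 ≤ S.m by linarith [S.hm])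
  nlinarith [S.hε1, S.hε]

lemma εv : 10 ^ 6 ≤ S.ε * S.v := by nlinarith [S.hv, S.hm, S.ha]

lemma v_ge : (10 : ℝ) ^ 6 ≤ S.v := by nlinarith [S.εv, S.ε_le, Nat.cast_nonneg (α := ℝ) S.v]

lemma v10 : 10 ≤ S.v := by exact_mod_cast (show (10 : ℝ) ≤ S.v by linarith [S.v_ge])

lemma v2 : 2 ≤ S.v := by linarith [S.v10]

lemma one_le_l0 : 1 ≤ S.l0 := one_le_pow₀ (by linarith [S.v_ge])

lemma l0_pos : 0 < S.l0 := by linarith [S.one_le_l0]

lemma S0_nonneg (σ : Multiset Pt) : 0 ≤ S.S0 σ := Sq_nonneg S.l0_pos _ _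

lemma en_psi_le (σ : Multiset Pt) : en (psi S.a S.v 0) σ ≤ S.a * (1 + S.ε) * S.S0 σ :=
  en_psi_zero_le S.ha (by linarith [S.ε_le]) S.v10 (by linarith [S.εv]) σ

lemma en_psi_le' (σ : Multiset Pt) : en (psi S.a S.v 0) σ ≤ 2 * S.a * S.S0 σ :=
  (S.en_psi_le σ).trans (mul_le_mul_of_nonneg_right (by nlinarith [S.ε_le, S.ha]) (S.S0_nonneg σ))

lemma en_φ (σ : Multiset Pt) : en S.φ σ = en S.φ0 σ - en (psi S.a S.v 0) σ := en_sub _ _ σ

lemma stab' (σ : Multiset Pt) : 2 * S.a * S.S0 σ - S.B * σ.card ≤ en S.φ0 σ := S.stab σ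

lemma pot : Pot S.φ S.B :=
  ⟨S.meas.sub (continuous_psi S.a0 S.v2 0).measurable, S.hB, fun σ => by
    rw [en_φ]; linarith [S.stab' σ, S.en_psi_le' σ],
    fun r hr => by rw [φ, S.far r hr, zero_sub, neg_nonpos]; exact psi_nonneg S.a0 S.v2 0 r⟩

lemma core {β l s L : ℝ} (hβ : 1 / 4 ≤ β) (hl : S.l0 ≤ l) {T : Finset Z3}
    (hT : ∀ x ∈ cube L, blk l s x ∈ T) {N : ℕ} {Y : Multiset Pt → ℝ} {c : ℝ}
    (h : ∀ σ : Multiset Pt, σ.card = N → (∀ x ∈ σ, x ∈ cube L) →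
      Y σ ≤ c + S.Ct l s T σ - β * (S.a * (1 + S.ε) * S.S0 σ)) :
    Zf (cube L) N (fun σ => ex (Y σ - β * en S.φ σ)) ≤
      ex (c + T.card * (S.ε * S.a * S.p ^ 2 * l ^ 3)) := by
  refine Zf_le_prod hT (F := fun σ => ex (Cf S.a S.p S.m (l ^ 3) σ.card - β * en S.φ0 σ))
    (measurable_ex.comp ((measurable_of_card (Cf S.a S.p S.m (l ^ 3))).sub
    ((measurable_en S.meas).const_mul _))) (fun b _ => S.be β hβ l hl s b) fun σ h1 h2 => ?_
  rw [← ex_sum, ← ex_add, Finset.sum_sub_distrib, ← Finset.mul_sum, en_φ,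
    en_eq_sum_part (blk l s) (fun x hx => hT x (h2 x hx)) S.φ0]
  have h3 := h σ h1 h2
  have h4 := mul_le_mul_of_nonneg_left (S.en_psi_le σ) (show 0 ≤ β by linarith)
  have h5 := mul_nonneg (show 0 ≤ β by linarith) (crs_nonneg (blk l s) (fun r _ => S.nonneg r) σ)
  unfold Ct at h3
  exact ex_mono (by linarith)

lemma Ct_eq {l s : ℝ} (hl : 0 < l) {T : Finset Z3} {σ : Multiset Pt} (h : ∀ x ∈ σ, blk l s x ∈ T) :
    S.Ct l s T σ = S.a / l ^ 3 * ∑ b ∈ T, Hh S.m (part (blk l s) b σ).card (S.p * l ^ 3) +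
      S.a * Sq l s σ - S.a * S.p / 2 * σ.card := by
  rw [Sq_eq h, ← card_part _ h]
  simp only [Ct, Cf_eq _ _ _ (pow_pos hl 3), Finset.sum_sub_distrib, Finset.sum_add_distrib,
    ← Finset.mul_sum, Nat.cast_sum]

lemma le_Ct {l s : ℝ} (hl : 0 < l) {T : Finset Z3} {σ : Multiset Pt} (h : ∀ x ∈ σ, blk l s x ∈ T) :
    S.a * Sq l s σ - S.a * S.p / 2 * σ.card ≤ S.Ct l s T σ := by
  have := S.hp
  rw [S.Ct_eq hl h, add_sub_assoc]
  exact le_add_of_nonneg_left (mul_nonneg (div_nonneg S.a0 (by positivity))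
    (Finset.sum_nonneg fun b _ => Hh_nonneg S.hm (by positivity) (by positivity)))

lemma le_Ct' {l s : ℝ} (hl : 0 < l) {T : Finset Z3} {σ : Multiset Pt}
    (h : ∀ x ∈ σ, blk l s x ∈ T) :
    2 * S.a * Sq l s σ - S.m * S.a * S.p * σ.card ≤ S.Ct l s T σ := by
  have := S.hp
  have h1 := mul_le_mul_of_nonneg_left (Finset.sum_le_sum fun b (_ : b ∈ T) =>
    le_Hh (x := (part (blk l s) b σ).card) (y := S.p * l ^ 3) S.hm (by positivity) (by positivity))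
    (div_nonneg S.a0 (pow_pos hl 3).le)
  have h2 : S.a / l ^ 3 * ∑ b ∈ T, (((part (blk l s) b σ).card : ℝ) ^ 2 / 2 +
      (part (blk l s) b σ).card * (S.p * l ^ 3) / 2 -
      S.m * (part (blk l s) b σ).card * (S.p * l ^ 3)) =
      S.a * Sq l s σ + S.a * S.p / 2 * σ.card - S.m * S.a * S.p * σ.card := by
    rw [Sq_eq h, ← card_part _ h]
    simp only [Nat.cast_sum, Finset.mul_sum, ← Finset.sum_add_distrib, ← Finset.sum_sub_distrib]
    exact Finset.sum_congr rfl fun b _ => by field_simp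
  rw [S.Ct_eq hl h]
  linarith

lemma lz_le_of {β L c : ℝ} (hβ : 1 / 4 ≤ β) (hL : 0 < L) {N : ℕ}
    (h : ∀ σ : Multiset Pt, σ.card = N → (∀ x ∈ σ, x ∈ cube L) →
      0 ≤ c + S.Ct S.l0 0 (bx (Qn S.l0 L)) σ - β * (S.a * (1 + S.ε) * S.S0 σ)) :
    lz S.φ β L N ≤ c + S.ε * S.a * S.p ^ 2 * (L + 2 * S.l0) ^ 3 := by
  have h1 := S.core hβ le_rfl (blk_mem_Qn S.l0_pos le_rfl S.l0_pos) h
  simp only [zero_sub, ← neg_mul] at h1
  have h2 := mul_le_mul_of_nonneg_left (card_Qn_le S.l0_pos hL.le)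
    (show 0 ≤ S.ε * S.a * S.p ^ 2 by have := S.hε; have := S.a0; positivity)
  rw [← ex_le_ex, S.pot.ex_lz (by linarith) hL]
  exact h1.trans (ex_mono (by linarith))

lemma gl_le {β ρ : ℝ} (hβ : 1 / 4 ≤ β) (hβ' : β ≤ 9 / 8) (hρ : 0 < ρ) :
    gl S.φ β ρ ≤ S.m * S.a * S.p * ρ + S.ε * S.a * S.p ^ 2 := by
  have := ((tendsto_N hρ.le).const_mul (S.m * S.a * S.p)).add
    ((tendsto_add_cube (2 * S.l0)).const_mul (S.ε * S.a * S.p ^ 2))
  rw [mul_one] at this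
  refine le_of_tendsto_of_tendsto (S.pot.thermo (by linarith) hρ).1 this
    ((eventually_gt_atTop 0).mono fun L hL => ?_)
  refine (div_le_div_of_nonneg_right (S.lz_le_of (c := S.m * S.a * S.p * ⌊ρ * L ^ 3⌋₊) hβ hL
    fun σ h1 h2 => ?_) (by positivity)).trans (le_of_eq (by ring))
  have h3 := S.le_Ct' S.l0_pos fun x hx => blk_mem_Qn S.l0_pos le_rfl S.l0_pos x (h2 x hx)
  have h4 : β * (1 + S.ε) * (S.a * S.S0 σ) ≤ 2 * (S.a * S.S0 σ) :=
    mul_le_mul_of_nonneg_right (by nlinarith [S.ε_le, S.hε]) (mul_nonneg S.a0 (S.S0_nonneg σ))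
  rw [← h1]
  unfold S0 at *
  linarith

lemma lz_le {β L : ℝ} (hβ : 1 / 4 ≤ β) (hβ' : β ≤ 7 / 8) (hL : 0 < L) (N : ℕ) :
    lz S.φ β L N ≤ S.a * S.p / 2 * N - S.a * (1 - β * (1 + S.ε)) * (N ^ 2 / (2 * (L + 2 * S.l0) ^ 3))
      + S.ε * S.a * S.p ^ 2 * (L + 2 * S.l0) ^ 3 := by
  refine S.lz_le_of hβ hL fun σ h1 h2 => ?_
  have h3 := S.le_Ct S.l0_pos fun x hx => blk_mem_Qn S.l0_pos le_rfl S.l0_pos x (h2 x hx)
  have h4 := sq_card_le S.l0_pos hL.le (fun _ => 0) fun x hx a => by simpa using h2 x hx a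
  have := S.l0_pos
  rw [← div_le_iff₀' (by positivity)] at h4
  have h5 := mul_le_mul_of_nonneg_left h4 (mul_nonneg S.a0
    (show 0 ≤ 1 - β * (1 + S.ε) by nlinarith [S.ε_le, S.hε]))
  rw [← h1]
  unfold S0 at *
  linarith

variable {β L γ : ℝ} {N : ℕ} {P : Measure (Multiset Pt)}

lemma integrable_Ct (h : St S.φ β L N γ P) (l s : ℝ) (T : Finset Z3) :
    Integrable (S.Ct l s T) P :=
  integrable_finsetSum _ fun b _ => h.integrable_cnt (Cf S.a S.p S.m (l ^ 3)) l s b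

lemma integrable_S0 (h : St S.φ β L N γ P) : Integrable S.S0 P := h.integrable_Sq S.l0_pos 0

lemma mean_Ct_le (h : St S.φ β L N γ P) (hβ : 1 / 4 ≤ β) (hL : 0 ≤ L) {l s : ℝ} (hl : S.l0 ≤ l)
    (hs0 : 0 ≤ s) (hs : s < l) : ∫ σ, S.Ct l s (bx (Qn l L)) σ ∂P ≤
      β * S.a * (1 + S.ε) * ∫ σ, S.S0 σ ∂P + S.ε * S.a * S.p ^ 2 * (L + 2 * l) ^ 3 - γ := by
  have hl0 := S.l0_pos.trans_le hl
  have hi := (S.integrable_S0 h).const_mul (β * S.a * (1 + S.ε))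
  have h1 := h.vi (fun σ => S.Ct l s (bx (Qn l L)) σ - β * S.a * (1 + S.ε) * S.S0 σ)
    ((Finset.measurable_fun_sum _ fun b _ => (measurable_of_card (Cf S.a S.p S.m (l ^ 3))).comp
      (measurable_part l s b)).sub ((measurable_Sq _ _).const_mul _))
    ((S.integrable_Ct h l s _).sub hi) _
    (S.core (c := 0) hβ hl (blk_mem_Qn hl0 hs0 hs) fun σ _ _ => le_of_eq (by ring))
  rw [integral_sub (S.integrable_Ct h l s _) hi, integral_const_mul] at h1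
  have h2 := mul_le_mul_of_nonneg_left (card_Qn_le hl0 hL)
    (show 0 ≤ S.ε * S.a * S.p ^ 2 by have := S.hε; have := S.a0; positivity)
  linarith

lemma mean_S0_le (h : St S.φ β L N γ P) (hβ : 1 / 4 ≤ β) (hL : 0 ≤ L) :
    S.a * (1 - β * (1 + S.ε)) * ∫ σ, S.S0 σ ∂P ≤
      S.a * S.p / 2 * N + S.ε * S.a * S.p ^ 2 * (L + 2 * S.l0) ^ 3 - γ := by
  have h1 := S.mean_Ct_le h hβ hL le_rfl le_rfl S.l0_pos
  have hi := (S.integrable_S0 h).const_mul S.a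
  have h2 := h.integral_mono (hi.sub (h.integrable_const (S.a * S.p / 2 * N)))
    (S.integrable_Ct h S.l0 0 (bx (Qn S.l0 L))) fun σ h1 h2 => by
      rw [← h1]
      exact S.le_Ct S.l0_pos fun x hx => blk_mem_Qn S.l0_pos le_rfl S.l0_pos x (h2 x hx)
  simp only [Pi.sub_apply] at h2
  rw [integral_sub hi (h.integrable_const _), integral_const_mul, h.integral_const] at h2
  linarith

end Sys

end Crest.Agent.H5.Gas
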