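import Mathlib
import Crest.Agent.H5.Gas.Sys

/-! The recursion over scales. -/

set_option autoImplicit false

namespace Crest.Agent.H5.Gas

open MeasureTheory Set Function Filter
open Crest.ProbabilityR.Continuum
open scoped ENNReal Topology

lemma tendsto_Qn {l : ℝ} (hl : 0 < l) :
    Tendsto (fun L : ℝ => (Qn l L : ℝ) / L) atTop (𝓝 (1 / l)) := by
  have := (tendsto_nat_ceil_mul_div_atTop (a := 1 / l) (by positivity)).add
    ((tendsto_const_nhds (x := (1 : ℝ))).div_atTop tendsto_id)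
  rw [add_zero] at this
  refine this.congr fun L => ?_
  rw [one_div_mul_eq_div, Qn]; push_cast; rw [add_div]; rfl

namespace Sys

variable (S : Sys)

lemma vv_ge (k : ℕ) : (10 : ℝ) ^ 6 ≤ vv S.v k := S.v_ge.trans (le_vv S.v2 k)

lemma l0_le (k : ℕ) : S.l0 ≤ (vv S.v k : ℝ) ^ 12 :=
  pow_le_pow_left₀ (by positivity) (le_vv S.v2 k) _

lemma dense_block {β s l s0 t : ℝ} (hβ : 7 / 8 ≤ β) (hs : -(30 * S.m * S.a * S.p) ≤ s)
    (hl : S.l0 ≤ l) (ht : t ≤ 2 * S.a) (k : ℕ) (b : Z3) (σ : Multiset Pt)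
    (h : S.ρm * l ^ 3 ≤ (part (blk l s0) b σ).card) :
    l ^ 3 - s * (part (blk l s0) b σ).card ≤
      β * (en (fun r => S.φ0 r - psiL S.a S.v k r) (part (blk l s0) b σ) -
        t * (((part (blk l s0) b σ).card : ℝ) ^ 2 / (2 * l ^ 3))) := by
  have hl0 := S.l0_pos.trans_le hl
  have h0 := S.l0_pos
  have h1 := S.dense l hl _ _ (fun x hx => cell_subset_box hl0 s0 b (mem_part.1 hx).2) h
  have h2 := sq_card_part_le S.l0_pos hl0 s0 b σ
  set τ := part (blk l s0) b σ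
  have h3 := (en_mono (fun r _ => psiL_le S.a0 S.v2 k r) τ).trans (S.en_psi_le' τ)
  have h4 := S.S0_nonneg τ
  have h5 : (τ.card : ℝ) ^ 2 / (2 * l ^ 3) ≤ 27 * S.S0 τ := by
    rw [div_le_iff₀ (by positivity)]
    have : (l + 2 * S.l0) ^ 3 ≤ (3 * l) ^ 3 := pow_le_pow_left₀ (by positivity) (by linarith) 3
    have := mul_le_mul_of_nonneg_right this h4
    unfold S0 at *
    linarith
  have h6 : t * ((τ.card : ℝ) ^ 2 / (2 * l ^ 3)) ≤ 2 * S.a * (27 * S.S0 τ) :=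
    mul_le_mul ht h5 (by positivity) (by linarith [S.ha])
  have h7 : 1 * 1 * 1 ≤ S.m * S.a * S.p := by
    have := S.hm
    have := S.a0
    gcongr
    exacts [by linarith, S.ha, S.hp]
  have h8 : 1 * l ^ 3 ≤ S.ρm * l ^ 3 := mul_le_mul_of_nonneg_right S.hρ1 (by positivity)
  have hn : (0 : ℝ) ≤ τ.card := by positivity
  have h9 := mul_le_mul_of_nonneg_right h7 hn
  have h10 := mul_le_mul_of_nonneg_right hs hn
  rw [en_sub]
  change 56 * S.a * S.S0 τ + _ ≤ _ at h1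
  calc _ ≤ 7 / 8 * (64 * S.m * S.a * S.p * τ.card) := by linarith
    _ ≤ _ := mul_le_mul hβ (by linarith) (by linarith) (by linarith)

lemma en_φ_split (k : ℕ) (σ : Multiset Pt) : en S.φ σ =
    en (fun r => S.φ0 r - psiL S.a S.v k r) σ - tk S.a S.v k * en (JR ((vv S.v k : ℝ) ^ 16)) σ -
      1 / (vv S.v k : ℝ) ^ 2 * en (JR ((vv S.v k : ℝ) ^ 32)) σ - en (psi S.a S.v (k + 2)) σ := by
  rw [← en_mul, ← en_mul, ← en_sub, ← en_sub, ← en_sub]
  congr 1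
  ext r
  rw [φ, ← psiL_add S.a0 S.v2 k, psi_succ S.a0 S.v2 k, psi_succ S.a0 S.v2 (k + 1), tm, tm, tk_succ,
    vv_succ, ← pow_mul]
  ring

lemma crs_ge (g : Pt → Z3) {f : ℝ → ℝ} (σ : Multiset Pt) :
    -crs g f σ ≤ crs g (fun r => S.φ0 r - f r) σ := by
  have h1 := crs_add g (fun r => S.φ0 r - f r) f σ
  simp only [sub_add_cancel] at h1
  linarith [crs_nonneg g (fun r _ => S.nonneg r) σ]

lemma stepB_pt {β s v l s0 s1 : ℝ} {k K Q : ℕ} (hv : v = vv S.v k) (hl : l = v ^ 12)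
    (hβ : 7 / 8 ≤ β) (hs : -(30 * S.m * S.a * S.p) ≤ s) (hK : S.ρm * l ^ 3 ≤ K)
    {σ : Multiset Pt} (hσ : ∀ x ∈ σ, blk l s0 x ∈ bx Q) {π : Equiv.Perm Z3} {T : Finset Z3}
    (hπ : ∀ b, π b ∈ bx Q ↔ b ∈ bx Q) (hT : T ⊆ bx Q)
    (hT' : ∀ b ∈ bx Q, b ∈ T ↔ (part (blk l s0) b σ).card ≤ K)
    (hmono : ∀ b ∈ bx Q, ∀ b' ∈ bx Q, π b ≤ π b' →
      (if b ∈ T then (part (blk l s0) b σ).card else 0) ≤
        if b' ∈ T then (part (blk l s0) b' σ).card else 0) :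
    β * (1 / v ^ 2 * (Sq l s0 σ - Sq (v ^ 24) s1 σ) - crs (blk l s0) (psiL S.a S.v k) σ -
      220000 * S.a / v ^ 4 * S.S0 σ - 2 * S.a * (6 * v ^ 32 * Q ^ 2 * K ^ 2 + 2 * σ.card / v ^ 4)) -
      β * en S.φ σ ≤ -β * en S.φ (rr l s0 π T σ) +
        ∑ b ∈ bx Q \ T, (s * (part (blk l s0) b σ).card - l ^ 3) := by
  have hv6 : 10 ^ 6 ≤ v := hv ▸ S.vv_ge k
  have hv1 : 1 ≤ v := by linarith
  have hv0 : 0 < v := by linarith
  have hp : ∀ {i j : ℕ}, i ≤ j → v ^ i ≤ v ^ j := fun h => pow_le_pow_right₀ hv1 h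
  have hl0 : S.l0 ≤ l := by rw [hl, hv]; exact S.l0_le k
  have hl1 : 1 ≤ l := S.one_le_l0.trans hl0
  have ha := S.ha
  have e1 := S.en_φ_split k σ
  have e2 := S.en_φ_split k (rr l s0 π T σ)
  rw [← hv] at e1 e2
  have a1 := S.crs_ge (blk l s0) (f := psiL S.a S.v k) σ
  set t := tk S.a S.v k
  set t' := 1 / v ^ 2 with ht'
  set w := 1 / v ^ 4 with hw
  have hw0 : 0 ≤ w := by positivity
  have ht0 : 0 ≤ t := tk_nonneg S.a0 _ _
  have hta : t ≤ S.a := tk_le S.ha S.v2 k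
  have ht'0 : 0 ≤ t' := by positivity
  have ht'a : t' ≤ S.a := ((div_le_one (by positivity)).2 (one_le_pow₀ hv1)).trans ha
  set f1 := fun r => S.φ0 r - psiL S.a S.v k r with hf1
  rw [en_eq_sum_part _ hσ f1, ← Finset.sum_sdiff hT] at e1
  have a2 := en_rr_le (s0 := s0) (σ := σ) (by linarith : 0 < l) hπ hT (f := f1) fun r hr => by
    simp only [hf1, S.far r hr, zero_sub, neg_nonpos]; exact psiL_nonneg S.a0 S.v2 k r
  have a3 := en_nonneg (f := psi S.a S.v (k + 2)) (fun r _ => psi_nonneg S.a0 S.v2 (k + 2) r) (rr l s0 π T σ)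
  have a4 := en_psi_succ_le S.a0 S.v10 (k + 1) σ
  rw [vv_succ, vv_succ, ← hv, ← pow_mul] at a4
  change en (psi S.a S.v (k + 2)) σ ≤ 4 / v ^ 4 * S.S0 σ at a4
  have a5 := Finset.sum_le_sum fun b (hb : b ∈ bx Q \ T) => S.dense_block hβ hs hl0
    (show t + t' ≤ 2 * S.a by linarith) k b σ (hK.trans (by
      rw [Finset.mem_sdiff] at hb
      exact_mod_cast (not_le.1 (mt (hT' b hb.1).2 hb.2)).le))
  rw [← Finset.mul_sum, Finset.sum_sub_distrib (f := fun b => en _ _), ← Finset.mul_sum] at a5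
  have a6 := Sq_eq hσ
  rw [← Finset.sum_sdiff hT] at a6
  set SD := ∑ b ∈ bx Q \ T, ((part (blk l s0) b σ).card : ℝ) ^ 2 / (2 * l ^ 3)
  set ST := ∑ b ∈ T, ((part (blk l s0) b σ).card : ℝ) ^ 2 / (2 * l ^ 3) with hST
  have hSD : 0 ≤ SD := Finset.sum_nonneg fun _ _ => by positivity
  have hST0 : 0 ≤ ST := Finset.sum_nonneg fun _ _ => by positivity
  have b1 := Sq_le_27 S.l0_pos hl0 s0 σ
  have b2 := Sq_le_27 S.l0_pos (hl0.trans (hl ▸ hp (by norm_num : 12 ≤ 24))) s1 σ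
  change _ ≤ 27 * S.S0 σ at b1 b2
  set E := 6 * v ^ 32 * Q ^ 2 * K ^ 2 + 2 * σ.card / v ^ 4 with hE
  have J2 : ∀ R, v ^ 16 ≤ R → R ≤ v ^ 32 →
      ST - 3006 * w * (27 * S.S0 σ) - E ≤ en (JR R) (rr l s0 π T σ) := fun R h1 h2 => by
    have hR : 0 < R := lt_of_lt_of_le (by positivity) h1
    have h3 : l / R ≤ w := by
      rw [hl, hw]
      calc _ ≤ v ^ 12 / v ^ 16 := by gcongr
        _ = _ := by field_simp
    have h4 : 1 / l ≤ w := hl ▸ one_div_le_one_div_of_le (by positivity) (hp (by norm_num))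
    have h5 : w ≤ 1 / v := one_div_le_one_div_of_le hv0 (by simpa using hp (by norm_num : 1 ≤ 4))
    have h6 : 1 / v ≤ 1 / 10 ^ 6 := one_div_le_one_div_of_le (by norm_num) hv6
    refine le_trans ?_ (le_en_rr hl1 hπ hT (fun b hb => (hT' b (hT hb)).1 hb) hmono (R := R) (by
      rw [div_le_iff₀ hR] at h3
      linarith [mul_le_mul_of_nonneg_right (h5.trans h6) hR.le]))
    have h7 : (3000 * l / R + 6 / l) * ST ≤ 3006 * w * (27 * S.S0 σ) :=
      mul_le_mul (by rw [mul_div_assoc, div_eq_mul_one_div 6]; linarith) (by linarith) hST0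
        (by positivity)
    have h8 : 6 * R * Q ^ 2 * K ^ 2 ≤ 6 * v ^ 32 * Q ^ 2 * K ^ 2 := by gcongr
    have h9 : 2 * (σ.card : ℝ) / R ^ 3 ≤ 2 * σ.card / v ^ 4 := by
      gcongr
      exact ((hp (by norm_num)).trans h1).trans (le_self_pow₀ ((one_le_pow₀ hv1).trans h1)
        (by norm_num))
    rw [← hST]; linarith
  have J1 : ∀ l R s, 0 < l → v ^ 4 * l ≤ R → Sq l s σ ≤ 27 * S.S0 σ →
      en (JR R) σ ≤ Sq l s σ + 1000 * w * (27 * S.S0 σ) := fun l R s h1 h2 h3 => by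
    have h4 : l ≤ R := (le_mul_of_one_le_left h1.le (one_le_pow₀ hv1)).trans h2
    refine (en_JR_le h1 h4 s σ).trans ?_
    rw [add_mul, one_mul]
    refine add_le_add le_rfl (mul_le_mul ?_ h3 (Sq_nonneg h1 _ _) (by positivity))
    rw [mul_div_assoc, hw]
    refine mul_le_mul_of_nonneg_left ?_ (by norm_num)
    rw [div_le_div_iff₀ (by linarith) (by positivity)]; linarith
  have c1 := mul_le_mul_of_nonneg_left (J2 _ le_rfl (hp (by norm_num))) ht0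
  have c2 := mul_le_mul_of_nonneg_left (J2 _ (hp (by norm_num)) le_rfl) ht'0
  have c3 := mul_le_mul_of_nonneg_left (J1 l (v ^ 16) s0 (by linarith)
    (by rw [hl, ← pow_add]) b1) ht0
  have c4 := mul_le_mul_of_nonneg_left (J1 (v ^ 24) (v ^ 32) s1 (by positivity)
    (by rw [← pow_add]; exact hp (by norm_num)) b2) ht'0
  have hW : 0 ≤ w * S.S0 σ := mul_nonneg hw0 (S.S0_nonneg σ)
  have hE0 : 0 ≤ E := by positivity
  have d1 := mul_le_mul_of_nonneg_right hta hW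
  have d2 := mul_le_mul_of_nonneg_right ht'a hW
  have d3 := mul_le_mul_of_nonneg_right ha hW
  have d4 := mul_le_mul_of_nonneg_right hta hE0
  have d5 := mul_le_mul_of_nonneg_right ht'a hE0
  have key : ∑ b ∈ bx Q \ T, en f1 (part (blk l s0) b σ) - (t + t') * SD +
      (t' * (Sq l s0 σ - Sq (v ^ 24) s1 σ) - crs (blk l s0) (psiL S.a S.v k) σ -
      220000 * S.a / v ^ 4 * S.S0 σ - 2 * S.a * E) ≤ en S.φ σ - en S.φ (rr l s0 π T σ) := by
    rw [div_eq_mul_one_div (220000 * S.a), ← hw]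
    rw [div_eq_mul_one_div 4, ← hw] at a4
    rw [a6] at c3 ⊢
    linarith
  have := mul_le_mul_of_nonneg_left key (show 0 ≤ β by linarith)
  rw [Finset.sum_sub_distrib, ← hf1] at a5
  rw [Finset.sum_sub_distrib]
  linarith

lemma psiL_bdd (k : ℕ) : ∃ C, ∀ r, psiL S.a S.v k r ≤ C :=
  ⟨_, fun r => (psiL_le S.a0 S.v2 k r).trans (psi_le S.a0 S.v2 0 r)⟩

lemma integrable_crsL {β L γ : ℝ} {N : ℕ} {P : Measure (Multiset Pt)} (h : St S.φ β L N γ P)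
    (l s : ℝ) (k : ℕ) : Integrable (crs (blk l s) (psiL S.a S.v k)) P := by
  obtain ⟨C, hC⟩ := S.psiL_bdd k
  exact h.integrable_crs l s (continuous_psiL _ _ k).measurable (psiL_nonneg S.a0 S.v2 k) hC

lemma eventually_large (k : ℕ) {v l : ℝ} (hv : v = vv S.v k) (hl : l = v ^ 12) :
    ∀ᶠ L : ℝ in atTop, 0 < L ∧
      6 * v ^ 32 * Qn l L ^ 2 * ⌈S.ρm * l ^ 3⌉₊ ^ 2 ≤ 1 / v ^ 4 * L ^ 3 ∧
      (Qn l L * (l + 2) + 3) ^ 3 ≤ (1 + 1 / v ^ 4) * L ^ 3 ∧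
      Qn l L ^ 3 * Real.log (⌈S.ρm * l ^ 3⌉₊ + 2) ≤ 1 / v ^ 4 * L ^ 3 := by
  have hv6 : 10 ^ 6 ≤ v := hv ▸ S.vv_ge k
  have hv1 : 1 ≤ v := by linarith
  have hv0 : 0 < v := by linarith
  have h4 : v ≤ v ^ 4 := le_self_pow₀ hv1 (by norm_num)
  have hl1 : v ^ 4 * (v ^ 4 * v ^ 4) = l := by rw [hl]; ring
  have hl2 : 10 ^ 6 * v ^ 4 ≤ l := by
    rw [← hl1, mul_comm]; gcongr; nlinarith
  have hl3 : 1 ≤ l := by linarith
  have hl0 : 0 < l := by linarith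
  set K := ⌈S.ρm * l ^ 3⌉₊
  have hq := tendsto_Qn hl0
  have h0 := (tendsto_const_nhds (x := (1 : ℝ))).div_atTop tendsto_id
  have t1 := ((hq.pow 2).mul h0).const_mul (6 * v ^ 32 * K ^ 2)
  have t2 := ((hq.mul_const (l + 2)).add (h0.const_mul 3)).pow 3
  have t3 := (hq.pow 3).mul_const (Real.log (K + 2))
  filter_upwards [eventually_gt_atTop 0, t1.eventually_lt_const (u := 1 / v ^ 4) (by
      simp only [mul_zero]; positivity), t2.eventually_lt_const (u := 1 + 1 / v ^ 4) (by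
      have h5 : 1 / l ≤ 1 := (div_le_one hl0).2 hl3
      have h6 : 0 < 1 / l := by positivity
      have h7 : 1 / l * 10 ^ 6 ≤ 1 / v ^ 4 := by
        rw [one_div_mul_eq_div, div_le_div_iff₀ hl0 (by positivity)]; linarith
      rw [show 1 / l * (l + 2) + 3 * 0 = 1 + 2 * (1 / l) by field_simp; ring]
      nlinarith [mul_le_mul_of_nonneg_left h5 (mul_pos h6 h6).le]),
    t3.eventually_lt_const (u := 1 / v ^ 4) (by
      have h5 : (K : ℝ) + 2 ≤ (2 * l) ^ 4 := by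
        have h6 := Nat.ceil_lt_add_one (show 0 ≤ S.ρm * l ^ 3 by have := S.hρ1; positivity)
        have h7 : S.ρm * l ^ 3 ≤ l * l ^ 3 := mul_le_mul_of_nonneg_right
          (by linarith [S.hρ, hv ▸ le_vv S.v2 k]) (by positivity)
        have h8 : 1 ≤ l ^ 4 := one_le_pow₀ hl3
        linarith
      have h6 := Real.log_le_log (by positivity) h5
      rw [Real.log_pow] at h6
      have h7 := Real.log_le_sub_one_of_pos (show 0 < 2 * l by positivity)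
      rw [one_div_pow, one_div_mul_eq_div, div_lt_div_iff₀ (by positivity) (by positivity)]
      push_cast at h6
      calc _ ≤ 8 * l * v ^ 4 := by gcongr; linarith
        _ < l * (10 ^ 6 * v ^ 4) * 1 := by nlinarith [mul_pos hl0 (pow_pos hv0 4)]
        _ ≤ l * l * l := by gcongr
        _ = _ := by ring)] with L hL a1 a2 a3
  have hV := pow_pos hL 3
  refine ⟨hL, ?_, ?_, ?_⟩ <;> rw [← div_le_iff₀ hV]
  · refine le_of_eq_of_le ?_ a1.le; simp only [id]; field_simp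
  · refine le_of_eq_of_le ?_ a2.le; simp only [id]; field_simp
  · refine le_of_eq_of_le ?_ a3.le; field_simp

variable {β Pi0 s : ℝ}

lemma stepB (hβ : 7 / 8 ≤ β) (ht : Tan S.φ β Pi0 s) (hs : -(30 * S.m * S.a * S.p) ≤ s)
    (hPi0 : Pi0 ≤ 54 * S.m * S.a * S.p ^ 2) (k : ℕ) {v : ℝ} (hv : v = vv S.v k) :
    ∀ᶠ L : ℝ in atTop, ∀ (N : ℕ) P (s0 s1 : ℝ), N ≤ 2 * S.p * L ^ 3 →
      St S.φ β L N (Pi0 * L ^ 3 + s * N - 1 / v ^ 4 * L ^ 3) P →
      ∫ σ, S.S0 σ ∂P ≤ S.m * S.p ^ 2 * L ^ 3 → 0 ≤ s0 → s0 < v ^ 12 →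
      ∫ σ, crs (blk (v ^ 12) s0) (psiL S.a S.v k) σ ∂P ≤ 6 * S.a / v ^ 4 * ∫ σ, S.S0 σ ∂P →
      ∫ σ, Sq (v ^ 12) s0 σ ∂P - 230000 * S.m * S.a * S.p ^ 2 / v ^ 2 * L ^ 3 ≤
        ∫ σ, Sq (v ^ 24) s1 σ ∂P := by
  have hv0 : 0 < v := by linarith [hv ▸ S.vv_ge k]
  filter_upwards [S.eventually_large k hv rfl] with L ⟨hL, c1, c2, c3⟩ N P s0 s1 hN hP hS0 h0 h1 hc
  set l := v ^ 12 with hl
  have hl0 : 0 < l := by positivity
  set Q := Qn l L
  set K := ⌈S.ρm * l ^ 3⌉₊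
  set C := 2 * S.a * (6 * v ^ 32 * Q ^ 2 * K ^ 2 + 2 * N / v ^ 4) with hC
  have i1 := hP.integrable_Sq hl0 s0
  have i2 := hP.integrable_Sq (l := v ^ 24) (by positivity) s1
  have i3 := S.integrable_crsL hP l s0 k
  have i4 := (S.integrable_S0 hP).const_mul (220000 * S.a / v ^ 4)
  have i5 : Integrable (fun σ => 1 / v ^ 2 * (Sq l s0 σ - Sq (v ^ 24) s1 σ)) P :=
    (i1.sub i2).const_mul _
  have i6 : Integrable (fun σ => 1 / v ^ 2 * (Sq l s0 σ - Sq (v ^ 24) s1 σ) -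
    crs (blk l s0) (psiL S.a S.v k) σ) P := i5.sub i3
  have i7 : Integrable (fun σ => 1 / v ^ 2 * (Sq l s0 σ - Sq (v ^ 24) s1 σ) -
    crs (blk l s0) (psiL S.a S.v k) σ - 220000 * S.a / v ^ 4 * S.S0 σ) P := i6.sub i4
  have h2 := hP.vi (fun σ => β * (1 / v ^ 2 * (Sq l s0 σ - Sq (v ^ 24) s1 σ) -
    crs (blk l s0) (psiL S.a S.v k) σ - 220000 * S.a / v ^ 4 * S.S0 σ - C))
    (((((((measurable_Sq _ _).sub (measurable_Sq _ _)).const_mul _).sub
      (measurable_crs _ _ (continuous_psiL _ _ k).measurable)).sub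
      ((measurable_Sq _ _).const_mul _)).sub_const _).const_mul _)
    ((i7.sub (hP.integrable_const _)).const_mul _) _
    (S.pot.Zf_le_rr ht hl0 s0 K (blk_mem_Qn hl0 h0 h1) fun σ e1 e2 π T a1 a2 a3 a4 => by
      rw [hC, ← e1]
      exact S.stepB_pt hv hl hβ hs (Nat.le_ceil _)
        (fun x hx => blk_mem_Qn hl0 h0 h1 x (e2 x hx)) a1 a2 a3 a4)
  rw [integral_const_mul, integral_sub i7 (hP.integrable_const _), integral_sub i6 i4,
    integral_sub i5 i3, integral_const_mul, integral_sub i1 i2, integral_const_mul,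
    hP.integral_const] at h2
  have hPi00 := S.pot.Tan_nonneg ht
  have ha := S.ha
  have hp := S.hp
  have hm := S.hm
  set W := 1 / v ^ 4 * L ^ 3 with hW
  have hW0 : 0 ≤ W := by positivity
  set A := S.m * S.a * S.p ^ 2 with hA
  have hA1 : S.a * S.p ≤ A := by
    have := mul_le_mul_of_nonneg_left (mul_le_mul hm hp zero_le_one (by linarith))
      (show 0 ≤ S.a * S.p by positivity)
    have : 0 ≤ S.a * S.p := by positivity
    rw [hA]; linarith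
  have hA2 : S.a ≤ S.a * S.p := le_mul_of_one_le_right S.a0 hp
  have d1 := mul_le_mul_of_nonneg_right c2 hPi00
  have d2 := mul_le_mul_of_nonneg_right hPi0 hW0
  have d3 := mul_le_mul_of_nonneg_left hS0 (show 0 ≤ S.a / v ^ 4 by positivity)
  have d4 := mul_le_mul_of_nonneg_left c1 S.a0
  have d5 := mul_le_mul_of_nonneg_left hN (show 0 ≤ S.a / v ^ 4 by positivity)
  have d6 := mul_le_mul_of_nonneg_right hA1 hW0
  have d7 := mul_le_mul_of_nonneg_right hA2 hW0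
  have d8 := mul_le_mul_of_nonneg_right ha hW0
  have e1 : S.a / v ^ 4 * (S.m * S.p ^ 2 * L ^ 3) = A * W := by rw [hA, hW]; ring
  have e2 : S.a / v ^ 4 * (2 * S.p * L ^ 3) = 2 * (S.a * S.p * W) := by rw [hW]; ring
  have e3 : C = 2 * (S.a * (6 * v ^ 32 * Q ^ 2 * K ^ 2)) + 4 * (S.a / v ^ 4 * N) := by rw [hC]; ring
  have e4 : (1 + 1 / v ^ 4) * L ^ 3 * Pi0 = Pi0 * L ^ 3 + Pi0 * W := by rw [hW]; ring
  have hAW : 0 ≤ A * W := mul_nonneg (S.a0.trans (hA2.trans hA1)) hW0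
  have e5 : 54 * S.m * S.a * S.p ^ 2 * W = 54 * (A * W) := by rw [hA]; ring
  have h3 := h2.trans (show _ ≤ β * (64 * (A * W)) by
    linarith [mul_le_mul_of_nonneg_right hβ hAW])
  have h4 := le_of_mul_le_mul_left h3 (by linarith)
  have h5 : 1 / v ^ 2 * (∫ σ, Sq l s0 σ ∂P - ∫ σ, Sq (v ^ 24) s1 σ ∂P) ≤
      1 / v ^ 2 * (230000 * S.m * S.a * S.p ^ 2 / v ^ 2 * L ^ 3) := by
    rw [show 1 / v ^ 2 * (230000 * S.m * S.a * S.p ^ 2 / v ^ 2 * L ^ 3) = 230000 * (A * W) by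
      rw [hA, hW]; ring]
    rw [mul_div_assoc 6] at hc
    rw [mul_div_assoc 220000] at h4
    linarith
  linarith [le_of_mul_le_mul_left h5 (by positivity)]

lemma exists_shift {L γ : ℝ} {N : ℕ} {P : Measure (Multiset Pt)} (h : St S.φ β L N γ P) (k : ℕ)
    {v : ℝ} (hv : v = vv S.v (k + 1)) : ∃ s0, 0 ≤ s0 ∧ s0 < v ^ 12 ∧
      ∫ σ, crs (blk (v ^ 12) s0) (psiL S.a S.v (k + 1)) σ ∂P ≤ 6 * S.a / v ^ 4 * ∫ σ, S.S0 σ ∂P := by
  have hv0 : 0 < v := by linarith [hv ▸ S.vv_ge (k + 1)]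
  have hq : ((vv S.v (k + 1) ^ 4 : ℕ) : ℝ) = v ^ 4 := by rw [hv]; push_cast; rfl
  obtain ⟨u, hu, h1⟩ := Finset.exists_le_of_sum_le (s := Finset.range (vv S.v (k + 1) ^ 4))
    (f := fun u : ℕ => ∫ σ, crs (blk (v ^ 12) (u * v ^ 8)) (psiL S.a S.v (k + 1)) σ ∂P)
    (g := fun _ => 6 * S.a / v ^ 4 * ∫ σ, S.S0 σ ∂P)
    (Finset.nonempty_range_iff.2 (by rw [← Nat.cast_ne_zero (R := ℝ), hq]; positivity)) (by
      rw [← integral_finsetSum _ fun u _ => S.integrable_crsL h _ _ _, Finset.sum_const,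
        Finset.card_range, nsmul_eq_mul, hq, ← mul_assoc, mul_div_cancel₀ _ (by positivity),
        ← integral_const_mul]
      refine integral_mono (integrable_finsetSum _ fun u _ => S.integrable_crsL h _ _ _)
        ((S.integrable_S0 h).const_mul _) fun σ => ?_
      have h2 := sum_crs_shift_le (R := v ^ 8) (by positivity) (vv S.v (k + 1) ^ 4)
        (fun r _ => psiL_nonneg S.a0 S.v2 (k + 1) r)
        (fun r hr => psiL_eq_zero S.v2 k (hv ▸ hr)) σ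
      rw [hq, ← pow_add] at h2
      have h3 := (en_mono (fun r _ => psiL_le S.a0 S.v2 (k + 1) r) σ).trans (S.en_psi_le' σ)
      change en (psiL S.a S.v (k + 1)) σ ≤ _ at h3
      change _ ≤ 3 * en (psiL S.a S.v (k + 1)) σ at h2
      simp only
      linarith)
  refine ⟨_, by positivity, ?_, h1⟩
  have : (u : ℝ) < v ^ 4 := by rw [← hq]; exact_mod_cast Finset.mem_range.1 hu
  calc _ < v ^ 4 * v ^ 8 := by gcongr
    _ = _ := by ring

theorem recursion (hβ : 7 / 8 ≤ β) (ht : Tan S.φ β Pi0 s) (hs : -(30 * S.m * S.a * S.p) ≤ s)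
    (hPi0 : Pi0 ≤ 54 * S.m * S.a * S.p ^ 2) (k : ℕ) :
    ∀ᶠ L : ℝ in atTop, ∀ (N : ℕ) P, N ≤ 2 * S.p * L ^ 3 →
      St S.φ β L N (Pi0 * L ^ 3 + s * N - 1 / (vv S.v k : ℝ) ^ 4 * L ^ 3) P →
      ∫ σ, S.S0 σ ∂P ≤ S.m * S.p ^ 2 * L ^ 3 → ∃ s0, 0 ≤ s0 ∧ s0 < (vv S.v k : ℝ) ^ 12 ∧
      ∫ σ, crs (blk ((vv S.v k : ℝ) ^ 12) s0) (psiL S.a S.v k) σ ∂P ≤
        6 * S.a / (vv S.v k : ℝ) ^ 4 * ∫ σ, S.S0 σ ∂P ∧
      ∫ σ, S.S0 σ ∂P - 230000 * S.m * S.a * S.p ^ 2 * (2 / S.v ^ 2 - 2 / (vv S.v k : ℝ) ^ 2) * L ^ 3 ≤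
        ∫ σ, Sq ((vv S.v k : ℝ) ^ 12) s0 σ ∂P := by
  induction k with
  | zero =>
    refine Eventually.of_forall fun L N P _ _ _ => ⟨0, le_rfl, by simpa [l0] using S.l0_pos, ?_, ?_⟩
    · have : ∀ σ, crs (blk ((vv S.v 0 : ℝ) ^ 12) 0) (psiL S.a S.v 0) σ = 0 := fun σ => by
        simp [crs, psiL, dbl]
      simp only [this, integral_zero]
      have := S.a0
      exact mul_nonneg (by positivity) (integral_nonneg S.S0_nonneg)
    · simp [S0, l0]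
  | succ k ih =>
    filter_upwards [ih, S.stepB hβ ht hs hPi0 k rfl, eventually_gt_atTop 0]
      with L h1 h2 hL N P hN hP hS0
    have hv := S.vv_ge k
    have hP' := hP.mono (γ' := Pi0 * L ^ 3 + s * N - 1 / (vv S.v k : ℝ) ^ 4 * L ^ 3) (by
      gcongr; exact_mod_cast vv_mono S.v2 (Nat.le_succ k))
    obtain ⟨s0, a1, a2, a3, a4⟩ := h1 N P hN hP' hS0
    obtain ⟨s1, b1, b2, b3⟩ := S.exists_shift hP k rfl
    refine ⟨s1, b1, b2, b3, ?_⟩
    have h3 := h2 N P s0 s1 hN hP' hS0 a1 a2 a3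
    rw [vv_succ, ← pow_mul, ← pow_mul]
    refine le_trans ?_ h3
    have h4 : 2 / (vv S.v k : ℝ) ^ (2 * 2) ≤ 1 / (vv S.v k : ℝ) ^ 2 := by
      rw [div_le_div_iff₀ (by positivity) (by positivity), pow_mul]
      have : (2 : ℝ) ≤ (vv S.v k : ℝ) ^ 2 := by nlinarith
      nlinarith
    have h5 := mul_le_mul_of_nonneg_left h4 (show 0 ≤ 230000 * S.m * S.a * S.p ^ 2 * L ^ 3 by
      have := S.hm; have := S.ha; positivity)
    have e : (2 : ℝ) / (vv S.v k : ℝ) ^ 2 = 2 * (1 / (vv S.v k : ℝ) ^ 2) := by ring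
    rw [div_eq_mul_one_div _ ((vv S.v k : ℝ) ^ 2)]
    rw [e] at a4
    linarith

end Sys

end Crest.Agent.H5.Gas
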