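import Mathlib
import Crest.Agent.H5.Gas.StepB

/-! Selection of pure blocks. -/

set_option autoImplicit false

namespace Crest.Agent.H5.Gas

open MeasureTheory Set Function Filter
open Crest.ProbabilityR.Continuum
open scoped ENNReal Topology

/-- the quadratic `α x² + b x y + c y²` detects the phase of density `u` -/
structure Typ (m ζ u α b c : ℝ) : Prop where
  far : ∀ x y, 0 ≤ x → 0 ≤ y → ζ * y < |x - u * y| →
    ζ * (α * x ^ 2 + b * x * y + c * y ^ 2) ≤ 4 * m * Hh m x y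
  near : ∀ x y, 0 ≤ x → 0 ≤ y → |x - u * y| ≤ ζ * y →
    α * x ^ 2 + b * x * y + c * y ^ 2 ≤ 3 * m ^ 2 * y ^ 2
  hu : 0 ≤ u
  hα : |α| ≤ 1
  hb : |b| ≤ 2 * m
  hc : 0 ≤ c
  mean : 1 / 6 ≤ α * ((9 * m + 1) / 6) + b * (5 / 3) + c

lemma typ0 {m ζ : ℝ} (hm : 2 ≤ m) (hζ : 0 < ζ) (hζ1 : ζ ≤ 1) : Typ m ζ 0 1 (-(m + 1)) m := by
  refine ⟨fun x y hx hy h => ?_, fun x y hx hy h => ?_, le_rfl, by simp, ?_, by linarith, by linarith⟩
  · rw [zero_mul, sub_zero, abs_of_nonneg hx] at h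
    have e : 1 * x ^ 2 + -(m + 1) * x * y + m * y ^ 2 = (x - y) * (x - m * y) := by ring
    have h0 := Hh_nonneg hm hx hy
    rw [e]
    rcases Hh_cases hm hx hy with ⟨h1, e⟩ | ⟨h1, h2, e⟩ | ⟨h1, e⟩
    · rw [e]
      have h2 : ζ * (m * y - x) ≤ 2 * m * x := by nlinarith
      nlinarith [mul_le_mul_of_nonneg_right h2 (sub_nonneg.2 h1)]
    · have := mul_nonneg hζ.le (mul_nonneg (sub_nonneg.2 h1) (sub_nonneg.2 h2))
      nlinarith
    · rw [e]
      have h3 : 0 ≤ m * y := by positivity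
      have h2 : ζ * (x - y) ≤ 2 * m * (x + y + 2 * m * y) := by nlinarith
      nlinarith [mul_le_mul_of_nonneg_right h2 (sub_nonneg.2 h1)]
  · rw [zero_mul, sub_zero, abs_of_nonneg hx] at h
    have h1 : x ≤ y := by nlinarith
    nlinarith [mul_nonneg hx hy, mul_le_mul h1 h1 hx hy, sq_nonneg y, mul_nonneg (mul_nonneg hx hy)
      (show 0 ≤ m by linarith), mul_nonneg (sq_nonneg y) (show 0 ≤ 3 * m ^ 2 - m - 1 by nlinarith)]
  · rw [abs_neg, abs_of_nonneg (by linarith)]; linarith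

lemma typ1 {m ζ : ℝ} (hm : 2 ≤ m) (hζ : 0 < ζ) (hζ1 : ζ ≤ 1) : Typ m ζ 1 (-1) m 0 := by
  refine ⟨fun x y hx hy h => ?_, fun x y hx hy h => ?_, zero_le_one, by simp, ?_, le_rfl,
    by linarith⟩
  · have e : -1 * x ^ 2 + m * x * y + 0 * y ^ 2 = x * (m * y - x) := by ring
    have h0 := Hh_nonneg hm hx hy
    rw [e]
    rw [one_mul] at h
    rcases Hh_cases hm hx hy with ⟨h1, e⟩ | ⟨h1, h2, e⟩ | ⟨h1, e⟩
    · rw [e]
      rw [abs_of_nonpos (by linarith)] at h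
      have h2 : ζ * (m * y - x) ≤ 2 * m * (y - x) := by nlinarith [mul_nonneg hζ.le hx]
      nlinarith [mul_le_mul_of_nonneg_right h2 hx]
    · rw [e]
      rw [abs_of_nonneg (by linarith)] at h
      have h3 : ζ * x ≤ 2 * m * (x - y) := by nlinarith [mul_le_mul_of_nonneg_left h2 hζ.le]
      nlinarith [mul_le_mul_of_nonneg_right h3 (sub_nonneg.2 h2)]
    · have := mul_nonneg hζ.le (mul_nonneg hx (sub_nonneg.2 h1))
      nlinarith
  · nlinarith [sq_nonneg (x - m * y), sq_nonneg (m * y), sq_nonneg x]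
  · rw [abs_of_nonneg (by linarith)]; linarith

lemma typ2 {m ζ : ℝ} (hm : 2 ≤ m) (hζ : 0 < ζ) (hζ1 : ζ ≤ 1) : Typ m ζ m 1 (-1) 0 := by
  refine ⟨fun x y hx hy h => ?_, fun x y hx hy h => ?_, by linarith, by simp, ?_, le_rfl,
    by linarith⟩
  · have e : 1 * x ^ 2 + -1 * x * y + 0 * y ^ 2 = x * (x - y) := by ring
    have h0 := Hh_nonneg hm hx hy
    have h4 : 0 ≤ m * y := by positivity
    rw [e]
    rcases Hh_cases hm hx hy with ⟨h1, e⟩ | ⟨h1, h2, e⟩ | ⟨h1, e⟩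
    · have := mul_nonneg hζ.le (mul_nonneg hx (sub_nonneg.2 h1))
      nlinarith
    · rw [e]
      rw [abs_of_nonpos (by linarith)] at h
      have h3 : ζ * x ≤ 2 * m * (m * y - x) := by nlinarith [mul_le_mul_of_nonneg_left h2 hζ.le]
      nlinarith [mul_le_mul_of_nonneg_right h3 (sub_nonneg.2 h1)]
    · rw [e]
      rw [abs_of_nonneg (by linarith)] at h
      have h3 : ζ * x ≤ 2 * m * (x - m * y) := by nlinarith
      have h5 : x - y ≤ x + y + 2 * m * y := by linarith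
      have h6 : y ≤ x := by nlinarith
      nlinarith [mul_le_mul h3 h5 (sub_nonneg.2 h6) (by nlinarith)]
  · have h1 : x ≤ 3 / 2 * m * y := by nlinarith [(abs_le.1 h).2]
    nlinarith [mul_le_mul h1 h1 hx (by positivity), mul_nonneg hx hy, sq_nonneg (m * y)]
  · simp; linarith

lemma LP_block_le {φ : ℝ → ℝ} {B β P s δ l : ℝ} (h : Pot φ B) (ht : Tan φ β P s) (hl : 0 < l)
    {G : Set (Multiset Pt)} (hG : MeasurableSet G)
    (hG' : ∀ σ (v : Pt), σ.map (fun x => x + v) ∈ G ↔ σ ∈ G)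
    (hδ : ∀ n, Zf (cube l) n (G.indicator fun σ => ex (-β * en φ σ)) ≤
      ex ((l + 3) ^ 3 * P + s * n - δ)) (s0 : ℝ) (b : Z3) :
    ∫⁻ σ, ex (δ * G.indicator 1 σ - β * en φ σ - (s + 1 / l) * σ.card)
      ∂LP (volume.restrict (cell l s0 b)) ≤ ex ((l + 3) ^ 3 * P + (l + 1)) := by
  have m1 := (h.measurable_ex β).indicator hG
  have m2 : Measurable fun σ => ex δ * G.indicator (fun σ => ex (-β * en φ σ)) σ +
    ex (-β * en φ σ) := (m1.const_mul _).add (h.measurable_ex β)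
  have key : ∀ n : ℕ, Zf (cell l s0 b) n (fun σ => ex (δ * G.indicator 1 σ - β * en φ σ -
      (s + 1 / l) * σ.card)) ≤ 2 * ex ((l + 3) ^ 3 * P) * ex (-(1 / l)) ^ n := fun n => by
    refine (Zf_mono (measurableSet_cell _ _ _) (G := fun σ => ex (-(s + 1 / l) * n) *
      (ex δ * G.indicator (fun σ => ex (-β * en φ σ)) σ + ex (-β * en φ σ)))
      fun σ h1 _ => ?_).trans ?_
    · by_cases hσ : σ ∈ G
      · rw [indicator_of_mem hσ, indicator_of_mem hσ, mul_add, ← ex_add, ← ex_add, h1]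
        exact le_add_right (ex_mono (le_of_eq (by simp; ring)))
      · rw [indicator_of_notMem hσ, indicator_of_notMem hσ, mul_zero, mul_zero, zero_add, ← ex_add,
          h1]
        exact ex_mono (le_of_eq (by ring))
    · rw [Zf_const_mul _ _ _ m2]
      refine (mul_le_mul_right ((Zf_mono_set (cell_subset_box hl s0 b) n m2).trans
        ((Zf_box _ _ _ m2 fun σ v => ?_).le.trans (b := _) (c := 2 * ex ((l + 3) ^ 3 * P + s * n))
          ?_)) _).trans (le_of_eq ?_)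
      · by_cases hσ : σ ∈ G
        · rw [indicator_of_mem hσ, indicator_of_mem ((hG' σ v).2 hσ), en_map_add]
        · rw [indicator_of_notMem hσ, indicator_of_notMem (mt (hG' σ v).1 hσ), en_map_add]
      · rw [Zf_add _ _ _ (m1.const_mul _), Zf_const_mul _ _ _ m1, two_mul]
        refine add_le_add ((mul_le_mul_right (hδ n) _).trans (le_of_eq ?_)) (ht l hl.le n)
        rw [← ex_add]; congr 1; ring
      · rw [ex_pow, mul_left_comm, mul_assoc, ← ex_add, ← ex_add]; congr 2; ring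
  rw [lintegral_LP_Zf]
  refine (ENNReal.tsum_le_tsum key).trans ?_
  rw [ENNReal.tsum_mul_left, ENNReal.tsum_geometric, ex_add, ex_add, mul_comm 2, mul_assoc,
    mul_comm 2]
  gcongr
  · rw [ENNReal.inv_le_iff_inv_le, ex, ex, ← ENNReal.ofReal_inv_of_pos (Real.exp_pos _),
      ← ENNReal.ofReal_one, ← ENNReal.ofReal_sub _ (Real.exp_pos _).le, Real.exp_neg]
    refine ENNReal.ofReal_le_ofReal ?_
    have h1 := inv_anti₀ (by positivity) (Real.add_one_le_exp l)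
    have h2 := inv_anti₀ (by positivity) (Real.add_one_le_exp (1 / l))
    have h3 : (l + 1)⁻¹ + (1 / l + 1)⁻¹ = 1 := by field_simp; ring
    linarith
  · rw [ex, ← ENNReal.ofReal_ofNat]
    exact ENNReal.ofReal_le_ofReal (by linarith [Real.add_one_le_exp 1])

namespace Sys

variable (S : Sys)

noncomputable def ζ : ℝ := 1 / (1000 * S.m ^ 2)

noncomputable def Eu (u : ℝ) : ℝ := S.a * (1 + S.ε) * S.p ^ 2 * ((u + S.ζ) ^ 2 / 2 + S.ζ)

def Gs (u l : ℝ) : Set (Multiset Pt) :=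
  {τ | |τ.card - u * (S.p * l ^ 3)| ≤ S.ζ * (S.p * l ^ 3) ∧ -(S.Eu u * l ^ 3) ≤ en S.φ τ}

lemma ζ_pos : 0 < S.ζ := by have := S.hm; unfold ζ; positivity

lemma mζ : S.m * S.ζ ≤ 1 / 2000 := by
  have := S.hm
  rw [ζ, mul_one_div, div_le_div_iff₀ (by positivity) (by norm_num)]; nlinarith

lemma ζ_le : S.ζ ≤ 1 / 4000 := by nlinarith [S.mζ, S.hm, S.ζ_pos]

lemma ε_le_ζ : 10 ^ 6 * S.m ^ 5 * S.ε ≤ S.ζ := by
  have := S.hm
  rw [ζ, le_div_iff₀ (by positivity)]; linarith [S.hε1]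

lemma mε : S.m * S.ε ≤ 1 / 10 ^ 6 := by
  have h1 := S.hm
  have := le_self_pow₀ (show 1 ≤ S.m by linarith) (show 7 ≠ 0 by norm_num)
  nlinarith [S.hε1, S.hε]

lemma measurableSet_Gs (u l : ℝ) : MeasurableSet (S.Gs u l) :=
  (measurableSet_le (measurable_of_card fun n => |n - u * (S.p * l ^ 3)|) measurable_const).inter
    (measurableSet_le measurable_const (measurable_en S.pot.meas))

lemma W_le (k : ℕ) {l : ℝ} (hl : l = (vv S.v (k + 1) : ℝ) ^ 12) :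
    (l + 2 * S.l0) ^ 3 ≤ (1 + S.ε) * l ^ 3 := by
  have h0 := S.l0_pos
  have h1 : S.v * S.l0 ≤ l := by
    rw [hl, vv_succ, ← pow_mul]
    refine le_trans ?_ (pow_le_pow_left₀ (by positivity) (le_vv S.v2 k) _)
    rw [l0, ← pow_succ']
    exact pow_le_pow_right₀ (by linarith [S.v_ge]) (by norm_num)
  have h2 : 2 * S.l0 ≤ S.ε / 4 * l := by
    nlinarith [mul_le_mul_of_nonneg_left h1 S.hε.le, S.εv]
  have hε := S.hε
  have hε1 := S.ε_le
  have hl0 : 0 ≤ l := by rw [hl]; positivity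
  calc _ ≤ ((1 + S.ε / 4) * l) ^ 3 := pow_le_pow_left₀ (by positivity) (by linarith) 3
    _ ≤ _ := by
      rw [mul_pow]
      exact mul_le_mul_of_nonneg_right (by nlinarith [mul_pos hε hε]) (by positivity)

lemma block_typ {u α b c l : ℝ} (h : Typ S.m S.ζ u α b c) (hl : 0 < l)
    (hW : (l + 2 * S.l0) ^ 3 ≤ (1 + S.ε) * l ^ 3) (s0 : ℝ) (q : Z3) (σ : Multiset Pt) :
    S.ζ * (α * (part (blk l s0) q σ).card ^ 2 + b * (part (blk l s0) q σ).card * (S.p * l ^ 3) +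
      c * (S.p * l ^ 3) ^ 2) ≤
      3 * S.m ^ 2 * S.ζ * (S.p * l ^ 3) ^ 2 * (S.Gs u l).indicator 1 (part (blk l s0) q σ) +
      4 * S.m * Hh S.m (part (blk l s0) q σ).card (S.p * l ^ 3) + 3 * S.m ^ 2 * l ^ 3 *
      (S.S0 (part (blk l s0) q σ) - (1 - S.ε) * ((part (blk l s0) q σ).card ^ 2 / (2 * l ^ 3))) := by
  have h2 := sq_card_part_le S.l0_pos hl s0 q σ
  set τ := part (blk l s0) q σ
  change _ ≤ _ * S.S0 τ at h2
  have hp := S.hp
  have hm := S.hm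
  have hζ := S.ζ_pos
  have hε := S.hε
  have hε1 := S.ε_le
  have h0 := S.S0_nonneg τ
  have hn : (0 : ℝ) ≤ τ.card := by positivity
  have hy : 0 ≤ S.p * l ^ 3 := by positivity
  have hq : (0 : ℝ) ≤ τ.card ^ 2 / (2 * l ^ 3) := by positivity
  have h1 : (τ.card : ℝ) ^ 2 / (2 * l ^ 3) ≤ (1 + S.ε) * S.S0 τ := by
    rw [div_le_iff₀ (by positivity)]; linarith [mul_le_mul_of_nonneg_right hW h0]
  have h3 : 0 ≤ S.S0 τ - (1 - S.ε) * (τ.card ^ 2 / (2 * l ^ 3)) := by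
    nlinarith [mul_le_mul_of_nonneg_left h1 (show 0 ≤ 1 - S.ε by linarith),
      mul_nonneg (mul_pos hε hε).le h0]
  have h4 := Hh_nonneg hm hn hy
  have h5 : (0 : ℝ) ≤ (S.Gs u l).indicator 1 τ := indicator_nonneg (fun _ _ => zero_le_one) _
  by_cases hw : |τ.card - u * (S.p * l ^ 3)| ≤ S.ζ * (S.p * l ^ 3)
  · refine (mul_le_mul_of_nonneg_left (h.near _ _ hn hy hw) hζ.le).trans ?_
    by_cases hd : S.S0 τ - (1 - S.ε) * (τ.card ^ 2 / (2 * l ^ 3)) ≤ S.ζ * S.p ^ 2 * l ^ 3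
    · rw [indicator_of_mem (show τ ∈ S.Gs u l from ⟨hw, ?_⟩), Pi.one_apply]
      · have : 0 ≤ 4 * S.m * Hh S.m τ.card (S.p * l ^ 3) := by positivity
        have : 0 ≤ 3 * S.m ^ 2 * l ^ 3 * (S.S0 τ - (1 - S.ε) * (τ.card ^ 2 / (2 * l ^ 3))) := by
          positivity
        linarith
      have h6 : (τ.card : ℝ) ^ 2 / (2 * l ^ 3) ≤ S.p ^ 2 * l ^ 3 * ((u + S.ζ) ^ 2 / 2) := by
        rw [div_le_iff₀ (by positivity)]
        calc _ ≤ ((u + S.ζ) * (S.p * l ^ 3)) ^ 2 :=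
              pow_le_pow_left₀ hn (by linarith [(abs_le.1 hw).2]) 2
          _ = _ := by ring
      have h7 := mul_le_mul_of_nonneg_left (show S.S0 τ ≤ S.p ^ 2 * l ^ 3 *
        ((u + S.ζ) ^ 2 / 2 + S.ζ) by linarith [mul_nonneg hε.le hq])
        (show 0 ≤ S.a * (1 + S.ε) by have := S.a0; positivity)
      rw [en_φ, Eu]
      linarith [S.en_psi_le τ, en_nonneg (fun r _ => S.nonneg r) τ]
    · have := mul_le_mul_of_nonneg_left (not_le.1 hd).le (show 0 ≤ 3 * S.m ^ 2 * l ^ 3 by positivity)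
      have : 0 ≤ 4 * S.m * Hh S.m τ.card (S.p * l ^ 3) := by positivity
      have : 0 ≤ 3 * S.m ^ 2 * S.ζ * (S.p * l ^ 3) ^ 2 * (S.Gs u l).indicator 1 τ := by positivity
      linarith
  · refine (h.far _ _ hn hy (not_le.1 hw)).trans ?_
    have : 0 ≤ 3 * S.m ^ 2 * S.ζ * (S.p * l ^ 3) ^ 2 * (S.Gs u l).indicator 1 τ := by positivity
    have : 0 ≤ 3 * S.m ^ 2 * l ^ 3 * (S.S0 τ - (1 - S.ε) * (τ.card ^ 2 / (2 * l ^ 3))) := by
      positivity
    linarith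

/-- number of good blocks -/
noncomputable def nG (u l s0 : ℝ) (T : Finset Z3) (σ : Multiset Pt) : ℝ :=
  ∑ q ∈ T, (S.Gs u l).indicator 1 (part (blk l s0) q σ)

lemma measurable_nG (u l s0 : ℝ) (T : Finset Z3) : Measurable (S.nG u l s0 T) :=
  Finset.measurable_fun_sum _ fun q _ =>
    (measurable_one.indicator (S.measurableSet_Gs u l)).comp (measurable_part l s0 q)

lemma sum_typ {u α b c l : ℝ} (h : Typ S.m S.ζ u α b c) (hl : 0 < l)
    (hW : (l + 2 * S.l0) ^ 3 ≤ (1 + S.ε) * l ^ 3) {s0 : ℝ} {T : Finset Z3} {σ : Multiset Pt}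
    (hT : ∀ x ∈ σ, blk l s0 x ∈ T) :
    S.a * S.ζ * (2 * α * Sq l s0 σ + (b * S.p * σ.card + c * S.p ^ 2 * (T.card * l ^ 3))) ≤
      3 * S.m ^ 2 * S.a * S.ζ * S.p ^ 2 * l ^ 3 * S.nG u l s0 T σ +
      4 * S.m * (S.Ct l s0 T σ - S.a * Sq l s0 σ + S.a * S.p / 2 * σ.card) +
      3 * S.m ^ 2 * S.a * (S.S0 σ - (1 - S.ε) * Sq l s0 σ) := by
  have h1 := mul_le_mul_of_nonneg_left
    (Finset.sum_le_sum fun q (_ : q ∈ T) => S.block_typ h hl hW s0 q σ)
    (div_nonneg S.a0 (pow_pos hl 3).le)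
  have h2 := mul_le_mul_of_nonneg_left (sum_Sq_part_le _ hT S.l0_pos 0)
    (show 0 ≤ 3 * S.m ^ 2 * S.a by have := S.a0; positivity)
  simp only [Finset.sum_add_distrib, Finset.sum_sub_distrib, ← Finset.mul_sum, ← Finset.sum_mul,
    ← Nat.cast_sum, card_part _ hT, Finset.sum_const, nsmul_eq_mul, ← Sq_eq hT] at h1
  have h3 : ∑ q ∈ T, ((part (blk l s0) q σ).card : ℝ) ^ 2 = 2 * l ^ 3 * Sq l s0 σ := by
    rw [Sq_eq hT, ← Finset.sum_div]; field_simp
  rw [h3] at h1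
  rw [S.Ct_eq hl hT]
  refine le_of_eq_of_le ?_ (h1.trans (le_of_eq_of_le (b :=
    3 * S.m ^ 2 * S.a * S.ζ * S.p ^ 2 * l ^ 3 * S.nG u l s0 T σ + 4 * S.m * (S.a / l ^ 3 *
      ∑ b ∈ T, Hh S.m (part (blk l s0) b σ).card (S.p * l ^ 3)) + 3 * S.m ^ 2 * S.a *
      (∑ b ∈ T, Sq S.l0 0 (part (blk l s0) b σ) - (1 - S.ε) * Sq l s0 σ)) ?_ ?_))
  · field_simp; ring
  · unfold nG S0; field_simp
  · unfold S0; linarith

end Sys

end Crest.Agent.H5.Gas
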