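import Mathlib
import Crest.Agent.H5.Gas.StepD

/-! Existence of nearly optimal pure blocks. -/

set_option autoImplicit false

namespace Crest.Agent.H5.Gas

open MeasureTheory Set Function Filter
open Crest.ProbabilityR.Continuum
open scoped ENNReal Topology

lemma count_arith {m ζ u α b c a ε β X E0 El EC G pN pT γ : ℝ} (h : Typ m ζ u α b c) (hm : 2 ≤ m)
    (ha : 0 < a) (hε : 0 < ε) (hζ : 10 ^ 6 * m ^ 5 * ε ≤ ζ) (hε1 : m * ε ≤ 1 / 10 ^ 6)
    (hβ : β ≤ 9 / 8) (hX : 0 < X) (h0 : E0 = (9 * m + 1) / 12 * X)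
    (h1 : a * ζ * (2 * α * El + (b * pN + c * pT)) ≤ 3 * m ^ 2 * a * ζ * G +
      4 * m * (EC - a * El + a / 2 * pN) + 3 * m ^ 2 * a * (E0 - (1 - ε) * El))
    (h2 : E0 - ε * X ≤ El) (h3 : El ≤ (1 + ε) * E0) (h4 : (5 / 3 - ε) * X ≤ pN)
    (h4' : pN ≤ 5 / 3 * X) (h5 : X ≤ pT) (h6 : EC ≤ β * a * (1 + ε) * E0 + 2 * ε * a * X - γ)
    (h7 : a * X * (5 / 6 + (β - 1) * ((9 * m + 1) / 12) - 2 * ε) ≤ γ) : X ≤ 36 * m ^ 2 * G := by
  have hY : 0 < ε * X := by positivity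
  have hmY : 2 * (ε * X) ≤ m * (ε * X) := mul_le_mul_of_nonneg_right hm hY.le
  have s0 : ε * E0 = (9 * (m * (ε * X)) + ε * X) / 12 := by rw [h0]; ring
  have s1 : |El - E0| ≤ m * (ε * X) := abs_le.2 ⟨by linarith, by linarith⟩
  have s2 : |α * (El - E0)| ≤ 1 * (m * (ε * X)) := by
    rw [abs_mul]; exact mul_le_mul h.hα s1 (abs_nonneg _) zero_le_one
  have s3 : |b * (pN - 5 / 3 * X)| ≤ 2 * m * (ε * X) := by
    rw [abs_mul]
    exact mul_le_mul h.hb (abs_le.2 ⟨by linarith, by linarith⟩) (abs_nonneg _) (by positivity)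
  have s4 := mul_le_mul_of_nonneg_left h5 h.hc
  have s5 := mul_le_mul_of_nonneg_right h.mean hX.le
  have t1 : X / 6 - 4 * (m * (ε * X)) ≤ 2 * α * El + (b * pN + c * pT) := by
    have : α * E0 = α * ((9 * m + 1) / 12) * X := by rw [h0]; ring
    linarith [(abs_le.1 s2).1, (abs_le.1 s3).1]
  have t2 : EC - a * El + a / 2 * pN ≤ a * (4 * (m * (ε * X))) := by
    have e1 : β * (ε * E0) ≤ 9 / 8 * (ε * E0) :=
      mul_le_mul_of_nonneg_right hβ (by rw [s0]; positivity)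
    have e2 : β * (1 + ε) * E0 + 2 * ε * X - X * (5 / 6 + (β - 1) * ((9 * m + 1) / 12) - 2 * ε) -
        El + 1 / 2 * pN ≤ 4 * (m * (ε * X)) := by
      have : X * ((β - 1) * ((9 * m + 1) / 12)) = β * E0 - E0 := by rw [h0]; ring
      linarith
    linarith [mul_le_mul_of_nonneg_left e2 ha.le]
  have t3 : E0 - (1 - ε) * El ≤ 3 * (m * (ε * X)) := by
    have e1 := mul_le_mul_of_nonneg_left h3 hε.le
    have e2 : ε * (ε * E0) ≤ 1 * (ε * E0) :=
      mul_le_mul_of_nonneg_right (by nlinarith) (by rw [s0]; positivity)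
    linarith
  have hζ0 : 0 < ζ := lt_of_lt_of_le (by positivity) hζ
  have u1 := mul_le_mul_of_nonneg_left t1 (mul_pos ha hζ0).le
  have u2 := mul_le_mul_of_nonneg_left t2 (show 0 ≤ 4 * m by positivity)
  have u3 := mul_le_mul_of_nonneg_left t3 (show 0 ≤ 3 * m ^ 2 * a by positivity)
  have hm1 : 1 ≤ m := by linarith
  have u4 : m ^ 3 * ε * (a * X) ≤ ζ / 10 ^ 6 * (a * X) := mul_le_mul_of_nonneg_right (by
    linarith [mul_le_mul_of_nonneg_right (pow_le_pow_right₀ hm1 (by norm_num : 3 ≤ 5)) hε.le])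
    (by positivity)
  have u5 : m ^ 2 * ε * (a * X) ≤ m ^ 3 * ε * (a * X) := by gcongr; norm_num
  have u6 := mul_le_mul_of_nonneg_right hε1 (show 0 ≤ a * ζ * X by positivity)
  have u7 : 0 < a * ζ * X := by positivity
  exact le_of_mul_le_mul_left (show a * ζ * X ≤ a * ζ * (36 * m ^ 2 * G) by linarith)
    (mul_pos ha hζ0)

lemma scale_facts {v l : ℝ} (hv : 10 ^ 6 ≤ v) (hl : l = v ^ 12) : 1 / v ^ 4 ≤ 1 / v ∧
    1 / v ≤ 1 / 10 ^ 6 ∧ 1 / l ≤ 1 / v ∧ (l + 3) ^ 3 ≤ (1 + 1 / v / 3) * l ^ 3 ∧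
    l + 1 ≤ 1 / v / 2 * l ^ 3 := by
  have hv1 : 1 ≤ v := by linarith
  have hv0 : 0 < v := by linarith
  have hlv : v * v ≤ l := by rw [hl, ← sq]; exact pow_le_pow_right₀ hv1 (by norm_num)
  have hlw : 10 ^ 6 ≤ 1 / v * l := by rw [one_div_mul_eq_div, le_div_iff₀ hv0]; nlinarith
  have hl1 : 10 ^ 6 ≤ l := by nlinarith
  have h1 := mul_le_mul_of_nonneg_right hlw (sq_nonneg l)
  exact ⟨one_div_le_one_div_of_le hv0 (le_self_pow₀ hv1 (by norm_num)),
    one_div_le_one_div_of_le (by norm_num) hv, one_div_le_one_div_of_le hv0 (by nlinarith),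
    by nlinarith, by nlinarith⟩

lemma select_arith {m a p β w w4 l V N t P s G C : ℝ} (hm : 2 ≤ m) (ha : 1 ≤ a) (hp : 1 ≤ p)
    (hβ : β ≤ 9 / 8) (hw0 : 0 < w) (hw1 : w ≤ 1 / 10 ^ 6) (hw4 : w4 ≤ w) (hw2 : 1 / l ≤ w)
    (hw3 : (l + 3) ^ 3 ≤ (1 + w / 3) * l ^ 3) (hw5 : l + 1 ≤ w / 2 * l ^ 3) (hl : 0 < l)
    (hV : 0 < V) (hN0 : 0 ≤ N) (hN : N ≤ 2 * p * V) (ht0 : 0 ≤ t)
    (ht : t * l ^ 3 ≤ (1 + w / 3) * V) (hP0 : 0 ≤ P) (hP : P ≤ 54 * m * a * p ^ 2) (hC : 0 ≤ C)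
    (b1 : V ≤ 36 * m ^ 2 * (l ^ 3 * G))
    (b2 : 3000 * m ^ 3 * a * p ^ 2 * w * l ^ 3 * G - β * C ≤
      (s + 1 / l) * N + t * ((l + 3) ^ 3 * P + (l + 1)) - (P * V + s * N - w4 * V))
    (b3 : C ≤ 10 * a * w * (m * p ^ 2 * V)) : False := by
  have hA1 : p * (w * V) ≤ m * a * p * p * (w * V) := by
    gcongr
    exact le_mul_of_one_le_left (by linarith) (one_le_mul_of_one_le_of_one_le
      (one_le_mul_of_one_le_of_one_le (show 1 ≤ m by linarith) ha) hp)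
  have hA2 : w * V ≤ p * (w * V) := le_mul_of_one_le_left (by positivity) hp
  have c1 := mul_le_mul hβ b3 hC (by norm_num)
  have c2 : 1 / l * N ≤ w * (2 * p * V) := mul_le_mul hw2 hN hN0 hw0.le
  have c4 : t * (l + 3) ^ 3 ≤ (1 + w) * V :=
    calc _ ≤ t * ((1 + w / 3) * l ^ 3) := by gcongr
      _ = (1 + w / 3) * (t * l ^ 3) := by ring
      _ ≤ (1 + w / 3) * ((1 + w / 3) * V) := by gcongr
      _ ≤ _ := by rw [← mul_assoc]; exact mul_le_mul_of_nonneg_right (by nlinarith) hV.le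
  have c5 : t * (l + 1) ≤ w * V :=
    calc _ ≤ t * (w / 2 * l ^ 3) := by gcongr
      _ = w / 2 * (t * l ^ 3) := by ring
      _ ≤ w / 2 * ((1 + w / 3) * V) := by gcongr
      _ ≤ w / 2 * (2 * V) := by gcongr; linarith
      _ = _ := by ring
  have c6 := mul_le_mul_of_nonneg_right c4 hP0
  have c7 := mul_le_mul_of_nonneg_right hP (show 0 ≤ w * V by positivity)
  have c8 := mul_le_mul_of_nonneg_right hw4 hV.le
  have c9 := mul_le_mul_of_nonneg_left b1 (show 0 ≤ m * a * p ^ 2 * w by positivity)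
  have : 0 < w * V := by positivity
  linarith

namespace Sys

variable (S : Sys) {β Pi0 s : ℝ}

lemma integrable_nG {L γ : ℝ} {N : ℕ} {P : Measure (Multiset Pt)} (h : St S.φ β L N γ P)
    (u l s0 : ℝ) (T : Finset Z3) : Integrable (S.nG u l s0 T) P :=
  h.integrable (S.measurable_nG u l s0 T) T.card fun σ _ => by
    refine (Finset.abs_sum_le_sum_abs _ _).trans ((Finset.sum_le_card_nsmul _ _ 1
      fun q _ => ?_).trans (by simp))
    by_cases h : part (blk l s0) q σ ∈ S.Gs u l <;> simp [h]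

lemma count_lower {u α b c L γ l s0 : ℝ} {N : ℕ} {P : Measure (Multiset Pt)}
    (ht : Typ S.m S.ζ u α b c) (h : St S.φ β L N γ P) (hβ : 7 / 8 ≤ β) (hβ' : β ≤ 9 / 8)
    (hL : 0 < L) (hl : S.l0 ≤ l) (hW : (l + 2 * S.l0) ^ 3 ≤ (1 + S.ε) * l ^ 3) (hs0 : 0 ≤ s0)
    (hs : s0 < l) (hL2 : (L + 2 * l) ^ 3 ≤ 2 * L ^ 3)
    (h0 : ∫ σ, S.S0 σ ∂P = (9 * S.m + 1) / 12 * S.p ^ 2 * L ^ 3)
    (h2 : ∫ σ, S.S0 σ ∂P - S.ε * S.p ^ 2 * L ^ 3 ≤ ∫ σ, Sq l s0 σ ∂P)
    (h4 : (5 / 3 - S.ε) * S.p * L ^ 3 ≤ N) (h4' : N ≤ 5 / 3 * S.p * L ^ 3)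
    (h7 : S.a * S.p ^ 2 * L ^ 3 * (5 / 6 + (β - 1) * ((9 * S.m + 1) / 12) - 2 * S.ε) ≤ γ) :
    L ^ 3 ≤ 36 * S.m ^ 2 * (l ^ 3 * ∫ σ, S.nG u l s0 (bx (Qn l L)) σ ∂P) := by
  have hl0 := S.l0_pos.trans_le hl
  have hp := S.hp
  have ha := S.ha
  have hε := S.hε
  set T := bx (Qn l L)
  have i1 := h.integrable_Sq hl0 s0
  have i2 := S.integrable_S0 h
  have i3 := S.integrable_Ct h l s0 T
  have i4 := (S.integrable_nG h u l s0 T).const_mul (3 * S.m ^ 2 * S.a * S.ζ * S.p ^ 2 * l ^ 3)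
  have i5 : Integrable (fun σ => S.Ct l s0 T σ - S.a * Sq l s0 σ) P := i3.sub (i1.const_mul _)
  have i6 : Integrable (fun σ => 4 * S.m * (S.Ct l s0 T σ - S.a * Sq l s0 σ + S.a * S.p / 2 * N))
    P := (i5.add (h.integrable_const _)).const_mul _
  have i7 : Integrable (fun σ => 3 * S.m ^ 2 * S.a * (S.S0 σ - (1 - S.ε) * Sq l s0 σ)) P :=
    (i2.sub (i1.const_mul _)).const_mul _
  have i8 : Integrable (fun σ => 3 * S.m ^ 2 * S.a * S.ζ * S.p ^ 2 * l ^ 3 * S.nG u l s0 T σ +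
    4 * S.m * (S.Ct l s0 T σ - S.a * Sq l s0 σ + S.a * S.p / 2 * N)) P := i4.add i6
  have a1 := h.integral_mono (X := fun σ => S.a * S.ζ * (2 * α * Sq l s0 σ +
      (b * S.p * N + c * S.p ^ 2 * (T.card * l ^ 3))))
    (((i1.const_mul _).add (h.integrable_const _)).const_mul _) (i8.add i7) fun σ e1 e2 => by
      rw [← e1]
      exact S.sum_typ ht hl0 hW fun x hx => blk_mem_Qn hl0 hs0 hs x (e2 x hx)
  simp only [Pi.add_apply] at a1
  rw [integral_const_mul, integral_add (i1.const_mul _) (h.integrable_const _),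
    integral_add i8 i7, integral_add i4 i6] at a1
  simp only [integral_const_mul] at a1
  rw [integral_add i5 (h.integrable_const _), integral_sub i3 (i1.const_mul _),
    integral_sub i2 (i1.const_mul _)] at a1
  simp only [integral_const_mul, h.integral_const] at a1
  have a2 := integral_mono i1 (i2.const_mul (1 + S.ε)) fun σ =>
    (Sq_le_Sq S.l0_pos hl0 s0 σ).trans (mul_le_mul_of_nonneg_right (by
      rw [add_div' _ _ _ hl0.ne', div_pow, div_le_iff₀ (by positivity), one_mul]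
      exact hW) (S.S0_nonneg σ))
  rw [integral_const_mul] at a2
  have a3 := S.mean_Ct_le h (by linarith) hL.le hl hs0 hs
  have a4 := mul_le_mul_of_nonneg_left hL2 (show 0 ≤ S.ε * S.a * S.p ^ 2 by positivity)
  have := count_arith (X := S.p ^ 2 * L ^ 3) (E0 := ∫ σ, S.S0 σ ∂P) (El := ∫ σ, Sq l s0 σ ∂P)
    (EC := ∫ σ, S.Ct l s0 T σ ∂P) (G := S.p ^ 2 * (l ^ 3 * ∫ σ, S.nG u l s0 T σ ∂P))
    (pN := S.p * N) (pT := S.p ^ 2 * (T.card * l ^ 3)) (γ := γ) (a := S.a) ht S.hm (by linarith)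
    hε S.ε_le_ζ S.mε hβ' (by positivity) (by rw [h0]; ring) (by linarith) (by linarith) a2
    (by linarith [mul_le_mul_of_nonneg_left h4 (show 0 ≤ S.p by linarith)])
    (by linarith [mul_le_mul_of_nonneg_left h4' (show 0 ≤ S.p by linarith)])
    (mul_le_mul_of_nonneg_left (le_card_Qn hl0 hL.le) (by positivity)) (by linarith) (by linarith)
  exact le_of_mul_le_mul_left (a := S.p ^ 2) (by linarith) (by positivity)

lemma count_upper {u L γ l s0 δ : ℝ} {N : ℕ} {P : Measure (Multiset Pt)}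
    (h : St S.φ β L N γ P) (hβ : 0 ≤ β) (ht : Tan S.φ β Pi0 s) (hl : 0 < l) (hs0 : 0 ≤ s0)
    (hs : s0 < l) (hδ : ∀ n, Zf (cube l) n ((S.Gs u l).indicator fun σ => ex (-β * en S.φ σ)) ≤
      ex ((l + 3) ^ 3 * Pi0 + s * n - δ)) :
    δ * ∫ σ, S.nG u l s0 (bx (Qn l L)) σ ∂P - β * ∫ σ, crs (blk l s0) (psi S.a S.v 0) σ ∂P ≤
      (s + 1 / l) * N + (bx (Qn l L)).card * ((l + 3) ^ 3 * Pi0 + (l + 1)) - γ := by
  have i1 := (S.integrable_nG h u l s0 (bx (Qn l L))).const_mul δ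
  have m2 := (continuous_psi S.a0 S.v2 0).measurable
  have i2 := (h.integrable_crs l s0 m2 (psi_nonneg S.a0 S.v2 0) (psi_le S.a0 S.v2 0)).const_mul β
  rw [← integral_const_mul, ← integral_const_mul, ← integral_sub i1 i2]
  refine h.vi _ (((S.measurable_nG _ _ _ _).const_mul _).sub ((measurable_crs l s0 m2).const_mul _))
    (i1.sub i2) _ (Zf_le_prod (blk_mem_Qn hl hs0 hs) (F := fun σ => ex (δ * (S.Gs u l).indicator 1 σ
      - β * en S.φ σ - (s + 1 / l) * σ.card)) (measurable_ex.comp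
      ((((measurable_one.indicator (S.measurableSet_Gs u l)).const_mul _).sub
        ((measurable_en S.pot.meas).const_mul _)).sub
        (measurable_of_card fun n => (s + 1 / l) * n)))
      (fun b _ => LP_block_le S.pot ht hl (S.measurableSet_Gs u l) (fun σ v => by
        simp only [Gs, mem_ofPred_eq, Multiset.card_map, en_map_add]) hδ s0 b) fun σ e1 e2 => ?_)
  have hT := fun x hx => blk_mem_Qn hl hs0 hs x (e2 x hx)
  rw [← ex_sum, ← ex_add, Finset.sum_sub_distrib, Finset.sum_sub_distrib, ← Finset.mul_sum,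
    ← Finset.mul_sum, ← Finset.mul_sum, ← Nat.cast_sum, card_part _ hT, e1,
    en_eq_sum_part _ hT S.φ]
  have := mul_le_mul_of_nonneg_left (S.crs_ge (blk l s0) (f := psi S.a S.v 0) σ) hβ
  change _ ≤ β * crs (blk l s0) S.φ σ at this
  simp only [Pi.sub_apply, nG]
  exact ex_mono (by linarith)

lemma mean_crs_le {L γ l s0 v : ℝ} {N k : ℕ} {P : Measure (Multiset Pt)} (h : St S.φ β L N γ P)
    (hv : v = vv S.v (k + 1))
    (a3 : ∫ σ, crs (blk l s0) (psiL S.a S.v (k + 1)) σ ∂P ≤ 6 * S.a / v ^ 4 * ∫ σ, S.S0 σ ∂P) :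
    ∫ σ, crs (blk l s0) (psi S.a S.v 0) σ ∂P ≤ 10 * S.a * (1 / v) * ∫ σ, S.S0 σ ∂P := by
  have hv6 : 10 ^ 6 ≤ v := hv ▸ S.vv_ge (k + 1)
  have iL := S.integrable_crsL h l s0 (k + 1)
  have b3 := integral_mono (h.integrable_crs l s0 (continuous_psi S.a0 S.v2 0).measurable
    (psi_nonneg S.a0 S.v2 0) (psi_le S.a0 S.v2 0)) (iL.add ((S.integrable_S0 h).const_mul (4 / v)))
    fun σ => by
      have e1 := crs_add (blk l s0) (psiL S.a S.v (k + 1)) (psi S.a S.v (k + 1)) σ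
      simp only [psiL_add S.a0 S.v2] at e1
      have e2 := (crs_le_en (blk l s0) (fun r _ => psi_nonneg S.a0 S.v2 (k + 1) r) σ).trans
        (en_psi_succ_le S.a0 S.v10 k σ)
      rw [← hv] at e2
      exact e1.le.trans (add_le_add le_rfl e2)
  simp only [Pi.add_apply] at b3
  rw [integral_add iL ((S.integrable_S0 h).const_mul _), integral_const_mul] at b3
  calc _ ≤ (6 * S.a / v ^ 4 + 4 / v) * ∫ σ, S.S0 σ ∂P := by linarith
    _ ≤ _ := by
      refine mul_le_mul_of_nonneg_right ?_ (integral_nonneg S.S0_nonneg)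
      rw [div_eq_mul_one_div (6 * S.a), div_eq_mul_one_div 4]
      linarith [mul_le_mul_of_nonneg_left (scale_facts hv6 rfl).1 S.a0,
        mul_le_mul_of_nonneg_right S.ha (show 0 ≤ 1 / v by positivity)]

lemma rec_err {v : ℝ} : 230000 * S.m * S.a * (2 / S.v ^ 2 - 2 / v ^ 2) ≤ S.ε := by
  have := S.v_ge
  have := S.hm
  have := S.ha
  calc _ ≤ 230000 * S.m * S.a * (2 / S.v) := by
        gcongr
        refine (sub_le_self _ (by positivity)).trans ?_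
        gcongr; exact le_self_pow₀ (by linarith) two_ne_zero
    _ ≤ _ := by
        rw [← mul_div_assoc, div_le_iff₀ (by positivity)]; nlinarith [S.hv]

theorem select (hβ : 7 / 8 ≤ β) (hβ' : β ≤ 9 / 8) (ht : Tan S.φ β Pi0 s)
    (hs : -(30 * S.m * S.a * S.p) ≤ s) (hP : Pi0 ≤ 54 * S.m * S.a * S.p ^ 2)
    (hg : S.a * S.p ^ 2 * (5 / 6 + (β - 1) * ((9 * S.m + 1) / 12) - S.ε) ≤ Pi0 + s * (5 * S.p / 3))
    (hst : ∀ e : ℝ, 0 < e → ∃ᶠ L : ℝ in atTop, ∃ P, St S.φ β L ⌊5 * S.p / 3 * L ^ 3⌋₊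
      (Pi0 * L ^ 3 + s * ⌊5 * S.p / 3 * L ^ 3⌋₊ - e * L ^ 3) P ∧
        ∫ σ, S.S0 σ ∂P = (9 * S.m + 1) / 12 * S.p ^ 2 * L ^ 3)
    {u α b c : ℝ} (hty : Typ S.m S.ζ u α b c) (k : ℕ) {v l : ℝ} (hv : v = vv S.v (k + 1))
    (hl : l = v ^ 12) : ∃ n : ℕ, |n - u * (S.p * l ^ 3)| ≤ S.ζ * (S.p * l ^ 3) ∧
      ∀ β', 0 ≤ β' → β' ≤ β → (l + 3) ^ 3 * Pi0 + s * n - 3000 * S.m ^ 3 * S.a * S.p ^ 2 / v * l ^ 3
        - (β - β') * (S.Eu u * l ^ 3) ≤ lz S.φ β' l n := by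
  have hv6 : 10 ^ 6 ≤ v := hv ▸ S.vv_ge (k + 1)
  have hv0 : 0 < v := by linarith
  have hl0 : S.l0 ≤ l := by rw [hl, hv]; exact S.l0_le _
  have hlp : 0 < l := by rw [hl]; positivity
  have hp := S.hp
  have ha := S.ha
  have hm := S.hm
  have hε := S.hε
  obtain ⟨hw4, hw1, hw2, hw3, hw5⟩ := scale_facts hv6 hl
  have hwε : 1 / v ≤ S.ε / 2 := by
    rw [div_le_iff₀ hv0]
    linarith [S.εv, mul_le_mul_of_nonneg_left (hv ▸ le_vv S.v2 (k + 1) : (S.v : ℝ) ≤ v) hε.le]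
  have hap : 1 ≤ S.a * S.p ^ 2 := one_le_mul_of_one_le_of_one_le ha (one_le_pow₀ hp)
  have hεp : (5 / 3 - S.ε) * S.p < 5 * S.p / 3 := by linarith [mul_pos hε (show 0 < S.p by linarith)]
  obtain ⟨n, hn⟩ : ∃ n : ℕ, ex ((l + 3) ^ 3 * Pi0 + s * n -
      3000 * S.m ^ 3 * S.a * S.p ^ 2 / v * l ^ 3) <
      Zf (cube l) n ((S.Gs u l).indicator fun σ => ex (-β * en S.φ σ)) := by
    by_contra hc
    push Not at hc
    have hρ : 0 ≤ 5 * S.p / 3 := by positivity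
    obtain ⟨L, ⟨P, hP1, hP2⟩, h1, hL, h2, h3, h4⟩ := ((hst (1 / v ^ 4) (by positivity)).and_eventually
      ((S.recursion hβ ht hs hP (k + 1)).and ((eventually_gt_atTop 0).and
      (((tendsto_add_cube (2 * l)).eventually_lt_const (u := 1 + 1 / v / 3)
        (lt_add_of_pos_right _ (by positivity))).and
      (((tendsto_N hρ).eventually_const_lt hεp).and
      (((tendsto_N hρ).const_mul s).eventually_const_lt (u := s * (5 * S.p / 3) - S.ε / 2)
        (by linarith))))))).exists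
    have hV := pow_pos hL 3
    have hN : (⌊5 * S.p / 3 * L ^ 3⌋₊ : ℝ) ≤ 5 * S.p / 3 * L ^ 3 := Nat.floor_le (by positivity)
    generalize ⌊5 * S.p / 3 * L ^ 3⌋₊ = N at *
    rw [div_lt_iff₀ hV] at h2
    rw [lt_div_iff₀ hV] at h3
    rw [← mul_div_assoc s (N : ℝ), lt_div_iff₀ hV] at h4
    have hpV : 0 < S.p * L ^ 3 := by positivity
    have hE : ∫ σ, S.S0 σ ∂P ≤ S.m * S.p ^ 2 * L ^ 3 := by
      rw [hP2]; gcongr; linarith
    obtain ⟨s0, a1, a2, a3, a4⟩ := h1 N P (by linarith) (hv ▸ hP1) hE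
    rw [← hv, ← hl] at a2 a3 a4
    have b1 := S.count_lower hty hP1 hβ hβ' hL hl0 (S.W_le k (hv ▸ hl)) a1 a2
      (h2.le.trans (mul_le_mul_of_nonneg_right (by linarith) hV.le)) hP2 (le_trans (by
        linarith [mul_le_mul_of_nonneg_right (S.rec_err (v := v))
          (show 0 ≤ S.p ^ 2 * L ^ 3 by positivity)]) a4) h3.le (by linarith) (by
        linarith [mul_le_mul_of_nonneg_right hg hV.le,
          mul_le_mul_of_nonneg_right (hw4.trans hwε) hV.le,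
          mul_le_mul_of_nonneg_right hap (show 0 ≤ S.ε * L ^ 3 by positivity)])
    have b2 := S.count_upper hP1 (by linarith) ht hlp a1 a2 hc
    have b3 := (S.mean_crs_le hP1 hv a3).trans (mul_le_mul_of_nonneg_left hE (by positivity))
    rw [div_eq_mul_one_div _ v] at b2
    exact select_arith hm ha hp hβ' (by positivity) hw1 hw4 hw2 hw3 hw5 hlp hV (by positivity)
      (by linarith) (by positivity) ((card_Qn_le hlp hL.le).trans h2.le) (S.pot.Tan_nonneg ht) hP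
      (integral_nonneg fun σ => crs_nonneg _ (fun r _ => psi_nonneg S.a0 S.v2 0 r) σ) b1 b2 b3
  refine ⟨n, by_contra fun hw => ?_, fun β' h1 h2 => ?_⟩
  · refine (hn.trans_le (Zf_mono (measurableSet_cube l) (G := fun _ => 0) fun σ e _ => ?_)).not_ge
      (by simp [Zf])
    rw [indicator_of_notMem fun hσ => hw (e ▸ hσ.1)]
  · rw [← ex_le_ex, S.pot.ex_lz h1 hlp, sub_eq_neg_add, ex_add]
    refine (mul_le_mul_right hn.le _).trans ?_
    rw [← Zf_const_mul _ _ _ ((S.pot.measurable_ex β).indicator (S.measurableSet_Gs u l))]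
    refine Zf_mono (measurableSet_cube l) fun σ _ _ => ?_
    by_cases hσ : σ ∈ S.Gs u l
    · rw [indicator_of_mem hσ, ← ex_add]
      exact ex_mono (by linarith [mul_le_mul_of_nonneg_left hσ.2 (sub_nonneg.2 h2)])
    · simp [hσ]

end Sys

end Crest.Agent.H5.Gas
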