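import Mathlib
import Crest.Agent.H5.Gas.Select

/-! The kink of the free energy. -/

set_option autoImplicit false

namespace Crest.Agent.H5.Gas

open MeasureTheory Set Function Filter
open Crest.ProbabilityR.Continuum
open scoped ENNReal Topology

lemma exists_weight {x y r : ℝ} (h1 : x ≤ r) (h2 : r < y) :
    ∃ θ, 0 ≤ θ ∧ θ ≤ 1 ∧ (1 - θ) * x + θ * y = r := by
  have h : 0 < y - x := by linarith
  refine ⟨(r - x) / (y - x), div_nonneg (by linarith) h.le, (div_le_one h).2 (by linarith), ?_⟩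
  field_simp; ring

lemma left_arith {m ζ ε u θ : ℝ} (hm : 2 ≤ m) (hζ : 0 < ζ) (hmζ : m * ζ ≤ 1 / 2000) (hε : 0 < ε)
    (hεζ : ε ≤ ζ) (hmε : m * ε ≤ 1 / 10 ^ 6) (hu2 : u ≤ 2)
    (h : (1 - θ) * (1 - ζ) + θ * (m - ζ) ≤ u * (1 + ε)) :
    (1 + ε) * ((1 - θ) * ((1 + ζ) ^ 2 / 2 + ζ) + θ * ((m + ζ) ^ 2 / 2 + ζ)) ≤
      ((1 + m) * u - m) / 2 + 1 / 32 := by
  have h1 : θ * (m - 1) ≤ u - 1 + 3 * ζ := by nlinarith
  have h2 := mul_le_mul_of_nonneg_right h1 (show 0 ≤ m + 1 + 2 * ζ by positivity)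
  have h3 : ζ ≤ 1 / 4000 := by nlinarith
  have h4 : (1 - θ) * ((1 + ζ) ^ 2 / 2 + ζ) + θ * ((m + ζ) ^ 2 / 2 + ζ) ≤
      ((1 + m) * u - m) / 2 + 1 / 100 := by nlinarith
  have h5 : ((1 + m) * u - m) / 2 + 1 / 100 ≤ 2 * m := by nlinarith
  nlinarith [mul_le_mul_of_nonneg_left h4 (show 0 ≤ 1 + ε by positivity),
    mul_le_mul_of_nonneg_left h5 hε.le]

lemma right_arith {m ζ ε u β : ℝ} (hm : 2 ≤ m) (hζ : 0 < ζ) (hmζ : m * ζ ≤ 1 / 2000) (hε : 0 < ε)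
    (hεζ : 1000 * ε ≤ ζ) (hmε : m * ε ≤ 1 / 10 ^ 6) (hu1 : 1 ≤ u) (hu2 : u ≤ 2) (hβ : 7 / 8 ≤ β)
    (hβ' : β ≤ 9 / 8) : (m * u - 6 * m * ζ) * (1 + ε) ^ 2 ≤ (m - ζ) * (u - ζ) ∧
    β / 2 * (m * u / 2 - 1 / 32) ≤ (β - 1) * (m * u) / 2 +
      (1 - β / 2 * (1 + ε)) * (m * u - 6 * m * ζ) / 2 - 3 * ε := by
  have h0 : ε ≤ 1 / 10 ^ 6 := by nlinarith
  have h1 : m * u ≤ 2 * m := by nlinarith
  have h2 : 0 < m * ζ := by positivity
  have h3 : (1 + ε) ^ 2 ≤ 1 + 3 * ε := by nlinarith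
  have h4 : 1000 * (m * ε) ≤ m * ζ := by nlinarith
  have h5 : ε * (m * u) ≤ 2 * (m * ε) := by nlinarith
  constructor
  · have := mul_le_mul_of_nonneg_left h3 (show 0 ≤ m * u - 6 * m * ζ by nlinarith)
    nlinarith [mul_pos hε h2, mul_le_mul_of_nonneg_left (hu2.trans hm) hζ.le]
  · have h6 : β * (ε * (m * u)) ≤ 9 / 8 * (2 * (m * ε)) :=
      mul_le_mul hβ' h5 (by positivity) (by norm_num)
    have h7 : 0 ≤ β * (1 + ε) * (m * ζ) := by positivity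
    nlinarith

namespace Sys

variable (S : Sys)

/-- lower bound by trial states -/
def Mix : Prop := ∀ β, 7 / 8 ≤ β → β ≤ 9 / 8 → ∀ w1 w2 : ℝ, 0 ≤ w1 → 0 ≤ w2 → w1 + w2 ≤ 1 - S.ε →
  0 < w1 + S.m * w2 → S.a * S.p ^ 2 * ((w1 + S.m * w2) / 2 + (β - 1) * (w1 + S.m ^ 2 * w2) / 2 - S.ε)
    ≤ gl S.φ β ((w1 + S.m * w2) * S.p)

variable {S}

lemma Mix.le (h : S.Mix) {β : ℝ} (hβ : 7 / 8 ≤ β) (hβ' : β ≤ 9 / 8) (t u : ℝ) (ht : 0 ≤ t)
    (htu : t < u) (hu : u + t ≤ 23 / 12) :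
    S.a * S.p ^ 2 * (u / 2 + (β - 1) * (t + S.m * (u - t)) / 2 - S.ε) ≤ gl S.φ β (u * S.p) := by
  have hm := S.hm
  have h1 : t + S.m * ((u - t) / S.m) = u := by field_simp; ring
  have h2 : (u - t) / S.m ≤ (u - t) / 2 := by gcongr
  have := h β hβ hβ' t ((u - t) / S.m) ht (div_nonneg (by linarith) (by linarith))
    (by linarith [S.ε_le]) (by linarith)
  rwa [h1, show S.m ^ 2 * ((u - t) / S.m) = S.m * (u - t) by field_simp] at this

lemma eventually_mean (S : Sys) {β : ℝ} (hβ : 1 / 4 ≤ β) : ∀ᶠ L : ℝ in atTop, 0 < L ∧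
    S.a * (1 - β * (1 + S.ε)) * ∫ σ, S.S0 σ ∂gibbs S.φ β L ⌊5 / 3 * S.p * L ^ 3⌋₊ ≤
      (S.a * S.p ^ 2 * (5 / 6 + 3 * S.ε) - gl S.φ β (5 / 3 * S.p)) * L ^ 3 := by
  have hp := S.hp
  have ha := S.ha
  have hε := S.hε
  filter_upwards [eventually_gt_atTop 0, (tendsto_add_cube (2 * S.l0)).eventually_lt_const
    one_lt_two, (S.pot.thermo (β := β) (by linarith) (show 0 < 5 / 3 * S.p by positivity)).1
    |>.eventually_const_lt (sub_lt_self _ (show 0 < S.ε * S.a * S.p ^ 2 by positivity))]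
    with L hL h1 h2
  have hV := pow_pos hL 3
  rw [div_lt_iff₀ hV] at h1
  rw [lt_div_iff₀ hV] at h2
  have h3 := S.mean_S0_le (S.pot.gibbs_St (by linarith) hL ⌊5 / 3 * S.p * L ^ 3⌋₊) hβ hL.le
  have h4 := mul_le_mul_of_nonneg_left (Nat.floor_le (show 0 ≤ 5 / 3 * S.p * L ^ 3 by positivity))
    (show 0 ≤ S.a * S.p / 2 by positivity)
  have h5 := mul_le_mul_of_nonneg_left h1.le (show 0 ≤ S.ε * S.a * S.p ^ 2 by positivity)
  exact ⟨hL, by linarith⟩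

lemma Mix.exists_crit (h : S.Mix) : ∃ β ∈ Icc (7 / 8 : ℝ) (9 / 8), ∀ s e : ℝ, 0 < e →
    ∃ᶠ L : ℝ in atTop, ∃ P, St S.φ β L ⌊5 / 3 * S.p * L ^ 3⌋₊
      ((gl S.φ β (5 / 3 * S.p) - s * (5 / 3 * S.p)) * L ^ 3 + s * ⌊5 / 3 * S.p * L ^ 3⌋₊ - e * L ^ 3) P
        ∧ ∫ σ, S.S0 σ ∂P = (9 * S.m + 1) / 12 * S.p ^ 2 * L ^ 3 := by
  have hp := S.hp
  have ha := S.ha
  have hm := S.hm
  have hε := S.ε_le
  have hε0 := S.hε
  have hmε := S.mε
  have hε2 : S.ε ≤ 1 / 10 ^ 6 := by nlinarith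
  refine S.pot.exists_crit (by positivity) (measurable_Sq _ _) (fun n => n ^ 2 / (2 * S.l0 ^ 3))
    (fun σ => by rw [abs_of_nonneg (Sq_nonneg S.l0_pos 0 σ)]; exact Sq_le_card S.l0_pos 0 σ) ?_ ?_
  · filter_upwards [S.eventually_mean (β := 7 / 8) (by norm_num)] with L ⟨hL, h1⟩
    have h2 := h.le le_rfl (by norm_num) (1 / 4) (5 / 3) (by norm_num) (by norm_num) (by norm_num)
    have hX : 0 < S.a * S.p ^ 2 * L ^ 3 := by positivity
    refine le_of_mul_le_mul_left (h1.trans ?_) (show 0 < S.a * (1 - 7 / 8 * (1 + S.ε)) from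
      mul_pos (by linarith) (by linarith))
    have h3 := mul_le_mul_of_nonneg_right h2 (pow_pos hL 3).le
    have h4 := mul_le_mul_of_nonneg_right (show (1 / 4 + S.m * (17 / 12)) / 16 + 4 * S.ε ≤
      (1 - 7 / 8 * (1 + S.ε)) * ((9 * S.m + 1) / 12) by linarith) hX.le
    linarith
  · filter_upwards [S.eventually_mean (β := 9 / 8) (by norm_num)] with L ⟨hL, h1⟩
    have h2 := h.le (by norm_num) le_rfl 0 (5 / 3) (by norm_num) (by norm_num) (by norm_num)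
    have hX : 0 < S.a * S.p ^ 2 * L ^ 3 := by positivity
    refine le_of_mul_le_mul_left (a := S.a * (9 / 8 * (1 + S.ε) - 1)) ?_
      (mul_pos (by linarith) (by linarith))
    have h3 := mul_le_mul_of_nonneg_right h2 (pow_pos hL 3).le
    have h4 := mul_le_mul_of_nonneg_right (show (9 / 8 * (1 + S.ε) - 1) * ((9 * S.m + 1) / 12) ≤
      S.m * (5 / 3) / 16 - 4 * S.ε by linarith) hX.le
    unfold S0 at h1
    linarith

lemma le_of_levels (S : Sys) {x y C : ℝ} (h : ∀ k, x - C / vv S.v (k + 1) ≤ y) : x ≤ y := by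
  have := ((tendsto_const_nhds (x := C)).div_atTop
    ((tendsto_vv S.v2).comp (tendsto_add_atTop_nat 1))).const_sub x
  rw [sub_zero] at this
  exact le_of_tendsto' this h

/-- nearly optimal pure blocks exist at every scale -/
def Pure (S : Sys) (β Pi0 s u : ℝ) : Prop := ∀ k, ∀ v l : ℝ, v = vv S.v (k + 1) → l = v ^ 12 →
  ∃ n : ℕ, |n - u * (S.p * l ^ 3)| ≤ S.ζ * (S.p * l ^ 3) ∧
    ∀ β', 0 ≤ β' → β' ≤ β → (l + 3) ^ 3 * Pi0 + s * n - 3000 * S.m ^ 3 * S.a * S.p ^ 2 / v * l ^ 3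
      - (β - β') * (S.Eu u * l ^ 3) ≤ lz S.φ β' l n

lemma W_bounds (S : Sys) (k : ℕ) {l : ℝ} (hl : l = (vv S.v (k + 1) : ℝ) ^ 12) : 0 < l ∧
    l ^ 3 ≤ (l + 3) ^ 3 ∧ (l + 3) ^ 3 ≤ (l + 2 * S.l0) ^ 3 ∧
      (l + 2 * S.l0) ^ 3 ≤ (1 + S.ε) * l ^ 3 := by
  have h0 : 0 < l := S.l0_pos.trans_le (hl ▸ S.l0_le _)
  have h1 : (S.v : ℝ) ≤ S.l0 := le_self_pow₀ (by linarith [S.v_ge]) (by norm_num)
  exact ⟨h0, pow_le_pow_left₀ h0.le (by linarith) 3,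
    pow_le_pow_left₀ (by positivity) (by linarith [S.v_ge]) 3, S.W_le k hl⟩

lemma ε_le_ζ' (S : Sys) : 1000 * S.ε ≤ S.ζ := by
  have := one_le_pow₀ (n := 5) (show 1 ≤ S.m by linarith [S.hm])
  nlinarith [S.ε_le_ζ, S.hε]

lemma left_slope (S : Sys) {β Pi0 s u β' : ℝ} (hβ : 0 ≤ β) (ht : Tan S.φ β Pi0 s)
    (h1 : S.Pure β Pi0 s 1) (h2 : S.Pure β Pi0 s S.m) (hu1 : 3 / 2 ≤ u) (hu2 : u ≤ 7 / 4)
    (hβ1 : 0 < β') (hβ2 : β' < β) : gl S.φ β (u * S.p) -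
      S.a * S.p ^ 2 * (((1 + S.m) * u - S.m) / 2 + 1 / 32) * (β - β') ≤ gl S.φ β' (u * S.p) := by
  have hp := S.hp
  have ha := S.ha
  have hm := S.hm
  have hε := S.hε
  have hζ := S.ζ_le
  have hεζ := S.ε_le_ζ'
  have hρ : 0 < u * S.p := by positivity
  have d3 : u * (1 + S.ε) ≤ 15 / 8 := by linarith [mul_le_mul_of_nonneg_right hu2 hε.le]
  have e3 : 0 ≤ S.a * S.p ^ 2 * (((1 + S.m) * u - S.m) / 2 + 1 / 32) := mul_nonneg (by positivity)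
    (by linarith [mul_le_mul_of_nonneg_left hu1 (show 0 ≤ S.m by linarith)])
  refine S.le_of_levels (C := 3000 * S.m ^ 3 * S.a * S.p ^ 2) fun k => ?_
  obtain ⟨n1, a1, b1⟩ := h1 k _ _ rfl rfl
  obtain ⟨n2, a2, b2⟩ := h2 k _ _ rfl rfl
  obtain ⟨hl, w1, w2, w3⟩ := S.W_bounds k rfl
  have hv := vv_pos S.v2 (k + 1)
  generalize (vv S.v (k + 1) : ℝ) = v at *
  generalize v ^ 12 = l at *
  obtain ⟨s', ht'⟩ := (S.pot.thermo hβ1.le hρ).2
  have c1 := (b1 β' hβ1.le hβ2.le).trans (S.pot.lz_le_Tan hβ1.le ht' hl n1)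
  have c2 := (b2 β' hβ1.le hβ2.le).trans (S.pot.lz_le_Tan hβ1.le ht' hl n2)
  have hV := pow_pos hl 3
  have hy : 0 < S.p * l ^ 3 := by positivity
  have d1 := mul_le_mul_of_nonneg_left w1 hρ.le
  have d2 := mul_le_mul_of_nonneg_left (w2.trans w3) hρ.le
  rw [abs_le] at a1 a2
  obtain ⟨θ, t0, t1, t2⟩ := exists_weight (x := n1) (y := n2) (r := u * S.p * (l + 3) ^ 3)
    (by linarith [a1.2, mul_le_mul_of_nonneg_right (show 1 + S.ζ ≤ u by linarith) hy.le])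
    (by linarith [a2.1, mul_lt_mul_of_pos_right (show u * (1 + S.ε) < S.m - S.ζ by linarith) hy])
  have e0 := add_le_add (mul_le_mul_of_nonneg_left a1.1 (sub_nonneg.2 t1))
    (mul_le_mul_of_nonneg_left a2.1 t0)
  have e1 := left_arith hm S.ζ_pos S.mζ hε (by linarith) S.mε (u := u) (by linarith) (θ := θ)
    (le_of_mul_le_mul_right (by linarith) hy)
  have e2 : (1 - θ) * S.Eu 1 + θ * S.Eu S.m ≤
      S.a * S.p ^ 2 * (((1 + S.m) * u - S.m) / 2 + 1 / 32) := by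
    unfold Eu; linarith [mul_le_mul_of_nonneg_left e1 (show 0 ≤ S.a * S.p ^ 2 by positivity)]
  generalize S.a * S.p ^ 2 * (((1 + S.m) * u - S.m) / 2 + 1 / 32) = A at *
  have e4 : 0 ≤ 3000 * S.m ^ 3 * S.a * S.p ^ 2 / v := by positivity
  generalize 3000 * S.m ^ 3 * S.a * S.p ^ 2 / v = δ at *
  have f1 := mul_le_mul_of_nonneg_left c1 (sub_nonneg.2 t1)
  have f2 := mul_le_mul_of_nonneg_left c2 t0
  have f3 := mul_le_mul_of_nonneg_left (S.pot.gl_le_Tan hβ ht hρ) (hV.le.trans w1)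
  have f4 := mul_le_mul_of_nonneg_left e2 (mul_pos (sub_pos.2 hβ2) hV).le
  have f5 := mul_le_mul_of_nonneg_left w1 (add_nonneg e4 (mul_nonneg e3 (sub_pos.2 hβ2).le))
  refine le_of_mul_le_mul_left ?_ (hV.trans_le w1)
  have f6 : s * ((1 - θ) * n1 + θ * n2) = s * (u * S.p * (l + 3) ^ 3) := by rw [t2]
  have f7 : s' * ((1 - θ) * n1 + θ * n2) = s' * (u * S.p * (l + 3) ^ 3) := by rw [t2]
  linarith

lemma Mix.right_slope (h : S.Mix) {β Pi0 s u β' : ℝ} (hβ : 7 / 8 ≤ β) (hβ' : β ≤ 9 / 8)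
    (ht : Tan S.φ β Pi0 s) (h1 : S.Pure β Pi0 s 0) (h2 : S.Pure β Pi0 s S.m) (hu1 : 3 / 2 ≤ u)
    (hu2 : u ≤ 7 / 4) (hβ2 : β < β') : gl S.φ β (u * S.p) +
      S.a * S.p ^ 2 * (S.m * u / 2 - 1 / 32) * (β' - β) ≤ gl S.φ β' (u * S.p) := by
  have hp := S.hp
  have ha := S.ha
  have hm := S.hm
  have hε := S.hε
  have hζ := S.ζ_le
  have hζ0 := S.ζ_pos
  have hεζ := S.ε_le_ζ'
  have hρ : 0 < u * S.p := by positivity
  have hβ0 : 0 < β := by linarith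
  have d3 : u * (1 + S.ε) ≤ 15 / 8 := by linarith [mul_le_mul_of_nonneg_right hu2 hε.le]
  have d4 : 0 ≤ S.m * u - 6 * S.m * S.ζ := by
    linarith [mul_le_mul_of_nonneg_left hu1 (show 0 ≤ S.m by linarith), S.mζ]
  have d5 : 0 ≤ 1 - β / 2 * (1 + S.ε) := by linarith [mul_le_mul_of_nonneg_right hβ' hε.le]
  obtain ⟨lam, hlam, hl0⟩ : ∃ lam, β' - β = lam * (β / 2) ∧ 0 ≤ lam :=
    ⟨(β' - β) / (β / 2), by field_simp, div_nonneg (by linarith) (by linarith)⟩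
  refine S.le_of_levels (C := (1 + lam) * (3000 * S.m ^ 3 * S.a * S.p ^ 2)) fun k => ?_
  obtain ⟨n1, a1, b1⟩ := h1 k _ _ rfl rfl
  obtain ⟨n2, a2, b2⟩ := h2 k _ _ rfl rfl
  obtain ⟨hl, w1, w2, w3⟩ := S.W_bounds k rfl
  have hv := vv_pos S.v2 (k + 1)
  generalize (vv S.v (k + 1) : ℝ) = v at *
  generalize v ^ 12 = l at *
  obtain ⟨s', ht'⟩ := (S.pot.thermo (β := β') (by linarith) hρ).2
  have key : ∀ n : ℕ, (1 + lam) * lz S.φ β l n - lam * (S.a * S.p / 2 * n -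
      S.a * (1 - β / 2 * (1 + S.ε)) * (n ^ 2 / (2 * (l + 2 * S.l0) ^ 3)) +
      S.ε * S.a * S.p ^ 2 * (l + 2 * S.l0) ^ 3) ≤
      (l + 3) ^ 3 * (gl S.φ β' (u * S.p) - s' * (u * S.p)) + s' * n := fun n => by
    have c1 := (S.pot.convexOn_lz hl n).slope_mono_adjacent (x := β / 2) (y := β) (z := β')
      (show 0 < β / 2 by linarith) (show 0 < β' by linarith) (by linarith) hβ2
    rw [div_le_div_iff₀ (by linarith) (by linarith), hlam, show β - β / 2 = β / 2 by ring,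
      ← mul_assoc] at c1
    have c2 := le_of_mul_le_mul_right c1 (by linarith)
    linarith [S.pot.lz_le_Tan (by linarith) ht' hl n, mul_le_mul_of_nonneg_left
      (S.lz_le (β := β / 2) (by linarith) (by linarith) hl n) hl0]
  have c1 := mul_le_mul_of_nonneg_left (b1 β hβ0.le le_rfl) (show 0 ≤ 1 + lam by linarith)
  have c2 := mul_le_mul_of_nonneg_left (b2 β hβ0.le le_rfl) (show 0 ≤ 1 + lam by linarith)
  have hV := pow_pos hl 3
  have hy : 0 < S.p * l ^ 3 := by positivity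
  have d1 := mul_le_mul_of_nonneg_left w1 hρ.le
  have d2 := mul_le_mul_of_nonneg_left (w2.trans w3) hρ.le
  rw [abs_le] at a1 a2
  obtain ⟨θ, t0, t1, t2⟩ := exists_weight (x := n1) (y := n2) (r := u * S.p * (l + 3) ^ 3)
    (by linarith [a1.2, mul_le_mul_of_nonneg_right (show S.ζ ≤ u by linarith) hy.le])
    (by linarith [a2.1, mul_lt_mul_of_pos_right (show u * (1 + S.ε) < S.m - S.ζ by linarith) hy])
  obtain ⟨e1, e2⟩ := right_arith hm hζ0 S.mζ hε hεζ S.mε (by linarith) (by linarith : u ≤ 2) hβ hβ'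
  have hW := hV.trans_le w1
  have e3 : S.p ^ 2 * (S.m * u - 6 * S.m * S.ζ) / 2 * (l + 3) ^ 3 ≤
      (1 - θ) * (n1 ^ 2 / (2 * (l + 2 * S.l0) ^ 3)) + θ * (n2 ^ 2 / (2 * (l + 2 * S.l0) ^ 3)) := by
    refine le_add_of_nonneg_of_le (mul_nonneg (sub_nonneg.2 t1)
      (div_nonneg (sq_nonneg _) (by linarith))) ?_
    rw [← mul_div_assoc, le_div_iff₀ (by linarith)]
    have g1 : (u - S.ζ) * (S.p * l ^ 3) ≤ θ * n2 := by
      linarith [a1.2, mul_nonneg t0 (Nat.cast_nonneg n1)]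
    have g2 : (S.m - S.ζ) * (S.p * l ^ 3) ≤ n2 := by linarith [a2.1]
    have g3 := mul_le_mul g1 g2 (mul_nonneg (by linarith) hy.le) (by positivity)
    have g4 := mul_le_mul (w2.trans w3) w3 (by linarith) (by positivity)
    have g5 := mul_le_mul_of_nonneg_left g4 (mul_nonneg (sq_nonneg S.p) d4)
    have g6 := mul_le_mul_of_nonneg_right e1 (sq_nonneg (S.p * l ^ 3))
    linarith
  have e4 : (l + 2 * S.l0) ^ 3 ≤ 2 * (l + 3) ^ 3 := by
    linarith [mul_le_mul_of_nonneg_right S.ε_le hV.le]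
  have e5 := h.le hβ hβ' 0 u le_rfl (by linarith) (by linarith)
  have e6 : 0 ≤ 3000 * S.m ^ 3 * S.a * S.p ^ 2 / v := by positivity
  rw [mul_div_assoc (1 + lam)]
  generalize 3000 * S.m ^ 3 * S.a * S.p ^ 2 / v = δ at *
  have f1 := mul_le_mul_of_nonneg_left ((sub_le_sub_right c1 _).trans (key n1)) (sub_nonneg.2 t1)
  have f2 := mul_le_mul_of_nonneg_left ((sub_le_sub_right c2 _).trans (key n2)) t0
  have f3 := mul_le_mul_of_nonneg_left (S.pot.gl_le_Tan hβ0.le ht hρ)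
    (show 0 ≤ (1 + lam) * (l + 3) ^ 3 by positivity)
  have f4 := mul_le_mul_of_nonneg_left e3 (mul_nonneg hl0 (mul_nonneg S.a0 d5))
  have f5 := mul_le_mul_of_nonneg_left w1 (show 0 ≤ (1 + lam) * δ by positivity)
  have f6 := mul_le_mul_of_nonneg_left e4 (show 0 ≤ lam * (S.ε * S.a * S.p ^ 2) by positivity)
  have f7 := mul_le_mul_of_nonneg_left e5 (show 0 ≤ lam * (l + 3) ^ 3 by positivity)
  have f8 := mul_le_mul_of_nonneg_left e2
    (show 0 ≤ lam * (l + 3) ^ 3 * (S.a * S.p ^ 2) by positivity)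
  have f9 : ((1 + lam) * s - s' - lam * (S.a * S.p / 2)) * ((1 - θ) * n1 + θ * n2) =
    ((1 + lam) * s - s' - lam * (S.a * S.p / 2)) * (u * S.p * (l + 3) ^ 3) := by rw [t2]
  refine le_of_mul_le_mul_left ?_ hW
  rw [hlam]
  generalize (l + 3) ^ 3 = W at *
  generalize (l + 2 * S.l0) ^ 3 = W' at *
  generalize (n1 : ℝ) ^ 2 / (2 * W') = q1 at *
  generalize (n2 : ℝ) ^ 2 / (2 * W') = q2 at *
  linarith

theorem Mix.kink (h : S.Mix) : ∃ β ∈ Icc (7 / 8 : ℝ) (9 / 8), ∀ ρ : ℝ, 5 * S.p / 3 - S.p / 12 < ρ →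
    ρ < 5 * S.p / 3 + S.p / 12 → ∃ Dl Dr : ℝ,
      HasDerivWithinAt (fun β => -(1 / β) * gl S.φ β ρ) Dl (Set.Iio β) β ∧
      HasDerivWithinAt (fun β => -(1 / β) * gl S.φ β ρ) Dr (Set.Ioi β) β ∧ Dr < Dl := by
  obtain ⟨β, ⟨hβ, hβ'⟩, hst⟩ := h.exists_crit
  have hp := S.hp
  have ha := S.ha
  have hm := S.hm
  have hε := S.ε_le
  obtain ⟨s, ht⟩ := (S.pot.thermo (β := β) (by linarith) (show 0 < 5 / 3 * S.p by positivity)).2
  have hX : 0 < S.a * S.p ^ 2 := by positivity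
  have hmX := mul_le_mul_of_nonneg_right hm hX.le
  have hεX := mul_le_mul_of_nonneg_right hε hX.le
  have h1 := S.gl_le (β := β) (by linarith) hβ' (show 0 < 5 / 3 * S.p by positivity)
  have hs : -(30 * S.m * S.a * S.p) ≤ s := by
    have h2 := (h.le hβ hβ' 0 (11 / 6) le_rfl (by norm_num) (by norm_num)).trans
      (S.pot.gl_le_Tan (by linarith) ht (by positivity))
    have h3 := mul_le_mul_of_nonneg_right hβ (show 0 ≤ S.m * (S.a * S.p ^ 2) by positivity)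
    exact le_of_mul_le_mul_right (a := S.p) (by linarith) (by linarith)
  have hP : gl S.φ β (5 / 3 * S.p) - s * (5 / 3 * S.p) ≤ 54 * S.m * S.a * S.p ^ 2 := by
    linarith [mul_le_mul_of_nonneg_right hs (show 0 ≤ S.p by linarith)]
  have e : 5 * S.p / 3 = 5 / 3 * S.p := by ring
  have hζ := S.ζ_le
  have hg := h.le hβ hβ' (1 / 6) (5 / 3) (by norm_num) (by norm_num) (by norm_num)
  have pure : ∀ {u α b c}, Typ S.m S.ζ u α b c →
      S.Pure β (gl S.φ β (5 / 3 * S.p) - s * (5 / 3 * S.p)) s u := fun hty k v l hv hl =>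
    S.select hβ hβ' ht hs hP (by linarith) (by rw [e]; exact hst s) hty k hv hl
  have p0 := pure (typ0 hm S.ζ_pos (by linarith))
  have p1 := pure (typ1 hm S.ζ_pos (by linarith))
  have p2 := pure (typ2 hm S.ζ_pos (by linarith))
  refine ⟨β, ⟨hβ, hβ'⟩, fun ρ h2 h3 => ?_⟩
  obtain ⟨u, rfl⟩ : ∃ u, ρ = u * S.p := ⟨ρ / S.p, by field_simp⟩
  have hu1 : 3 / 2 ≤ u := le_of_mul_le_mul_right (a := S.p) (by linarith) (by linarith)
  have hu2 : u ≤ 7 / 4 := le_of_mul_le_mul_right (a := S.p) (by linarith) (by linarith)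
  exact S.pot.kink (by positivity) (by linarith) (mul_lt_mul_of_pos_left (by linarith) hX)
    (fun β' a b => S.left_slope (by linarith) ht p1 p2 hu1 hu2 a b)
    fun β' a => h.right_slope hβ hβ' ht p0 p2 hu1 hu2 a

end Sys

end Crest.Agent.H5.Gas
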