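import Mathlib
import Crest.Agent.H5.Gas.Main

/-! Trial states. -/

set_option autoImplicit false

namespace Crest.Agent.H5.Gas

open MeasureTheory Set Function Filter
open Crest.ProbabilityR.Continuum
open scoped ENNReal Topology

lemma cluster_lower {φ0 : ℝ → ℝ} (hφ : Measurable φ0) {δ τ τ0 : ℝ} (hδ : 0 < δ) (hτ0 : 0 < τ0)
    (hτ1 : τ0 ≤ 1) (hδτ : δ ≤ τ / 2)
    (h0 : ∀ r, δ * (1 / 2 + τ0) ≤ r → r ≤ δ * (1 - τ0) → φ0 r = 0) {k : ℕ} (ht : Tmpl k τ0)
    (β : ℝ) (z : Pt) : ENNReal.ofReal (4 * τ ^ 3 * (δ ^ 3 * τ0 ^ 3 / 2) ^ k / (k + 1).factorial) ≤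
      Zf (Metric.ball z (2 * τ)) (k + 1) fun σ => ex (-β * en φ0 σ) := by
  obtain ⟨u, hu0, hu⟩ := ht
  have hm : Measurable fun σ : Multiset Pt => ex (-β * en φ0 σ) :=
    measurable_ex.comp ((measurable_en hφ).const_mul _)
  have hτ : 0 < τ := by linarith
  rw [ENNReal.ofReal_div_of_pos (by positivity), ENNReal.ofReal_natCast, ENNReal.div_eq_inv_mul,
    Zf, lintegral_mJ_succ _ _ hm]
  refine mul_le_mul_right (le_trans ?_ (lintegral_mono_set
    (Metric.ball_subset_ball (show τ ≤ 2 * τ by linarith)))) _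
  rw [mul_comm, ENNReal.ofReal_mul (by positivity)]
  refine (mul_le_mul_right (volume_ball_ge z hτ.le) _).trans ?_
  rw [← setLIntegral_const]
  refine setLIntegral_mono' Metric.isOpen_ball.measurableSet fun y hy => ?_
  rw [lintegral_mJ _ _ (F := fun s => ex (-β * en φ0 (y ::ₘ s))) (hm.comp (measurable_cons y))]
  set A : Fin k → Set Pt := fun i => Metric.ball (y + δ • u i.succ) (δ * τ0 / 2) with hA
  have hAm : MeasurableSet (Set.pi univ A) :=
    MeasurableSet.univ_pi fun _ => Metric.isOpen_ball.measurableSet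
  refine le_trans ?_ (lintegral_mono (f := (Set.pi univ A).indicator 1) fun x => ?_)
  · rw [lintegral_indicator_one hAm, Measure.pi_pi, ENNReal.ofReal_pow (by positivity),
      ← Fin.prod_const]
    refine Finset.prod_le_prod' fun i _ => ?_
    rw [Measure.restrict_apply Metric.isOpen_ball.measurableSet, inter_eq_left.2]
    · exact le_of_eq_of_le (by congr 1; ring) (volume_ball_ge _ (by positivity))
    · refine Metric.ball_subset_ball' ?_
      have h1 := (hu _ _ (Fin.succ_ne_zero i)).2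
      have h2 := dist_triangle (y + δ • u i.succ) y z
      rw [hu0, dist_zero_right] at h1
      rw [dist_self_add_left, norm_smul, Real.norm_of_nonneg hδ.le] at h2
      have h3 := mul_le_mul_of_nonneg_left h1 hδ.le
      have h4 := mul_le_mul_of_nonneg_left hτ1 hδ.le
      have h5 := mul_pos hδ hτ0
      linarith [Metric.mem_ball.1 hy]
  · by_cases hx : x ∈ Set.pi univ A
    · rw [indicator_of_mem hx, ← cfg_cons, ← energy_eq, energy, Finset.sum_eq_zero]
      · simp
      have key : ∀ i, dist ((Fin.cons y x : Fin (k + 1) → Pt) i) (y + δ • u i) ≤ δ * τ0 / 2 := by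
        intro i
        refine Fin.cases ?_ (fun i => ?_) i
        · simp [hu0]; positivity
        · exact le_of_lt (hx i trivial)
      rintro ⟨⟨i, j⟩, hij⟩ -
      have h1 := hu i j (ne_of_lt hij)
      have h2 := Real.dist_eq _ _ ▸ dist_dist_dist_le ((Fin.cons y x : Fin (k + 1) → Pt) i)
        ((Fin.cons y x : Fin (k + 1) → Pt) j) (y + δ • u i) (y + δ • u j)
      rw [dist_add_left, dist_smul₀, Real.norm_of_nonneg hδ.le, abs_le] at h2
      have h3 := mul_le_mul_of_nonneg_left h1.1 hδ.le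
      have h4 := mul_le_mul_of_nonneg_left h1.2 hδ.le
      exact h0 _ (by linarith [key i, key j, h2.1]) (by linarith [key i, key j, h2.2])
    · rw [indicator_of_notMem hx]; exact zero_le

lemma one_le_dist_periodic {L : ℝ} (hL : 0 ≤ L) {S : Finset Pt} (h1 : ∀ x ∈ S, x ∈ cube L)
    (h2 : ∀ x ∈ S, ∀ y ∈ S, x ≠ y → 1 ≤ dist x y) {p p' : Z3 × Pt} (hp : p.2 ∈ S) (hp' : p'.2 ∈ S)
    (hne : p ≠ p') : 1 ≤ dist (p.2 + vec fun a => (L + 1) * p.1 a + 1 / 2)
      (p'.2 + vec fun a => (L + 1) * p'.1 a + 1 / 2) := by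
  obtain ⟨b, x⟩ := p
  obtain ⟨b', y⟩ := p'
  by_cases hb : b = b'
  · subst hb
    simp only [dist_add_right]
    exact h2 x hp y hp' fun e => hne (by rw [e])
  · obtain ⟨a, ha⟩ := Function.ne_iff.1 hb
    refine le_trans ?_ (abs_sub_le_dist _ _ a)
    have h3 := h1 x hp a
    have h4 := h1 y hp' a
    simp only [PiLp.add_apply, vec_apply]
    rcases lt_or_gt_of_ne ha with h | h
    · have : (b a : ℝ) + 1 ≤ b' a := by exact_mod_cast h
      exact le_abs.2 (Or.inr (by nlinarith))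
    · have : (b' a : ℝ) + 1 ≤ b a := by exact_mod_cast h
      exact le_abs.2 (Or.inl (by nlinarith))

namespace Sys

variable (S : Sys)

lemma trial_lower {β τ L l C R : ℝ} (hβ : 0 ≤ β) (hτ : 0 < τ) (hτ1 : τ ≤ 1 / 8) (hL : 0 ≤ L)
    (hl : l = (1 + 5 * τ) * (L + 1)) (hR : R = S.v ^ 16) (hlR : 1000 * l ≤ R)
    (hφ : ∀ r, 1 + τ ≤ r → S.φ0 r = 0) {j : ℕ}
    (hcl : ∀ z, ex (-C) ≤ Zf (Metric.ball z (2 * τ)) j fun σ => ex (-β * en S.φ0 σ)) (q : ℕ) :
    ex (-(q ^ 3 * packingNumber L * C) + β * S.a * ((1 - 1000 * l / R) *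
      (q ^ 3 * ((j * packingNumber L) ^ 2 / (2 * l ^ 3))) -
      6 * R * q ^ 2 * (j * packingNumber L) ^ 2 / l ^ 4 - 2 * (q ^ 3 * (j * packingNumber L)) / R ^ 3))
      ≤ Z S.φ β (q * l) (q ^ 3 * (j * packingNumber L)) := by
  classical
  obtain ⟨U, hU, h1, h2⟩ := packingNumber_mem hL
  have hl0 : 0 < l := by rw [hl]; positivity
  set c : Z3 × Pt → Pt := fun p => (1 + 5 * τ) • (p.2 + vec fun a => (L + 1) * p.1 a + 1 / 2)
    with hc
  have hsep : ∀ p ∈ bx q ×ˢ U, ∀ p' ∈ bx q ×ˢ U, p ≠ p' → ∀ x ∈ Metric.ball (c p) (2 * τ),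
      ∀ y ∈ Metric.ball (c p') (2 * τ), 1 + τ ≤ dist x y := fun p hp p' hp' hne x hx y hy => by
    have h3 := mul_le_mul_of_nonneg_left (one_le_dist_periodic hL h1 h2
      (Finset.mem_product.1 hp).2 (Finset.mem_product.1 hp').2 hne) (show 0 ≤ 1 + 5 * τ by positivity)
    have h4 := dist_triangle4 (c p) x y (c p')
    simp only [hc] at h4 hx hy
    rw [dist_smul₀, Real.norm_of_nonneg (by positivity), dist_comm _ x] at h4
    linarith [Metric.mem_ball.1 hx, Metric.mem_ball.1 hy]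
  have hblk : ∀ p ∈ bx q ×ˢ U, ∀ x ∈ Metric.ball (c p) (2 * τ), blk l 0 x = p.1 :=
    fun p hp x hx => (blk_eq_iff hl0 0 x _).2 fun a => by
      have h3 := abs_lt.1 ((abs_sub_le_dist x (c p) a).trans_lt hx)
      have h4 := h1 _ (Finset.mem_product.1 hp).2 a
      have h5 := mul_le_mul_of_nonneg_left h4.1 (show 0 ≤ 1 + 5 * τ by positivity)
      have h6 := mul_le_mul_of_nonneg_left h4.2 (show 0 ≤ 1 + 5 * τ by positivity)
      simp only [hc, PiLp.smul_apply, PiLp.add_apply, vec_apply, smul_eq_mul] at h3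
      rw [hl]
      constructor <;> linarith [h3.1, h3.2]
  set K := (1 - 1000 * l / R) * (q ^ 3 * ((j * packingNumber L) ^ 2 / (2 * l ^ 3))) -
      6 * R * q ^ 2 * (j * packingNumber L) ^ 2 / l ^ 4 - 2 * (q ^ 3 * (j * packingNumber L)) / R ^ 3
    with hK
  have h3 := prod_le_Zf (bx q ×ˢ U) (fun p => Metric.ball (c p) (2 * τ))
    (fun _ => Metric.isOpen_ball.measurableSet) (fun p hp p' hp' hne =>
      Set.disjoint_left.2 fun x hx hx' => by
        have := hsep p hp p' hp' hne x hx x hx'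
        rw [dist_self] at this; linarith) (Λ := cube (q * l)) (fun p hp x hx a => by
      have h4 := (blk_eq_iff hl0 0 x _).1 (hblk p hp x hx) a
      have h5 := mem_bx.1 (Finset.mem_product.1 hp).1 a
      have h6 : (0 : ℝ) ≤ p.1 a := by exact_mod_cast h5.1
      have h7 : (p.1 a : ℝ) + 1 ≤ q := by exact_mod_cast h5.2
      constructor <;> nlinarith [h4.1, h4.2]) (fun _ => j) (fun _ σ => ex (-β * en S.φ0 σ))
    (fun _ => measurable_ex.comp ((measurable_en S.meas).const_mul _))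
    ((S.pot.measurable_ex β).const_mul (ex (-(β * S.a * K)))) fun σ g hg hj => by
      have hσ : ∀ x ∈ σ, blk l 0 x ∈ bx q := fun x hx => by
        rw [hblk _ (hg x hx).1 x (hg x hx).2]; exact (Finset.mem_product.1 (hg x hx).1).1
      have hcnt : ∀ b ∈ bx q, ((part (blk l 0) b σ).card : ℝ) = j * packingNumber L := fun b hb => by
        have e1 := sum_map_part' _ hσ fun b' => if b' = b then 1 else 0
        have e2 := sum_map_part' g (fun x hx => (hg x hx).1) fun p => if p.1 = b then 1 else 0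
        rw [Multiset.map_congr rfl fun x hx => by rw [hblk _ (hg x hx).1 x (hg x hx).2], e2,
          Finset.sum_congr rfl fun p hp => by rw [hj p hp], Finset.sum_product] at e1
        simpa [hb, hU, mul_comm] using e1.symm
      have e1 := le_en_JR hl0 (R := R) (by linarith) ((div_le_one (by linarith)).2 hlR) hσ
        (K := j * packingNumber L) (fun b hb => (hcnt b hb).le) fun b hb b' hb' _ => by
          exact_mod_cast ((hcnt b hb).trans (hcnt b' hb').symm).le
      rw [Sq_eq hσ, ← card_part _ hσ, Nat.cast_sum, Finset.sum_congr rfl hcnt,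
        Finset.sum_congr rfl fun b hb => by rw [hcnt b hb]] at e1
      simp only [Finset.sum_const, card_bx, nsmul_eq_mul, Nat.cast_pow, ← hK] at e1
      have e2 := en_mono (f := fun r => S.a * JR R r) (g := psi S.a S.v 0) (fun r _ => by
        rw [psi_succ S.a0 S.v2, hR]
        exact le_add_of_le_of_nonneg (by simp [tm, tk]) (psi_nonneg S.a0 S.v2 _ _)) σ
      rw [en_mul] at e2
      have e3 := crs_nonpos g (f := S.φ0) (σ := σ) fun x hx y hy hne =>
        (hφ _ (hsep _ (hg x hx).1 _ (hg y hy).1 hne x (hg x hx).2 y (hg y hy).2)).le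
      rw [← ex_sum, ← ex_add, ← Finset.mul_sum, en_φ, en_eq_sum_part g fun x hx => (hg x hx).1]
      exact ex_mono (by linarith [mul_le_mul_of_nonneg_left e1 (mul_nonneg hβ S.a0),
        mul_le_mul_of_nonneg_left e2 hβ, mul_le_mul_of_nonneg_left e3 hβ])
  have h4 := (Finset.prod_le_prod' fun p (_ : p ∈ bx q ×ˢ U) => hcl (c p)).trans h3
  rw [Zf_const_mul _ _ _ (S.pot.measurable_ex β), Finset.prod_const, ex_pow, Finset.sum_const,
    Finset.card_product, card_bx, hU, smul_eq_mul, mul_assoc (q ^ 3), mul_comm _ j] at h4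
  rw [add_comm, ex_add]
  refine (mul_le_mul_right (le_of_eq_of_le (by congr 1; push_cast; ring) h4) _).trans ?_
  rw [← mul_assoc, ← ex_add, add_neg_cancel, ex_zero, one_mul]
  exact le_rfl

lemma trial_tan {β τ L l C R P s : ℝ} (hβ : 0 ≤ β) (hτ : 0 < τ) (hτ1 : τ ≤ 1 / 8) (hL : 0 ≤ L)
    (hl : l = (1 + 5 * τ) * (L + 1)) (hR : R = S.v ^ 16) (hlR : 1000 * l ≤ R)
    (hφ : ∀ r, 1 + τ ≤ r → S.φ0 r = 0) {j : ℕ}
    (hcl : ∀ z, ex (-C) ≤ Zf (Metric.ball z (2 * τ)) j fun σ => ex (-β * en S.φ0 σ))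
    (ht : Tan S.φ β P s) : -(packingNumber L * C) + β * S.a * ((1 - 1000 * l / R) *
      ((j * packingNumber L) ^ 2 / (2 * l ^ 3)) - 2 * (j * packingNumber L) / R ^ 3) ≤
      l ^ 3 * P + s * (j * packingNumber L) := by
  have hl0 : 0 < l := by rw [hl]; positivity
  have h0 := tendsto_one_div_atTop_nhds_zero_nat (𝕜 := ℝ)
  have t1 := (((h0.const_mul (6 * R * (j * packingNumber L) ^ 2 / l ^ 4)).const_sub
    ((1 - 1000 * l / R) * ((j * packingNumber L) ^ 2 / (2 * l ^ 3)) -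
      2 * (j * packingNumber L) / R ^ 3)).const_mul (β * S.a)).const_add (-(packingNumber L * C))
  have t2 := ((((h0.const_mul 3).const_add l).pow 3).mul_const P).add_const
    (s * (j * packingNumber L))
  simp only [mul_zero, sub_zero, add_zero] at t1 t2
  refine le_of_tendsto_of_tendsto t1 t2 ((eventually_gt_atTop 0).mono fun q hq => ?_)
  have hq' : (0 : ℝ) < q := by exact_mod_cast hq
  have h1 := ex_le_ex.1 ((S.trial_lower hβ hτ hτ1 hL hl hR hlR hφ hcl q).trans
    (ht _ (by positivity) _))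
  refine le_of_mul_le_mul_left (le_of_eq_of_le ?_ (h1.trans (le_of_eq ?_))) (pow_pos hq' 3)
  · field_simp; ring
  · push_cast; field_simp

theorem mix_of {τ L l C : ℝ} {k : ℕ} (hm : S.m = k + 1) (hτ : 0 < τ) (hτ1 : τ ≤ 1 / 8) (hL : 0 ≤ L)
    (hl : l = (1 + 5 * τ) * (L + 1)) (hlv : 4000 * S.m ^ 2 * l ≤ S.ε * S.v)
    (hφ : ∀ r, 1 + τ ≤ r → S.φ0 r = 0)
    (hα : (1 - S.ε / (4 * S.m ^ 2)) * S.p * l ^ 3 ≤ packingNumber L) (hC : 3 * C ≤ S.ε * S.a * S.p)
    (h1 : ∀ β z, ex (-C) ≤ Zf (Metric.ball z (2 * τ)) 1 fun σ => ex (-β * en S.φ0 σ))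
    (h2 : ∀ β z, ex (-(S.a * S.p * S.m / 2 * k + C)) ≤
      Zf (Metric.ball z (2 * τ)) (k + 1) fun σ => ex (-β * en S.φ0 σ)) : S.Mix := by
  intro β hβ hβ' w1 w2 hw1 hw2 hw hw0
  have hp := S.hp
  have ha := S.ha
  have hm2 := S.hm
  have hε := S.hε
  have hε1 := S.ε_le
  have hv := S.v_ge
  have hl0 : 0 < l := by rw [hl]; positivity
  have hV := pow_pos hl0 3
  set e := S.ε / (4 * S.m ^ 2) with he
  have he0 : 0 < e := by positivity
  have he1 : e * S.m ^ 2 = S.ε / 4 := by rw [he]; field_simp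
  have hm1 : 1 ≤ S.m ^ 2 := one_le_pow₀ (by linarith)
  have he2 : e ≤ S.ε / 4 := by linarith [mul_le_mul_of_nonneg_left hm1 he0.le]
  have hvR : (S.v : ℝ) ≤ S.v ^ 16 := le_self_pow₀ (by linarith) (by norm_num)
  generalize hR : (S.v : ℝ) ^ 16 = R at hvR
  have hR0 : 0 < R := by linarith
  have hlR : 1000 * l / R ≤ e := by
    rw [he, div_le_div_iff₀ hR0 (by positivity)]
    linarith [mul_le_mul_of_nonneg_left hvR hε.le]
  have hR3 : S.m / R ^ 3 ≤ S.ε / 7 := by
    rw [div_le_div_iff₀ (by positivity) (by norm_num)]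
    linarith [S.hv, mul_le_mul_of_nonneg_left (hvR.trans (le_self_pow₀ (by linarith)
      three_ne_zero)) hε.le, mul_le_mul_of_nonneg_left ha (show 0 ≤ S.m by linarith)]
  obtain ⟨s, ht⟩ := (S.pot.thermo (β := β) (by linarith)
    (show 0 < (w1 + S.m * w2) * S.p by positivity)).2
  have hP := S.pot.Tan_nonneg ht
  have hlR' : 1000 * l ≤ R := (div_le_one hR0).1 (by linarith)
  have a1 := S.trial_tan (by linarith) hτ hτ1 hL hl hR.symm hlR' hφ (h1 β) ht
  have a2 := S.trial_tan (by linarith) hτ hτ1 hL hl hR.symm hlR' hφ (h2 β) ht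
  push_cast at a1 a2
  rw [← hm] at a2
  rw [show (k : ℝ) = S.m - 1 by linarith] at a2
  obtain ⟨κ, hκ⟩ : ∃ κ, (packingNumber L : ℝ) = κ * S.p * l ^ 3 :=
    ⟨packingNumber L / (S.p * l ^ 3), by field_simp⟩
  rw [hκ] at hα a1 a2
  have hκ1 : 1 - e ≤ κ := le_of_mul_le_mul_right (a := S.p * l ^ 3) (by linarith) (by positivity)
  have hκ0 : 0 < κ := by linarith
  generalize gl S.φ β ((w1 + S.m * w2) * S.p) = g at *
  have key : ∀ j : ℝ, 0 ≤ j → j ≤ S.m → κ * l ^ 3 * (S.a * S.p ^ 2) * (β * j ^ 2 / 2 - 2 / 3 * S.ε) ≤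
      β * S.a * ((1 - 1000 * l / R) * ((j * (κ * S.p * l ^ 3)) ^ 2 / (2 * l ^ 3)) -
        2 * (j * (κ * S.p * l ^ 3)) / R ^ 3) := fun j hj hj' => by
    have b1 : 1 - 2 * e ≤ (1 - 1000 * l / R) * κ :=
      le_trans (by nlinarith) (mul_le_mul (sub_le_sub_left hlR 1) hκ1 (by linarith)
        (sub_nonneg.2 (by linarith)))
    have b2 : β * (e * j ^ 2) ≤ 9 / 8 * (e * S.m ^ 2) := by gcongr
    have b3 : β * (j / R ^ 3 / S.p) ≤ 9 / 8 * (S.m / R ^ 3) := by
      exact mul_le_mul hβ' ((div_le_self (div_nonneg hj (by positivity)) hp).trans (by gcongr))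
        (by positivity) (by norm_num)
    have b4 := mul_le_mul_of_nonneg_left b1 (show 0 ≤ β * j ^ 2 / 2 by positivity)
    calc _ ≤ κ * l ^ 3 * (S.a * S.p ^ 2) * (β * j ^ 2 / 2 * ((1 - 1000 * l / R) * κ) -
          2 * (β * (j / R ^ 3 / S.p))) := mul_le_mul_of_nonneg_left (by linarith) (by positivity)
      _ = _ := by field_simp
  have c1 := mul_le_mul_of_nonneg_left ((add_le_add le_rfl (key 1 zero_le_one (by linarith))).trans
    a1) hw1
  have c2 := mul_le_mul_of_nonneg_left ((add_le_add le_rfl (key S.m (by linarith) le_rfl)).trans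
    a2) hw2
  have c3 := mul_le_mul_of_nonneg_right (show w1 + w2 ≤ κ by linarith) (mul_nonneg hV.le hP)
  have c4 := mul_le_mul_of_nonneg_left hC (show 0 ≤ (w1 + w2) * (κ * S.p * l ^ 3) by positivity)
  have c5 := mul_le_mul_of_nonneg_right (show w1 + w2 ≤ 1 by linarith)
    (show 0 ≤ κ * l ^ 3 * (S.a * S.p ^ 2) * S.ε by positivity)
  refine le_of_mul_le_mul_left (a := κ * l ^ 3) ?_ (by positivity)
  linarith

end Sys

end Crest.Agent.H5.Gas
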