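import Mathlib
import Crest.Agent.H5.Gas.Trial

/-! Choice of the parameters. -/

set_option autoImplicit false

namespace Crest.Agent.H5.Gas

open MeasureTheory Set Function Filter
open Crest.ProbabilityR.Continuum
open scoped ENNReal Topology

lemma superstable {δ M l0 : ℝ} {φ0 : ℝ → ℝ} (hδ : 0 < δ) (hl : δ / 4 ≤ l0) (hM : 0 ≤ M)
    (hφM : ∀ r, 0 ≤ r → M * ind (bad δ) r ≤ φ0 r) (σ : Multiset Pt) :
    M * ((δ / 4) ^ 3 / 27 * Sq l0 0 σ - σ.card / 2) ≤ en φ0 σ := by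
  have h1 := en_mono hφM σ
  rw [en_mul] at h1
  have h2 := mul_le_mul_of_nonneg_left (Sq_le_27 (by positivity) hl 0 σ)
    (show 0 ≤ (δ / 4) ^ 3 / 27 by positivity)
  exact (mul_le_mul_of_nonneg_left (by linarith [le_en_bad hδ σ]) hM).trans h1

theorem exists_params : ∃ p, 1 ≤ p ∧
    Tendsto (fun L : ℝ => (packingNumber L : ℝ) / L ^ 3) atTop (𝓝 p) ∧
    ∃ δ M τ τ0 : ℝ, 0 < δ ∧ δ ≤ 1 ∧ 0 ≤ M ∧ 0 < τ ∧ τ ≤ 1 ∧ 0 < τ0 ∧ τ0 ≤ 1 / 8 ∧
      ∀ φ0 : ℝ → ℝ, Measurable φ0 → (∀ r, 0 ≤ φ0 r) → (∀ r ∈ bad δ, M ≤ φ0 r) →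
        (∀ r, δ * (1 / 2 + τ0) ≤ r → r ≤ δ * (1 - τ0) → φ0 r = 0) → (∀ r, 1 + τ ≤ r → φ0 r = 0) →
        ∃ S : Sys, S.φ0 = φ0 ∧ S.p = p ∧ S.Mix := by
  obtain ⟨p, hp, hlim⟩ := exists_packing_density
  obtain ⟨k, hk, ⟨τ0, hτ0, hτ01, htm⟩, hmax⟩ := exists_cluster
  obtain ⟨m, hm⟩ : ∃ m : ℝ, m = k + 1 := ⟨_, rfl⟩
  have hm2 : 2 ≤ m := by
    have : (1 : ℝ) ≤ k := by exact_mod_cast hk
    linarith
  obtain ⟨ε, hε, hε1⟩ : ∃ ε : ℝ, 0 < ε ∧ 10 ^ 9 * m ^ 7 * ε ≤ 1 :=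
    ⟨1 / (10 ^ 9 * m ^ 7), by positivity, le_of_eq (by field_simp)⟩
  have hε2 : ε ≤ 1 := by nlinarith [one_le_pow₀ (n := 7) (show 1 ≤ m by linarith)]
  obtain ⟨e, he, he0, he1⟩ : ∃ e : ℝ, e = ε / (4 * m ^ 2) ∧ 0 < e ∧ e ≤ 1 :=
    ⟨_, rfl, by positivity, (div_le_self hε.le (by nlinarith)).trans hε2⟩
  have he2 : e * m ^ 2 = ε / 4 := by rw [he]; field_simp
  obtain ⟨τ, hτ, hτ1, hτ2⟩ : ∃ τ : ℝ, 0 < τ ∧ τ ≤ 1 / 8 ∧ (1 - e) * (1 + 5 * τ) ^ 3 < 1 :=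
    ⟨e / 100, by positivity, by linarith, by nlinarith [mul_pos he0 he0, pow_pos he0 3, pow_pos he0 4]⟩
  obtain ⟨L, hL, hα⟩ : ∃ L : ℝ, 0 < L ∧
      (1 - e) * p * ((1 + 5 * τ) * (L + 1)) ^ 3 ≤ packingNumber L := by
    obtain ⟨L, h1, h2⟩ := ((eventually_gt_atTop 0).and ((hlim.sub ((tendsto_add_cube 1).const_mul
      ((1 - e) * (1 + 5 * τ) ^ 3 * p))).eventually_const_lt (u := 0) (by nlinarith))).exists
    rw [← mul_div_assoc, ← sub_div, lt_div_iff₀ (pow_pos h1 3)] at h2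
    exact ⟨L, h1, by rw [mul_pow]; linarith⟩
  obtain ⟨l2, hl2⟩ := eventually_atTop.1 (hlim.eventually_lt_const (u := p + e / 4) (by linarith))
  have hc0 : 0 < 4 * τ ^ 3 * (τ0 ^ 3 / 16) ^ k / (k + 1).factorial := by positivity
  obtain ⟨C, hC⟩ : ∃ C, ex (-C) =
      ENNReal.ofReal (4 * τ ^ 3 * (τ0 ^ 3 / 16) ^ k / (k + 1).factorial) :=
    ⟨-Real.log _, by rw [neg_neg, ex_log hc0]⟩
  obtain ⟨a, ha, ha1, ha2, ha3⟩ : ∃ a : ℝ, 1 ≤ a ∧ 10 * m ≤ ε * a ∧ 3 * |C| ≤ ε * a ∧ 3 ≤ τ * a := by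
    refine ⟨1 + (10 * m + 3 * |C|) / ε + 3 / τ, ?_, ?_, ?_, ?_⟩
    · have : 0 ≤ (10 * m + 3 * |C|) / ε + 3 / τ := by positivity
      linarith
    all_goals simp only [mul_add, mul_div_cancel₀ _ hε.ne', mul_div_cancel₀ _ hτ.ne']
    · have : 0 ≤ ε * (3 / τ) + 3 * |C| := by positivity
      linarith
    · have : 0 ≤ ε * (3 / τ) + 10 * m := by positivity
      linarith
    · have : 0 ≤ τ * ((10 * m + 3 * |C|) / ε) := by positivity
      linarith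
  have hap : a ≤ a * p := le_mul_of_one_le_right (by linarith) hp
  have hT : a ≤ a * p * m / 2 := by nlinarith
  obtain ⟨δ, hδ, hδ1, hδ2⟩ : ∃ δ : ℝ, 0 < δ ∧ δ ≤ τ / 2 ∧
      δ ^ 3 = Real.exp (-(a * p * m / 2)) / 8 := by
    refine ⟨Real.exp (-(a * p * m / 2) / 3) / 2, by positivity, ?_, ?_⟩
    · gcongr
      rw [neg_div, Real.exp_neg, inv_le_iff_one_le_mul₀ (Real.exp_pos _)]
      nlinarith [Real.add_one_le_exp (a * p * m / 2 / 3)]
    · rw [div_pow, ← Real.exp_nat_mul]; norm_num; congr 1; ring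
  obtain ⟨c, hc, hc0, hc1⟩ : ∃ c, c = (δ / 4) ^ 3 / 27 ∧ 0 < c ∧ c ≤ 1 := ⟨_, rfl, by positivity, by
    linarith [pow_le_one₀ (n := 3) (show 0 ≤ δ / 4 by positivity) (by linarith)]⟩
  obtain ⟨M, hM0, hM1, hM2, hM3⟩ : ∃ M : ℝ, 0 ≤ M ∧ 112 * a ≤ M * c ∧ 128 * m * a * p ≤ M ∧
      4 * (a * p * m / 2 + a * (2 * (3456 / δ ^ 3) + 2 * m) + 2) ≤ M := by
    have h1 : 0 ≤ 112 * a / c := by positivity
    have h2 : 0 ≤ 128 * m * a * p := by positivity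
    have h3 : 0 ≤ 4 * (a * p * m / 2 + a * (2 * (3456 / δ ^ 3) + 2 * m) + 2) := by positivity
    refine ⟨112 * a / c + (128 * m * a * p + 4 * (a * p * m / 2 + a * (2 * (3456 / δ ^ 3) + 2 * m)
      + 2)), by linarith, ?_, by linarith, by linarith⟩
    rw [add_mul, div_mul_cancel₀ _ hc0.ne']
    exact le_add_of_nonneg_right (by positivity)
  obtain ⟨v, hv1, hv2, hv3, hv4⟩ : ∃ v : ℕ, 108 / c ≤ v ∧ 10 ^ 6 * m * a ≤ ε * v ∧
      4000 * m ^ 2 * ((1 + 5 * τ) * (L + 1)) ≤ ε * v ∧ l2 ≤ v := by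
    obtain ⟨v, hv⟩ := exists_nat_ge (108 / c + 10 ^ 6 * m * a / ε +
      4000 * m ^ 2 * ((1 + 5 * τ) * (L + 1)) / ε + |l2|)
    have h1 : 0 ≤ 108 / c := by positivity
    have h2 : 0 ≤ 10 ^ 6 * m * a / ε := by positivity
    have h3 : 0 ≤ 4000 * m ^ 2 * ((1 + 5 * τ) * (L + 1)) / ε := by positivity
    have h4 := abs_nonneg l2
    exact ⟨v, by linarith, (div_le_iff₀' hε).1 (by linarith), (div_le_iff₀' hε).1 (by linarith),
      by linarith [le_abs_self l2]⟩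
  have hρ : 1 ≤ 108 / c := by rw [le_div_iff₀ hc0]; linarith
  have hv5 : (v : ℝ) ≤ v ^ 12 := le_self_pow₀ (by linarith) (by norm_num)
  refine ⟨p, hp, hlim, δ, M, τ, τ0, hδ, by linarith, hM0, hτ, by linarith, hτ0, hτ01,
    fun φ0 h1 h2 h3 h4 h5 => ?_⟩
  have hφM : ∀ r, 0 ≤ r → M * ind (bad δ) r ≤ φ0 r := fun r _ => by
    by_cases h : r ∈ bad δ
    · rw [ind_of_mem h, mul_one]; exact h3 r h
    · rw [ind_of_notMem h, mul_zero]; exact h2 r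
  have hss := superstable (l0 := v ^ 12) hδ (by linarith) hM0 hφM
  rw [← hc] at hss
  have hS0 := Sq_nonneg (l := (v : ℝ) ^ 12) (by linarith) 0
  refine ⟨⟨p, m, a, ε, 108 / c, M / 2, v, φ0, hp, hm2, ha, hε, hε1, hρ, hv1, hv2, h1, h2,
    fun r hr => h5 r (by linarith), by positivity, fun σ => ?_, fun l hl o σ h6 h7 => ?_,
    fun β hβ l hl s b => ?_⟩, rfl, rfl, ?_⟩
  · linarith [hss σ, mul_le_mul_of_nonneg_right hM1 (hS0 σ), mul_nonneg (zero_le_one.trans ha) (hS0 σ)]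
  · have hl0 : 0 < l := by linarith
    have h8 := sq_card_le (d := v ^ 12) (by linarith) hl0.le o fun x hx => mem_box.1 (h6 x hx)
    have h9 := mul_le_mul_of_nonneg_right (pow_le_pow_left₀ (by positivity)
      (show l + 2 * v ^ 12 ≤ 3 * l by linarith) 3) (hS0 σ)
    have hn : (0 : ℝ) ≤ σ.card := by positivity
    have h10 := mul_le_mul_of_nonneg_right h7 hn
    have h11 : 108 / c * σ.card ≤ 54 * Sq (v ^ 12) 0 σ :=
      le_of_mul_le_mul_right (a := l ^ 3) (by linarith) (by positivity)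
    rw [div_mul_eq_mul_div, div_le_iff₀ hc0] at h11
    linarith [hss σ, mul_le_mul_of_nonneg_right hM1 (hS0 σ), mul_le_mul_of_nonneg_left h11 hM0,
      mul_le_mul_of_nonneg_right hM2 hn]
  · have hl1 : 1 ≤ l := by linarith
    have := block_entropy (m := k + 1) (a := a) (p := p) (ε := e / 4) (M := M) (β := β) hδ
      (by linarith) (hmax δ hδ) h1 hφM hl1 (by linarith) (by linarith) (by linarith) (by linarith)
      (by linarith) (by
        push_cast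
        rw [← hm, hδ2, Real.exp_neg]; field_simp; exact le_rfl)
      ((div_le_iff₀ (by positivity)).1 (hl2 l (by linarith)).le) (by
        push_cast
        rw [← hm]; linarith [mul_le_mul_of_nonneg_right hβ hM0]) s b
    push_cast at this
    rw [← hm] at this
    refine this.trans (ex_mono (mul_le_mul_of_nonneg_right ?_ (by positivity)))
    have g1 : a * p * (m * e) ≤ a * p * (m ^ 2 * e) := by
      gcongr; exact le_self_pow₀ (by linarith) two_ne_zero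
    have g2 : ε * a * p ≤ ε * a * p ^ 2 := by
      gcongr; exact le_self_pow₀ hp two_ne_zero
    have g3 : ε * a ≤ ε * a * p := le_mul_of_one_le_right (by positivity) hp
    have g4 := mul_le_mul_of_nonneg_right ha1 (show 0 ≤ p by linarith)
    have g5 : m ≤ m * p := le_mul_of_one_le_right (by linarith) hp
    have g6 : a * p * (m ^ 2 * e) = ε * a * p / 4 := by rw [mul_comm _ e, he2]; ring
    have g7 : a * (m ^ 2 * e) = ε * a / 4 := by rw [mul_comm _ e, he2]; ring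
    have g8 : 0 ≤ ε * a := by positivity
    linarith
  · refine Sys.mix_of _ (C := C) hm hτ hτ1 hL.le rfl hv3 h5 (by rw [← he]; exact hα)
      (show 3 * C ≤ ε * a * p from ?_) (fun β z => ?_) fun β z => ?_
    · linarith [le_abs_self C, le_mul_of_one_le_right (show 0 ≤ ε * a by positivity) hp]
    · refine le_trans ?_ (cluster_lower h1 hδ hτ0 (by linarith) hδ1 h4 (tmpl_zero τ0) β z)
      rw [hC]
      refine ENNReal.ofReal_le_ofReal ?_
      simp only [pow_zero, mul_one, zero_add, Nat.factorial_one, Nat.cast_one, div_one]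
      refine (div_le_self (by positivity) (by exact_mod_cast (k + 1).factorial_pos)).trans
        (mul_le_of_le_one_right (by positivity) (pow_le_one₀ (by positivity) ?_))
      linarith [pow_le_one₀ (n := 3) hτ0.le (by linarith)]
    · refine le_trans (le_of_eq ?_) (cluster_lower h1 hδ hτ0 (by linarith) hδ1 h4 htm β z)
      change ex (-(a * p * m / 2 * k + C)) = _
      rw [neg_add, ex_add, hC, ex, ← ENNReal.ofReal_mul (Real.exp_pos _).le, hδ2]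
      congr 1
      rw [show -(a * p * m / 2 * k) = k * -(a * p * m / 2) by ring, Real.exp_nat_mul]
      ring

noncomputable def cl (x : ℝ) : ℝ := max 0 (min 1 x)

lemma cl_nonneg (x : ℝ) : 0 ≤ cl x := le_max_left _ _

lemma cl_le (x : ℝ) : cl x ≤ 1 := max_le zero_le_one (min_le_left _ _)

lemma cl_div_eq_one {x y : ℝ} (hy : 0 < y) (h : y ≤ x) : cl (x / y) = 1 := by
  rw [cl, min_eq_left ((one_le_div hy).2 h), max_eq_right zero_le_one]

lemma cl_div_eq_zero {x y : ℝ} (hy : 0 < y) (h : x ≤ 0) : cl (x / y) = 0 :=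
  max_eq_left (min_le_of_right_le (div_nonpos_of_nonpos_of_nonneg h hy.le))

theorem exists_model : ∃ p, 1 ≤ p ∧
    Tendsto (fun L : ℝ => (packingNumber L : ℝ) / L ^ 3) atTop (𝓝 p) ∧
    ∃ (δ : ℝ) (φ1 : ℝ → ℝ), 0 < δ ∧ δ ≤ 1 ∧ Continuous φ1 ∧ (∃ M, ∀ r, 0 ≤ φ1 r ∧ φ1 r ≤ M) ∧
      ∀ χ : ℝ → ℝ, Measurable χ → (∀ r, 0 ≤ χ r) → (∀ r, δ / 2 ≤ r → χ r = 0) →
        ∃ S : Sys, S.φ0 = (fun r => φ1 r + χ r) ∧ S.p = p ∧ S.Mix := by
  obtain ⟨p, hp, hlim, δ, M, τ, τ0, hδ, hδ1, hM, hτ, hτ1, hτ0, hτ01, h⟩ := exists_params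
  have h0 := mul_pos hδ hτ0
  have h1 := mul_le_mul_of_nonneg_left hτ01 hδ.le
  have hc : Continuous fun r => M * (cl ((δ * (1 / 2 + τ0) - r) / (δ * τ0)) +
      min (cl ((r - δ * (1 - τ0)) / (δ * τ0))) (cl ((1 + τ - r) / τ))) := by
    unfold cl; fun_prop
  have hn : ∀ r, 0 ≤ M * (cl ((δ * (1 / 2 + τ0) - r) / (δ * τ0)) +
      min (cl ((r - δ * (1 - τ0)) / (δ * τ0))) (cl ((1 + τ - r) / τ))) := fun r =>
    mul_nonneg hM (add_nonneg (cl_nonneg _) (le_min (cl_nonneg _) (cl_nonneg _)))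
  refine ⟨p, hp, hlim, δ, _, hδ, hδ1, hc, ⟨M * (1 + 1), fun r => ⟨hn r, mul_le_mul_of_nonneg_left
    (add_le_add (cl_le _) (min_le_of_left_le (cl_le _))) hM⟩⟩, fun χ a1 a2 a3 =>
    h _ (hc.measurable.add a1) (fun r => add_nonneg (hn r) (a2 r)) (fun r hr => ?_)
      (fun r b1 b2 => ?_) fun r b1 => ?_⟩
  · refine le_add_of_le_of_nonneg (le_mul_of_one_le_right hM ?_) (a2 r)
    rcases hr with hr | hr
    · rw [cl_div_eq_one h0 (by linarith [mem_Iic.1 hr])]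
      exact le_add_of_nonneg_right (le_min (cl_nonneg _) (cl_nonneg _))
    · rw [cl_div_eq_one h0 (x := r - _) (by linarith [hr.1]), cl_div_eq_one hτ (by linarith [hr.2]),
        min_self]
      exact le_add_of_nonneg_left (cl_nonneg _)
  · rw [a3 r (by linarith), cl_div_eq_zero h0 (by linarith), cl_div_eq_zero h0 (by linarith),
      min_eq_left (cl_nonneg _)]
    simp
  · rw [a3 r (by linarith), cl_div_eq_zero h0 (by linarith), cl_div_eq_zero hτ (by linarith),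
      min_eq_right (cl_nonneg _)]
    simp

lemma Sys.stable (S : Sys) (N : ℕ) (x : Fin N → Pt) : -S.B * N ≤ energy S.φ x := by
  simpa [energy_eq] using S.pot.stab (cfg x)

lemma Sys.psi_bdd (S : Sys) : ∃ C, ∀ r, 0 ≤ psi S.a S.v 0 r ∧ psi S.a S.v 0 r ≤ C :=
  ⟨_, fun r => ⟨psi_nonneg S.a0 S.v2 0 r, psi_le S.a0 S.v2 0 r⟩⟩

lemma Sys.decay (S : Sys) : ∃ C, ∀ r : ℝ, 2 ≤ r → |S.φ r| ≤ C * r ^ (-(3 + 1 / 32 : ℝ)) := by
  obtain ⟨C, hC⟩ := psi_decay S.a0 S.v2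
  refine ⟨C, fun r hr => ?_⟩
  rw [Sys.φ, S.far r hr, zero_sub, abs_neg, abs_of_nonneg (psi_nonneg S.a0 S.v2 0 r)]
  exact hC r (by linarith)

end Crest.Agent.H5.Gas
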